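import Crest.Agent.R18.Dict
import Crest.Agent.R18.Dec.Res

/-! Row 18 toolkit: decomposition groups and Frobenius elements. -/

set_option autoImplicit false
set_option linter.unusedSectionVars false
open scoped Pointwise NumberField
open IsDedekindDomain Crest.NumberTheoryR

namespace Crest.Agent.R18

variable {F E : Type*} [Field F] [NumberField F] [Field E] [Algebra F E] [IsGalois F E]

variable {A B : ValuationSubring E}

/-- the prime ideal of `𝓞 E` defined by `A` -/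
def deca_id (A : ValuationSubring E) : Ideal (𝓞 E) where
  carrier := {x | A.valuation (x : E) < 1}
  zero_mem' := by simp
  add_mem' := fun {a b} ha hb => by
    have := Valuation.map_add_lt A.valuation (show A.valuation (a : E) < 1 from ha)
      (show A.valuation (b : E) < 1 from hb)
    simpa using this
  smul_mem' := fun c x hx => by
    have hc : A.valuation (c : E) ≤ 1 :=
      (A.valuation_le_one_iff _).2 (mem_of_isIntegral A c.isIntegral_coe)
    have hx' : A.valuation (x : E) < 1 := hx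
    change A.valuation ((c * x : 𝓞 E) : E) < 1
    have : ((c * x : 𝓞 E) : E) = (c : E) * x := by simp
    rw [this, map_mul]
    exact mul_lt_one_of_nonneg_of_lt_one_right hc zero_le hx'

theorem deca_mem {x : 𝓞 E} : x ∈ deca_id A ↔ A.valuation (x : E) < 1 := Iff.rfl

theorem deca_le (A : ValuationSubring E) (x : 𝓞 E) : A.valuation (x : E) ≤ 1 :=
  (A.valuation_le_one_iff _).2 (mem_of_isIntegral A x.isIntegral_coe)

instance deca_prime (A : ValuationSubring E) : (deca_id A).IsPrime where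
  ne_top' := fun h => by
    have : (1 : 𝓞 E) ∈ deca_id A := h ▸ Submodule.mem_top
    rw [deca_mem] at this
    simp at this
  mem_or_mem' := fun {a b} hab => by
    rw [deca_mem] at hab
    have e : ((a * b : 𝓞 E) : E) = (a : E) * b := by simp
    rw [e, map_mul] at hab
    by_contra hc
    push Not at hc
    have h1 : A.valuation (a : E) = 1 := le_antisymm (deca_le A a) (not_lt.1 hc.1)
    have h2 : A.valuation (b : E) = 1 := le_antisymm (deca_le A b) (not_lt.1 hc.2)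
    rw [h1, h2, one_mul] at hab
    exact lt_irrefl _ hab

/-- fractions and a Fermat exponent in a number field -/
theorem deca_nf {K : Type*} [Field K] [NumberField K] (ι : K →+* E) {p : ℕ} (hA : Over A p) :
    (∀ x : K, ι x ∈ A → ∃ a b : 𝓞 K, A.valuation (ι b) = 1 ∧ x * b = a) ∧
    ∃ n : ℕ, 0 < n ∧ ∀ x : K, ι x ∈ A → A.valuation (ι x - ι x ^ p ^ n) < 1 := by
  obtain ⟨𝔭, hp, h𝔭⟩ := exists_prime_below ι A hA
  have hlt : ∀ y : K, A.valuation (ι y) < 1 ↔ 𝔭.valuation K y < 1 := fun y => by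
    have := h𝔭 1 y
    simp only [map_one] at this
    rw [← not_le, ← not_le, this]
  have hle : ∀ y : K, A.valuation (ι y) ≤ 1 ↔ 𝔭.valuation K y ≤ 1 := fun y => by
    simpa using h𝔭 y 1
  have hmem : ∀ y : 𝓞 K, A.valuation (ι y) < 1 ↔ y ∈ 𝔭.asIdeal := fun y => by
    rw [hlt]; exact 𝔭.valuation_lt_one_iff_mem y
  have hint : ∀ y : 𝓞 K, A.valuation (ι y) ≤ 1 := fun y => by
    rw [hle]; exact 𝔭.valuation_le_one y
  have h1 : ∀ x : K, ι x ∈ A → ∃ a b : 𝓞 K, A.valuation (ι b) = 1 ∧ x * b = a := by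
    intro x hx
    obtain ⟨a, b, hab⟩ := 𝔭.exists_primeCompl_mul_eq_of_integer x
      ((hle x).1 ((A.valuation_le_one_iff _).2 hx))
    refine ⟨a, b, le_antisymm (hint _) (not_lt.1 fun h => b.2 ((hmem _).1 h)), hab⟩
  refine ⟨h1, ?_⟩
  haveI := 𝔭.isMaximal
  letI := Ideal.Quotient.field 𝔭.asIdeal
  haveI : Finite (𝓞 K ⧸ 𝔭.asIdeal) := Ideal.finiteQuotientOfFreeOfNeBot _ 𝔭.ne_bot
  letI := Fintype.ofFinite (𝓞 K ⧸ 𝔭.asIdeal)
  haveI := Fact.mk hA.1
  haveI : CharP (𝓞 K ⧸ 𝔭.asIdeal) p := by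
    apply (CharP.charP_iff_prime_eq_zero hA.1).2
    rw [← map_natCast (Ideal.Quotient.mk 𝔭.asIdeal), Ideal.Quotient.eq_zero_iff_mem]
    exact hp
  obtain ⟨n, -, hn⟩ := FiniteField.card (𝓞 K ⧸ 𝔭.asIdeal) p
  refine ⟨n, n.2, fun x hx => ?_⟩
  have hq : ∀ y : 𝓞 K, A.valuation (ι y - ι y ^ p ^ (n : ℕ)) < 1 := fun y => by
    have : y - y ^ p ^ (n : ℕ) ∈ 𝔭.asIdeal := by
      rw [← Ideal.Quotient.eq_zero_iff_mem, map_sub, map_pow, ← hn, FiniteField.pow_card, sub_self]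
    have := (hmem _).2 this
    simpa using this
  obtain ⟨a, b, hb, hab⟩ := h1 x hx
  have hx1 : A.valuation (ι x) ≤ 1 := (A.valuation_le_one_iff _).2 hx
  have hab' : ι x * ι b = ι a := by rw [← map_mul, hab]
  have e : (ι x - ι x ^ p ^ (n : ℕ)) * ι b ^ p ^ (n : ℕ) =
      (ι a - ι a ^ p ^ (n : ℕ)) - ι x * (ι b - ι b ^ p ^ (n : ℕ)) := by
    rw [← hab']; ring
  have h2 : A.valuation ((ι x - ι x ^ p ^ (n : ℕ)) * ι b ^ p ^ (n : ℕ)) < 1 := by
    rw [e]
    refine Valuation.map_sub_lt _ (hq a) ?_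
    rw [map_mul]
    exact mul_lt_one_of_nonneg_of_lt_one_right hx1 zero_le (hq b)
  rwa [map_mul, map_pow, hb, one_pow, mul_one] at h2

theorem deca_int {K : Type*} [Field K] (ι : K →+* E) (a : 𝓞 K) : IsIntegral ℤ (ι a) :=
  a.isIntegral_coe.map ι.toIntAlgHom

/-- fractions inside the fixed field of any subgroup -/
theorem deca_frac (F : Type*) [Field F] [NumberField F] [Algebra F E] [IsGalois F E] {p : ℕ}
    (hA : Over A p) {x : E} (hx : x ∈ A) :
    (∃ a b : 𝓞 E, A.valuation (b : E) = 1 ∧ x * b = a ∧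
      ∀ g : E ≃ₐ[F] E, g x = x → g a = a ∧ g b = b) ∧
    ∃ n : ℕ, 0 < n ∧ A.valuation (x - x ^ p ^ n) < 1 := by
  let K := IntermediateField.adjoin F {x}
  haveI : FiniteDimensional F K :=
    IntermediateField.adjoin.finiteDimensional (Algebra.IsIntegral.isIntegral x)
  haveI : NumberField K := NumberField.of_module_finite F K
  let ι : K →+* E := algebraMap K E
  have hxK : x ∈ K := IntermediateField.mem_adjoin_simple_self F x
  obtain ⟨h1, n, hn, h2⟩ := deca_nf ι hA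
  refine ⟨?_, n, hn, h2 ⟨x, hxK⟩ hx⟩
  obtain ⟨a, b, hb, hab⟩ := h1 ⟨x, hxK⟩ hx
  have hfix : ∀ g : E ≃ₐ[F] E, g x = x → ∀ y : K, g (y : E) = y := by
    intro g hg y
    have : K ≤ IntermediateField.fixedField (Subgroup.zpowers g) := by
      rw [IntermediateField.adjoin_simple_le_iff, IntermediateField.mem_fixedField_iff]
      rintro _ ⟨k, rfl⟩
      exact MulAction.mem_stabilizer_iff.1 (Subgroup.zpow_mem (MulAction.stabilizer (E ≃ₐ[F] E) x)
        (MulAction.mem_stabilizer_iff.2 (show g • x = x from hg)) k)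
    exact (IntermediateField.mem_fixedField_iff _ _).1 (this y.2) g (Subgroup.mem_zpowers g)
  refine ⟨⟨ι a, deca_int ι a⟩, ⟨ι b, deca_int ι b⟩, hb, ?_, fun g hg => ⟨hfix g hg _, hfix g hg _⟩⟩
  exact (map_mul ι (⟨x, hxK⟩ : K) (b : K)).symm.trans (congrArg ι hab)

theorem deca_coe_smul (g : E ≃ₐ[F] E) (x : 𝓞 E) : ((g • x : 𝓞 E) : E) = g x := rfl

theorem deca_mem_of {p : ℕ} (hA : Over A p) (g : E ≃ₐ[F] E)
    (h : ∀ x : 𝓞 E, B.valuation (g x) < 1 → A.valuation (x : E) < 1) {x : E} (hx : x ∈ A) :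
    g x ∈ B := by
  obtain ⟨⟨a, b, hb, hab, -⟩, -⟩ := deca_frac F hA hx
  have hb' : B.valuation (g b) = 1 :=
    le_antisymm (deca_le B (g • b)) (not_lt.1 fun h' => (h b h').ne hb)
  have : B.valuation (g x) * B.valuation (g b) ≤ 1 := by
    rw [← map_mul, ← map_mul, hab]; exact deca_le B (g • a)
  rw [hb', mul_one] at this
  exact (B.valuation_le_one_iff _).1 this

theorem deca_smul_eq {p : ℕ} (hA : Over A p) (hB : Over B p) (g : E ≃ₐ[F] E)
    (h : ∀ x : 𝓞 E, B.valuation (g x) < 1 ↔ A.valuation (x : E) < 1) : g • A = B := by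
  ext y
  obtain ⟨x, rfl⟩ := g.surjective y
  rw [mem_smul_val]
  refine ⟨deca_mem_of hA g fun x => (h x).1, fun hx => ?_⟩
  have := deca_mem_of (B := A) hB g⁻¹ (fun z hz => ?_) hx
  · simpa using this
  · have := (h (g⁻¹ • z)).2 hz
    simpa [deca_coe_smul] using this

/-- the two profinite theorems of Mathlib, for a closed subgroup acting on `𝓞 E` -/
theorem deca_profinite (U : Subgroup (E ≃ₐ[F] E)) (hU : IsClosed (U : Set (E ≃ₐ[F] E))) :
    (∀ (P Q : Ideal (𝓞 E)) [P.IsPrime] [Q.IsPrime],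
      (∀ x : 𝓞 E, Fix U (x : E) → (x ∈ P ↔ x ∈ Q)) → ∃ g ∈ U, ∀ x : 𝓞 E, g • x ∈ Q ↔ x ∈ P) ∧
    ∀ (Q : Ideal (𝓞 E)) [Q.IsPrime] (φ : (𝓞 E ⧸ Q) ≃+* (𝓞 E ⧸ Q)),
      (∀ x : 𝓞 E, Fix U (x : E) → φ (Ideal.Quotient.mk Q x) = Ideal.Quotient.mk Q x) →
      ∃ g ∈ U, (∀ x : 𝓞 E, g • x ∈ Q ↔ x ∈ Q) ∧
        ∀ x : 𝓞 E, Ideal.Quotient.mk Q (g • x) = φ (Ideal.Quotient.mk Q x) := by
  letI : TopologicalSpace (𝓞 E) := ⊥
  haveI : DiscreteTopology (𝓞 E) := ⟨rfl⟩
  haveI : CompactSpace U := isCompact_iff_compactSpace.1 hU.isCompact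
  haveI : ContinuousSMul U (𝓞 E) := by
    rw [continuousSMul_iff_stabilizer_isOpen]
    intro x
    have h1 := (stabilizer_isOpen_of_isIntegral (K := F) (x : E)).preimage
      (continuous_subtype_val (p := fun g => g ∈ U))
    convert h1 using 1
    ext g
    simp only [SetLike.mem_coe, MulAction.mem_stabilizer_iff, Set.mem_preimage]
    exact ⟨fun h => congrArg (fun y : 𝓞 E => (y : E)) h, fun h => Subtype.ext h⟩
  let R := FixedPoints.subring (𝓞 E) U
  haveI : Algebra.IsInvariant R (𝓞 E) U := ⟨fun b hb => ⟨⟨b, hb⟩, rfl⟩⟩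
  have hR : ∀ x : R, Fix U ((x : 𝓞 E) : E) := fun x g hg =>
    congrArg (fun y : 𝓞 E => (y : E)) (x.2 ⟨g, hg⟩)
  refine ⟨fun P Q _ _ h => ?_, fun Q _ φ h => ?_⟩
  · obtain ⟨g, hg⟩ := Algebra.IsInvariant.exists_smul_of_under_eq_of_profinite (A := R) (G := U) P Q
      (by ext x; exact h x (hR x))
    refine ⟨g, g.2, fun x => ?_⟩
    rw [hg]
    exact Ideal.smul_mem_pointwise_smul_iff
  · haveI : Q.LiesOver (Q.under R) := ⟨rfl⟩
    let σ : (𝓞 E ⧸ Q) ≃ₐ[R ⧸ Q.under R] (𝓞 E ⧸ Q) :=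
      { φ with
        commutes' := fun y => by
          obtain ⟨y, rfl⟩ := Ideal.Quotient.mk_surjective y
          exact h y (hR y) }
    obtain ⟨g, hg⟩ := Ideal.Quotient.stabilizerHom_surjective_of_profinite (G := U) (Q.under R) Q σ
    refine ⟨g.1, g.1.2, fun x => ?_, fun x => ?_⟩
    · have := g.2
      rw [MulAction.mem_stabilizer_iff] at this
      have h2 : g.1 • x ∈ g.1 • Q ↔ x ∈ Q := Ideal.smul_mem_pointwise_smul_iff
      exact (Iff.of_eq (congrArg (fun I => g.1 • x ∈ I) this)).symm.trans h2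
    · have := Ideal.Quotient.stabilizerHom_apply Q (Q.under R) U g x
      rw [hg] at this
      exact this.symm

/-- a residue automorphism that is trivial on the fixed field of `U` comes from `U` -/
theorem deca_lift (U : Subgroup (E ≃ₐ[F] E)) (hU : IsClosed (U : Set (E ≃ₐ[F] E))) {p : ℕ}
    (hA : Over A p) (φ : (𝓞 E ⧸ deca_id A) ≃+* (𝓞 E ⧸ deca_id A))
    (h : ∀ x : 𝓞 E, Fix U (x : E) → φ (Ideal.Quotient.mk _ x) = Ideal.Quotient.mk _ x) :
    ∃ g ∈ U, Stab A g ∧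
      ∀ x : 𝓞 E, Ideal.Quotient.mk (deca_id A) (g • x) = φ (Ideal.Quotient.mk _ x) := by
  obtain ⟨g, hg, h1, h2⟩ := (deca_profinite U hU).2 (deca_id A) φ h
  exact ⟨g, hg, stab_iff.2 (deca_smul_eq hA hA g h1), h2⟩

theorem deca_frob_of_int {p N : ℕ} (hA : Over A p) {g : E ≃ₐ[F] E} (hg : Stab A g)
    (h : ∀ x : 𝓞 E, A.valuation (g x - (x : E) ^ N) < 1) : Frob A g N := by
  refine ⟨hg, fun x hx => ?_⟩
  obtain ⟨⟨a, b, hb, hab, -⟩, -⟩ := deca_frac F hA hx
  have hx1 : A.valuation (g x) ≤ 1 := (A.valuation_le_one_iff _).2 ((hg x).2 hx)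
  have e : (g x - x ^ N) * (b : E) ^ N = (g a - (a : E) ^ N) - g x * (g b - (b : E) ^ N) := by
    rw [← hab, map_mul]; ring
  have h2 : A.valuation ((g x - x ^ N) * (b : E) ^ N) < 1 := by
    rw [e]
    refine Valuation.map_sub_lt _ (h a) ?_
    rw [map_mul]
    exact mul_lt_one_of_nonneg_of_lt_one_right hx1 zero_le (h b)
  rwa [map_mul, map_pow, hb, one_pow, mul_one] at h2

theorem deca_fix_top {x : Qb} (hx : Fix (⊤ : Subgroup Gam) x) : ∃ q : ℚ, x = q := by
  have : x ∈ (⊥ : IntermediateField ℚ Qb) := by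
    rw [← InfiniteGalois.fixedField_bot, IntermediateField.mem_fixedField_iff]
    exact hx
  obtain ⟨q, hq⟩ := IntermediateField.mem_bot.1 this
  exact ⟨q, by rw [← hq]; simp⟩

theorem deca_rat_mem {L : Type*} [Field L] [CharZero L] {B : ValuationSubring L} {p : ℕ}
    (h : Over B p) (q : ℚ) : (q : L) ∈ B ↔ ¬ p ∣ q.den := by
  have hd : (q.den : L) ≠ 0 := by exact_mod_cast q.den_nz
  have e : (q : L) * q.den = q.num := by exact_mod_cast q.mul_den_eq_num
  have hn : B.valuation (q.num : L) ≤ 1 := (B.valuation_le_one_iff _).2 (intCast_mem B _)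
  rw [← B.valuation_le_one_iff]
  constructor
  · intro hq hp
    have h1 : B.valuation (q.den : L) < 1 := by
      have := (h.val_int (q.den : ℤ)).2 (by exact_mod_cast hp)
      simpa using this
    have h2 : B.valuation (q.num : L) < 1 := by
      rw [← e, map_mul]
      exact mul_lt_one_of_nonneg_of_lt_one_right hq zero_le h1
    have h3 : p ∣ q.num.natAbs := Int.natCast_dvd.1 ((h.val_int _).1 h2)
    exact h.1.one_lt.ne' (Nat.eq_one_of_dvd_coprimes q.reduced h3 hp)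
  · intro hp
    rw [← e, map_mul, h.val_nat hp, mul_one] at hn
    exact hn

/-- primes over the same prime are conjugate -/
theorem conj_of_agree (U : Subgroup (E ≃ₐ[F] E)) (hU : IsOpen (U : Set (E ≃ₐ[F] E))) {p : ℕ}
    (hA : Over A p) (h : Agree U A B) : ∃ g ∈ U, g • A = B := by
  obtain ⟨g, hg, h1⟩ := (deca_profinite U (U.isClosed_of_isOpen hU)).1 (deca_id A) (deca_id B)
    (fun x hx => by
      have := h.val_le (x := 1) (y := (x : E)) (fun g _ => map_one g) hx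
      simp only [map_one] at this
      rw [deca_mem, deca_mem, ← not_le, ← not_le, this])
  exact ⟨g, hg, deca_smul_eq hA (h.over hA) g h1⟩

theorem conj_rat {B B' : ValuationSubring Qb} {p : ℕ} (h : Over B p) (h' : Over B' p) :
    ∃ γ : Gam, γ • B = B' := by
  obtain ⟨g, -, hg⟩ := conj_of_agree (F := ℚ) (B := B') ⊤ isOpen_univ h (fun x hx => by
    obtain ⟨q, rfl⟩ := deca_fix_top hx
    rw [deca_rat_mem h, deca_rat_mem h'])
  exact ⟨g, hg⟩

/-- existence of Frobenius elements -/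
theorem exists_frob (U : Subgroup (E ≃ₐ[F] E)) (hU : IsOpen (U : Set (E ≃ₐ[F] E))) {p : ℕ}
    (hA : Over A p) (f : ℕ)
    (h : ∀ x ∈ A, Fix U x → A.valuation (x - x ^ (p ^ f)) < 1) :
    ∃ σ ∈ U, Frob A σ (p ^ f) := by
  haveI := Fact.mk hA.1
  haveI : CharP (𝓞 E ⧸ deca_id A) p := by
    apply (CharP.charP_iff_prime_eq_zero hA.1).2
    rw [← map_natCast (Ideal.Quotient.mk (deca_id A)), Ideal.Quotient.eq_zero_iff_mem, deca_mem]
    simpa using hA.2
  have hbij : Function.Bijective (iterateFrobenius (𝓞 E ⧸ deca_id A) p f) := by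
    refine ⟨iterateFrobenius_inj _ p f, fun y => ?_⟩
    obtain ⟨x, rfl⟩ := Ideal.Quotient.mk_surjective y
    obtain ⟨-, n, hn, hx⟩ := deca_frac F hA (mem_of_isIntegral A x.isIntegral_coe)
    have h1 : Ideal.Quotient.mk (deca_id A) x ^ p ^ n = Ideal.Quotient.mk (deca_id A) x := by
      rw [← map_pow, eq_comm, Ideal.Quotient.eq, deca_mem]
      simpa using hx
    have h2 : ∀ k : ℕ, Ideal.Quotient.mk (deca_id A) x ^ p ^ (n * k) =
        Ideal.Quotient.mk (deca_id A) x := by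
      intro k
      induction k with
      | zero => simp
      | succ k ih => rw [Nat.mul_succ, pow_add, pow_mul, ih, h1]
    refine ⟨Ideal.Quotient.mk (deca_id A) x ^ p ^ (n * f - f), ?_⟩
    rw [iterateFrobenius_def, ← pow_mul, ← pow_add, Nat.sub_add_cancel (Nat.le_mul_of_pos_left f hn),
      h2]
  obtain ⟨g, hg, hs, h2⟩ := deca_lift U (U.isClosed_of_isOpen hU) hA
    (RingEquiv.ofBijective _ hbij) (fun x hx => by
      change iterateFrobenius _ p f _ = _
      rw [iterateFrobenius_def, ← map_pow, eq_comm, Ideal.Quotient.eq, deca_mem]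
      simpa using h x (mem_of_isIntegral A x.isIntegral_coe) hx)
  refine ⟨g, hg, deca_frob_of_int hA hs fun x => ?_⟩
  have := h2 x
  change _ = iterateFrobenius _ p f _ at this
  rw [iterateFrobenius_def, ← map_pow, Ideal.Quotient.eq, deca_mem] at this
  simpa [deca_coe_smul] using this

theorem exists_frob_rat {B : ValuationSubring Qb} {p : ℕ} (h : Over B p) :
    ∃ φ : Gam, Frob B φ p := by
  obtain ⟨σ, -, hσ⟩ := exists_frob (F := ℚ) ⊤ isOpen_univ h 1 (fun x hx hf => by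
    obtain ⟨q, rfl⟩ := deca_fix_top hf
    have hd := (deca_rat_mem h q).1 hx
    have e : (q : Qb) * q.den = q.num := by exact_mod_cast q.mul_den_eq_num
    haveI := Fact.mk h.1
    have hz : ∀ n : ℤ, B.valuation ((n : Qb) - (n : Qb) ^ p) < 1 := fun n => by
      have := (h.val_int (n - n ^ p)).2 (by
        rw [← ZMod.intCast_zmod_eq_zero_iff_dvd]; push_cast; rw [ZMod.pow_card, sub_self])
      simpa using this
    have e2 : ((q : Qb) - (q : Qb) ^ p) * (q.den : Qb) ^ p =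
        ((q.num : Qb) - (q.num : Qb) ^ p) - q * ((q.den : Qb) - (q.den : Qb) ^ p) := by
      rw [← e]; ring
    have h2 : B.valuation (((q : Qb) - (q : Qb) ^ p) * (q.den : Qb) ^ p) < 1 := by
      rw [e2]
      refine Valuation.map_sub_lt _ (hz _) ?_
      rw [map_mul]
      exact mul_lt_one_of_nonneg_of_lt_one_right ((B.valuation_le_one_iff _).2 hx) zero_le
        (by simpa using hz q.den)
    rw [map_mul, map_pow, h.val_nat hd, one_pow, mul_one] at h2
    simpa using h2)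
  exact ⟨σ, by simpa using hσ⟩

theorem exists_minFrob (U : Subgroup (E ≃ₐ[F] E)) (hU : IsOpen (U : Set (E ≃ₐ[F] E))) {p : ℕ}
    (hA : Over A p) : ∃ σ f, MinFrob U A p σ f := by
  classical
  haveI := numberField_fixedField U hU
  obtain ⟨-, n, hn, h2⟩ := deca_nf (algebraMap (IntermediateField.fixedField U) E) hA
  have hex : ∃ f, 0 < f ∧ ∃ σ ∈ U, Frob A σ (p ^ f) :=
    ⟨n, hn, exists_frob U hU hA n fun x hx hf => h2 ⟨x, (fix_iff_mem U x).1 hf⟩ hx⟩
  obtain ⟨h0, σ, hσ, hf⟩ := Nat.find_spec hex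
  exact ⟨σ, Nat.find hex, hσ, h0, hf, fun j hj hlt hj' => Nat.find_min hex hlt ⟨hj, hj'⟩⟩

theorem MinFrob.le_index {U : Subgroup Gam} (hU : IsOpen (U : Set Gam)) {B : ValuationSubring Qb}
    {p f : ℕ} {σ : Gam} (hB : Over B p) (h : MinFrob U B p σ f) : f ≤ U.index := by
  obtain ⟨φ, hφ⟩ := exists_frob_rat hB
  obtain ⟨n, hn, hle, hmem⟩ := U.exists_pow_mem_of_index_ne_zero
    (finiteIndex_of_open U hU).index_ne_zero φ
  by_contra hc
  exact h.2.2.2 n hn (by omega) ⟨φ ^ n, hmem, hφ.pow n⟩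

/-- on finitely many elements a decomposition element acts as a power of Frobenius -/
theorem dec {q : ℕ} (hA : Over A q) {g : E ≃ₐ[F] E} (hg : Stab A g) (T : Finset E)
    (hT : ∀ x ∈ T, x ∈ A) : ∃ a : ℕ, ∀ x ∈ T, A.valuation (g x - x ^ (q ^ a)) < 1 := by
  obtain ⟨W, hn, hW, hf⟩ := exists_open_fix (F := F) (T : Set E) T.finite_toSet
  obtain ⟨a, ha⟩ := dec_level hA hg W hn hW
  exact ⟨a, fun x hx => ha x (hT x hx) (hf x hx)⟩

theorem dab {q : ℕ} (hA : Over A q) {g h : E ≃ₐ[F] E} (hg : Stab A g) (hh : Stab A h) :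
    Inert A (g * h * g⁻¹ * h⁻¹) := by
  refine ⟨((hg.mul hh).mul hg.inv).mul hh.inv, fun x hx => ?_⟩
  have hy : (g⁻¹ * h⁻¹) x ∈ A := ((hg.inv.mul hh.inv) x).mpr hx
  set y := (g⁻¹ * h⁻¹) x with hydef
  obtain ⟨a, ha⟩ := dec hA hg {y} (by simpa using hy)
  obtain ⟨b, hb⟩ := dec hA hh {y} (by simpa using hy)
  have ha := ha y (by simp)
  have hb := hb y (by simp)
  have e1 : (g * h * g⁻¹ * h⁻¹) x = g (h y) := by simp [hydef]
  have e2 : x = h (g y) := by simp [hydef]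
  have key : ∀ {g h : E ≃ₐ[F] E} {a b : ℕ}, Stab A g → A.valuation (g y - y ^ q ^ a) < 1 →
      A.valuation (h y - y ^ q ^ b) < 1 → A.valuation (g (h y) - y ^ (q ^ a * q ^ b)) < 1 := by
    intro g h a b hg ha hb
    rw [← hg.val_eq, map_sub, map_pow] at hb
    refine val_sub_trans hb ?_
    rw [pow_mul]
    exact val_pow_sub_lt ((hg y).mpr hy) (A.pow_mem hy _) ha _
  rw [e1]
  nth_rewrite 1 [e2]
  refine val_sub_trans (key hg ha hb) (val_sub_symm ?_)
  rw [mul_comm]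
  exact key hh hb ha

/-- an integral primitive element -/
theorem decc_pb (K : Type*) [Field K] [NumberField K] : ∃ pb : PowerBasis ℚ K, IsIntegral ℤ pb.gen := by
  let pb := Field.powerBasisOfFiniteOfSeparable ℚ K
  obtain ⟨y, hy, h⟩ := ((IsFractionRing.isAlgebraic_iff ℤ ℚ K).2
    (Algebra.IsAlgebraic.isAlgebraic pb.gen)).exists_integral_multiple
  refine ⟨PowerBasis.ofAdjoinEqTop (x := y • pb.gen) h.tower_top (pb.adjoin_eq_top_of_gen_mem_adjoin ?_),
    by rwa [PowerBasis.ofAdjoinEqTop_gen]⟩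
  have := Subalgebra.smul_mem _ (Algebra.self_mem_adjoin_singleton ℚ (y • pb.gen)) (y : ℚ)⁻¹
  rwa [← Int.cast_smul_eq_zsmul ℚ, inv_smul_smul₀ (Int.cast_ne_zero.2 hy), Int.cast_smul_eq_zsmul] at this

theorem decc_cong (f : Polynomial ℤ) {x y : E} (hx : x ∈ A) (hy : y ∈ A) (h : A.valuation (x - y) < 1) :
    A.valuation (Polynomial.aeval x f - Polynomial.aeval y f) < 1 := by
  obtain ⟨c, hc⟩ := Polynomial.sub_dvd_eval_sub (⟨x, hx⟩ : A) ⟨y, hy⟩ (f.map (algebraMap ℤ A))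
  have := congrArg (algebraMap A E) hc
  rw [Polynomial.eval_map_algebraMap, Polynomial.eval_map_algebraMap, map_sub, map_mul, map_sub,
    ← Polynomial.aeval_algebraMap_apply, ← Polynomial.aeval_algebraMap_apply] at this
  refine (congrArg A.valuation this).trans_lt ?_
  rw [map_mul]
  exact (mul_le_of_le_one_right' (A.valuation_le_one c)).trans_lt h

/-- almost all primes are unramified, in a strong form -/
theorem ram (W : Subgroup (E ≃ₐ[F] E)) (hW : IsOpen (W : Set (E ≃ₐ[F] E))) :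
    ∃ (θ : E) (q₀ : ℕ), IsIntegral ℤ θ ∧ Fix W θ ∧ ∀ q, q₀ ≤ q → ∀ A : ValuationSubring E,
      Over A q → ∀ g g' : E ≃ₐ[F] E, A.valuation (g θ - g' θ) < 1 → g⁻¹ * g' ∈ W := by
  have := cz F E
  have := numberField_fixedField W hW
  obtain ⟨pb, hpb⟩ := decc_pb (IntermediateField.fixedField W)
  have hi : IsIntegral F (pb.gen : E) := Algebra.IsIntegral.isIntegral _
  have hq : ∀ r : E, ∃ q₀ : ℕ, (pb.gen : E) - r ≠ 0 → ∀ q, q₀ ≤ q → ∀ A : ValuationSubring E, Over A q →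
      A.valuation ((pb.gen : E) - r) = 1 := fun r => by
    by_cases h : (pb.gen : E) - r = 0
    · exact ⟨0, fun h' => (h' h).elim⟩
    · exact (exists_bound_unit F _ h).imp fun _ h _ => h
  choose q₀ hq using hq
  obtain ⟨Q, hQ⟩ := (((minpoly F (pb.gen : E)).rootSet_finite E).image q₀).bddAbove
  refine ⟨pb.gen, Q, hpb.map (IntermediateField.fixedField W).val.toRingHom.toIntAlgHom,
    (fix_iff_mem W _).2 pb.gen.2, fun q h1 A hA g g' h => ?_⟩
  have h2 : (g⁻¹ * g') (pb.gen : E) = pb.gen := by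
    by_contra h3
    have h4 := hq _ (sub_ne_zero.2 (Ne.symm h3)) q (le_trans (hQ ⟨_, Polynomial.mem_rootSet.2
      ⟨minpoly.ne_zero hi, by rw [Polynomial.aeval_algHom_apply, minpoly.aeval, map_zero]⟩, rfl⟩) h1) _
      (hA.smul g⁻¹)
    have h5 := (val_smul_lt_one g⁻¹ A _).2 h
    rw [map_sub, ← AlgEquiv.mul_apply, inv_mul_cancel, AlgEquiv.one_apply, ← AlgEquiv.mul_apply, h4] at h5
    exact h5.false
  refine mem_of_fix W (W.isClosed_of_isOpen hW) _ fun x hx => ?_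
  exact DFunLike.congr_fun (pb.algHom_ext
    (f := (((g⁻¹ * g' : E ≃ₐ[F] E) : E →+* E).comp (IntermediateField.fixedField W).val.toRingHom).toRatAlgHom)
    (g := (IntermediateField.fixedField W).val.toRingHom.toRatAlgHom) h2) ⟨x, (fix_iff_mem W x).1 hx⟩

theorem dec1 (W : Subgroup (E ≃ₐ[F] E)) (hW : IsOpen (W : Set (E ≃ₐ[F] E))) :
    ∃ q₀ : ℕ, ∀ q, q₀ ≤ q → ∀ A : ValuationSubring E, Over A q →
      (∀ g, Inert A g → g ∈ W) ∧
      ∀ φ, Frob A φ q → ∀ g, Stab A g → ∃ a : ℕ, (φ ^ a)⁻¹ * g ∈ W := by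
  obtain ⟨θ, q₀, h1, -, H⟩ := ram W hW
  have h2 := fun A : ValuationSubring E => mem_of_isIntegral A h1
  refine ⟨q₀, fun q hq A hA => ⟨fun g hg => ?_, fun φ hφ g hg => ?_⟩⟩
  · simpa using H q hq A hA g 1 (hg.2 θ (h2 A))
  · obtain ⟨a, ha⟩ := dec hA hg {θ} (by simpa using h2 A)
    refine ⟨a, H q hq A hA _ _ ?_⟩
    simpa using A.valuation.map_sub_lt ((hφ.pow a).2 θ (h2 A)) (ha θ (Finset.mem_singleton_self θ))

/-- lifting of inertia: a decomposition element acting trivially on the residue field of the fixed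
field of `U` is an element of `U` times an inertia element -/
theorem lift_inert {U : Subgroup (E ≃ₐ[F] E)} (hU : IsOpen (U : Set (E ≃ₐ[F] E))) {q : ℕ}
    (hA : Over A q) {d : E ≃ₐ[F] E} (hs : Stab A d)
    (h : ∀ x ∈ A, Fix U x → A.valuation (d x - x) < 1) : ∃ w ∈ U, Inert A (w⁻¹ * d) := by
  have hq : ∀ x : 𝓞 E, d • x ∈ deca_id A ↔ x ∈ deca_id A := fun x => by
    rw [deca_mem, deca_mem, deca_coe_smul, hs.val_eq]
  have hmap : deca_id A = (deca_id A).map (MulSemiringAction.toRingEquiv _ (𝓞 E) d : 𝓞 E →+* 𝓞 E) := by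
    ext x
    obtain ⟨y, rfl⟩ := (MulSemiringAction.toRingEquiv _ (𝓞 E) d).surjective x
    rw [Ideal.mem_map_iff_of_surjective
      (MulSemiringAction.toRingEquiv _ (𝓞 E) d : 𝓞 E →+* 𝓞 E)
      (MulSemiringAction.toRingEquiv _ (𝓞 E) d).surjective]
    constructor
    · intro hy
      exact ⟨y, (hq y).1 hy, rfl⟩
    · rintro ⟨z, hz, e⟩
      exact e ▸ (hq z).2 hz
  obtain ⟨g, hg, hs', h2⟩ := deca_lift U (U.isClosed_of_isOpen hU) hA
    (Ideal.quotientEquiv _ _ (MulSemiringAction.toRingEquiv _ (𝓞 E) d) hmap) (fun x hx => by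
      rw [Ideal.quotientEquiv_mk, Ideal.Quotient.eq, deca_mem]
      exact h x (mem_of_isIntegral A x.isIntegral_coe) hx)
  refine ⟨g, hg, ?_⟩
  have key : Frob A (g⁻¹ * d) 1 := deca_frob_of_int hA (hs'.inv.mul hs) fun x => by
    have := h2 x
    rw [Ideal.quotientEquiv_mk, eq_comm, Ideal.Quotient.eq, deca_mem] at this
    rw [← hs'.val_eq, pow_one, map_sub]
    have e : g ((g⁻¹ * d) (x : E)) = d x := by simp
    rw [e]
    exact this
  exact ⟨key.1, fun x hx => by simpa using key.2 x hx⟩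

/-- the decomposition group is topologically generated by Frobenius and inertia -/
theorem dec4 {U : Subgroup (E ≃ₐ[F] E)} (hU : IsOpen (U : Set (E ≃ₐ[F] E))) {q f : ℕ}
    (hA : Over A q) {σ d : E ≃ₐ[F] E} (hσ : MinFrob U A q σ f) (hd : d ∈ U) (hs : Stab A d) :
    d ∈ closure {x | ∃ a : ℕ, ∃ i ∈ U, Inert A i ∧ x = σ ^ a * i} := by
  obtain ⟨f₀, hf₀, hdeg⟩ := res_deg U hU hA
  have h1 : f₀ ∣ f := (hdeg f).mp fun x hx hfx => by
    have := hσ.2.2.1.2 x hx
    rwa [hfx σ hσ.1] at this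
  have h2 : f = f₀ := by
    refine le_antisymm ?_ (Nat.le_of_dvd hσ.2.1 h1)
    by_contra hlt
    exact hσ.2.2.2 f₀ hf₀ (not_le.mp hlt) (exists_frob U hU hA f₀ ((hdeg f₀).mpr dvd_rfl))
  subst h2
  rw [mem_closure_iff_nhds]
  intro V hV
  have hV' : (fun y => d * y) ⁻¹' V ∈ nhds (1 : E ≃ₐ[F] E) :=
    (continuous_const_mul d).continuousAt.preimage_mem_nhds (by simpa using hV)
  obtain ⟨W₀, hn₀, hW₀, hsub⟩ := exists_open_normal_subset _ hV'
  have hW : IsOpen ((W₀ ⊓ U.normalCore : Subgroup (E ≃ₐ[F] E)) : Set (E ≃ₐ[F] E)) :=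
    hW₀.inter (open_normalCore U hU)
  obtain ⟨a, ha⟩ := dec_level hA hs (W₀ ⊓ U.normalCore) inferInstance hW
  obtain ⟨b, rfl⟩ : f ∣ a := (hdeg a).mp fun x hx hfx => by
    have := ha x hx fun g hg => hfx g (U.normalCore_le hg.2)
    rwa [hfx d hd] at this
  have hσb := hσ.2.2.1.pow b
  obtain ⟨w, hw, hi⟩ := lift_inert hW hA (hσb.1.inv.mul hs) fun x hx hfx => by
    rw [← hσb.1.val_eq, map_sub]
    have := val_sub_trans (ha x hx hfx) (val_sub_symm (by
      have := hσb.2 x hx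
      rwa [← pow_mul] at this))
    simpa using this
  refine ⟨σ ^ b * (w⁻¹ * ((σ ^ b)⁻¹ * d)), ?_, b, _, U.mul_mem (U.inv_mem (U.normalCore_le hw.2))
    (U.mul_mem (U.inv_mem (U.pow_mem hσ.1 b)) hd), hi, rfl⟩
  have := hsub (hn₀.conj_mem _ (W₀.inv_mem hw.1) (d⁻¹ * σ ^ b))
  simp only [Set.mem_preimage] at this
  convert this using 1
  group

/-- a split prime gives an embedding into `ℚ_[ℓ]` -/
theorem emb (W : Subgroup (E ≃ₐ[F] E)) (hW : IsOpen (W : Set (E ≃ₐ[F] E))) :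
    ∃ q₀ : ℕ, ∀ (ℓ : ℕ) [Fact ℓ.Prime], q₀ ≤ ℓ → ∀ (A : ValuationSubring E) (φ : E ≃ₐ[F] E),
      Over A ℓ → φ ∈ W → Frob A φ ℓ → Nonempty (IntermediateField.fixedField W →+* ℚ_[ℓ]) := by
  have := cz F E
  have := numberField_fixedField W hW
  obtain ⟨pb, hpb⟩ := decc_pb (IntermediateField.fixedField W)
  have hm := minpoly.isIntegrallyClosed_eq_field_fractions' ℚ hpb
  let ι := (IntermediateField.fixedField W).val.toRingHom.toIntAlgHom
  have h1 : Polynomial.aeval (ι pb.gen) (minpoly ℤ pb.gen) = 0 := by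
    rw [Polynomial.aeval_algHom_apply, minpoly.aeval, map_zero]
  have h2 : Polynomial.aeval (ι pb.gen) (minpoly ℤ pb.gen).derivative ≠ 0 := by
    have := (Algebra.IsSeparable.isSeparable ℚ pb.gen).aeval_derivative_ne_zero (minpoly.aeval ℚ pb.gen)
    rw [hm, Polynomial.derivative_map, Polynomial.aeval_map_algebraMap] at this
    rw [Polynomial.aeval_algHom_apply]
    exact fun h => this (Subtype.ext h)
  obtain ⟨q₀, H⟩ := exists_bound_unit F _ h2
  refine ⟨q₀, fun ℓ _ hq A φ hA hφ hF => ?_⟩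
  have h3 : ι pb.gen ∈ A := mem_of_isIntegral A (hpb.map ι)
  have h4 := hF.2 _ h3
  rw [show φ (ι pb.gen) = ι pb.gen from (fix_iff_mem W _).2 pb.gen.2 φ hφ] at h4
  have key : ∀ x : A, IsLocalRing.residue A x = 0 ↔ A.valuation x < 1 := fun x => by
    rw [IsLocalRing.residue_eq_zero_iff, ValuationSubring.valuation_lt_one_iff]
  have : CharP (IsLocalRing.ResidueField A) ℓ := (CharP.charP_iff_prime_eq_zero hA.1).2 (by
    simpa using (key ℓ).2 hA.2)
  obtain ⟨a, ha⟩ := (mem_bot_iff_intCast ℓ _).1 ((Subfield.mem_bot_iff_pow_eq_self _ ℓ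
    (x := IsLocalRing.residue A ⟨_, h3⟩)).2 (by
      have := (key (⟨_, h3⟩ - ⟨_, h3⟩ ^ ℓ)).2 h4
      rw [map_sub, map_pow, sub_eq_zero] at this
      exact this.symm))
  have h5 : A.valuation ((a : E) - ι pb.gen) < 1 := (key (a - ⟨_, h3⟩)).1 (by rw [map_sub, map_intCast, ha, sub_self])
  have ev : ∀ (R : Type _) [CommRing R] (f : Polynomial ℤ), Polynomial.aeval (a : R) f = ((f.eval a : ℤ) : R) :=
    fun R _ f => Polynomial.aeval_algebraMap_apply_eq_algebraMap_eval a f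
  have h6 := decc_cong (minpoly ℤ pb.gen) (intCast_mem A a) h3 h5
  have h7 := A.valuation.map_eq_of_sub_lt
    ((decc_cong (minpoly ℤ pb.gen).derivative (intCast_mem A a) h3 h5).trans_eq (H ℓ hq A hA).symm)
  rw [h1, sub_zero, ev, hA.val_int] at h6
  rw [H ℓ hq A hA, ev] at h7
  have h8 := mt (hA.val_int _).2 h7.not_lt
  obtain ⟨z, hz, -⟩ := hensels_lemma (p := ℓ) (F := minpoly ℤ pb.gen) (a := a) (by
    have e := fun f : Polynomial ℤ => Polynomial.aeval_algebraMap_apply_eq_algebraMap_eval (A := ℤ_[ℓ]) a f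
    simp only [eq_intCast] at e
    rw [e, e, le_antisymm (PadicInt.norm_le_one _) (not_lt.1 (mt (PadicInt.norm_int_lt_one_iff_dvd _).1 h8)),
      one_pow]
    exact (PadicInt.norm_int_lt_one_iff_dvd _).2 h6)
  exact ⟨pb.lift (algebraMap ℤ_[ℓ] ℚ_[ℓ] z) (by
    rw [hm, Polynomial.aeval_map_algebraMap, Polynomial.aeval_algebraMap_apply, hz, map_zero])⟩

end Crest.Agent.R18
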