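import Mathlib
import Crest.Prelude.Def_SolvClosed

/-! Row 18 (Uchida): definitions. Blueprint: `Crest/Agent/R18/NOTES.lean`. -/

set_option autoImplicit false
open scoped Pointwise NumberField
open IsDedekindDomain

namespace Crest.Agent.R18

abbrev Qb : Type := AlgebraicClosure ℚ
abbrev Gam : Type := Qb ≃ₐ[ℚ] Qb

instance instIsAlgClosureQb : IsAlgClosure ℚ Qb := AlgebraicClosure.instIsAlgClosure ℚ
instance instIsGaloisQb : IsGalois ℚ Qb := IsAlgClosure.isGalois ℚ Qb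

section
variable {F E : Type*} [Field F] [Field E] [Algebra F E]

/-- `x` is fixed by the subgroup `U`. -/
def Fix (U : Subgroup (E ≃ₐ[F] E)) (x : E) : Prop := ∀ g ∈ U, g x = x

/-- `g` is in the decomposition group of `A`. -/
def Stab (A : ValuationSubring E) (g : E ≃ₐ[F] E) : Prop := ∀ x, g x ∈ A ↔ x ∈ A

/-- `g` is in the inertia group of `A`. -/
def Inert (A : ValuationSubring E) (g : E ≃ₐ[F] E) : Prop :=
  Stab A g ∧ ∀ x ∈ A, A.valuation (g x - x) < 1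

/-- `g` acts on the residue field of `A` as `x ↦ x ^ N`. -/
def Frob (A : ValuationSubring E) (g : E ≃ₐ[F] E) (N : ℕ) : Prop :=
  Stab A g ∧ ∀ x ∈ A, A.valuation (g x - x ^ N) < 1

/-- `A` has residue characteristic the prime `p`. -/
def Over (A : ValuationSubring E) (p : ℕ) : Prop := p.Prime ∧ A.valuation (p : E) < 1

/-- `A` and `B` lie over the same prime of the fixed field of `U`. -/
def Agree (U : Subgroup (E ≃ₐ[F] E)) (A B : ValuationSubring E) : Prop :=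
  ∀ x, Fix U x → (x ∈ A ↔ x ∈ B)

/-- `σ ∈ U` is a Frobenius at `A` of exponent `p ^ f`, with `f ≥ 1` minimal in `U`. -/
def MinFrob (U : Subgroup (E ≃ₐ[F] E)) (A : ValuationSubring E) (p : ℕ) (σ : E ≃ₐ[F] E)
    (f : ℕ) : Prop :=
  σ ∈ U ∧ 0 < f ∧ Frob A σ (p ^ f) ∧ ∀ j, 0 < j → j < f → ¬ ∃ σ' ∈ U, Frob A σ' (p ^ j)

/-- `t` generates a pro-`ℓ` group. -/
def ProL (ℓ : ℕ) (t : E ≃ₐ[F] E) : Prop :=
  ∀ W : Subgroup (E ≃ₐ[F] E), IsOpen (W : Set (E ≃ₐ[F] E)) → ∃ n : ℕ, t ^ (ℓ ^ n) ∈ W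

/-- `τ` generates the `ℓ`-part of tame inertia at `A` in `U`. -/
def Tame (ℓ : ℕ) (U : Subgroup (E ≃ₐ[F] E)) (A : ValuationSubring E) (τ : E ≃ₐ[F] E) : Prop :=
  ∀ U' : Subgroup (E ≃ₐ[F] E), U' ≤ U → IsOpen (U' : Set (E ≃ₐ[F] E)) → τ ∈ U' →
    ∀ (z : E) (k : ℕ), z ≠ 0 → Fix U' (z ^ (ℓ ^ k)) → τ z = z →
      ∃ y, Fix U' y ∧ A.valuation z = A.valuation y

/-- `t` fixes `ℓ`-power roots of `A`-units that it fixes. -/
def FixRoots (ℓ : ℕ) (A : ValuationSubring E) (t : E ≃ₐ[F] E) : Prop :=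
  ∀ (z : E) (k : ℕ), A.valuation z = 1 → t (z ^ (ℓ ^ k)) = z ^ (ℓ ^ k) → t z = z

/-- the `ℓ`-adic cyclotomic character -/
noncomputable def chi (ℓ : ℕ) [Fact ℓ.Prime] (g : E ≃ₐ[F] E) : ℤ_[ℓ]ˣ :=
  cyclotomicCharacter E ℓ (g : E ≃+* E)

open Classical in
/-- an embedding of a fixed field into `ℚ_[ℓ]`, extended by `0` -/
noncomputable def ev {ℓ : ℕ} [Fact ℓ.Prime] {W : Subgroup (E ≃ₐ[F] E)}
    (e : IntermediateField.fixedField W →+* ℚ_[ℓ]) (x : E) : ℚ_[ℓ] :=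
  if h : x ∈ IntermediateField.fixedField W then e ⟨x, h⟩ else 0

/-- nonzero elements fixed by `U` supported on primes prime to `ℓ` whose decomposition group in
`U` is killed by `η` -/
def PUnit (ℓ : ℕ) [Fact ℓ.Prime] (U : Subgroup (E ≃ₐ[F] E)) (η : (E ≃ₐ[F] E) → ℤ_[ℓ])
    (x : E) : Prop :=
  x ≠ 0 ∧ Fix U x ∧ ∀ B : ValuationSubring E, B ≠ ⊤ → B.valuation x ≠ 1 →
    B.valuation (ℓ : E) = 1 ∧ ∀ d ∈ U, Stab B d → η d = 0

end

/-- a continuous additive character of the subgroup `U` (junk values outside `U`) -/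
def IsChar {G R : Type*} [Group G] [TopologicalSpace G] [AddCommGroup R] [TopologicalSpace R]
    (U : Subgroup G) (η : G → R) : Prop :=
  (∀ x ∈ U, ∀ y ∈ U, η (x * y) = η x + η y) ∧ ContinuousOn η U

/-- `η` is `ζ ^ ρ`-equivariant: `η (δ g δ⁻¹) = ζ ^ ρ δ * η g`. -/
def Equi {G R : Type*} [Group G] [CommRing R] {s : ℕ} (U U' : Subgroup G) (ρ : G → ZMod s)
    (ζ : R) (η : G → R) : Prop :=
  ∀ δ ∈ U, ∀ g ∈ U', η (δ * g * δ⁻¹) = ζ ^ (ρ δ).val * η g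

/-- no conjugate of `r` by an element outside `U` agrees with `r` on the normal core of `U` -/
def Generic {G : Type*} [Group G] {s : ℕ} (U : Subgroup G) (r : G → ZMod s) : Prop :=
  ∀ γ, γ ∉ U → ∃ ω ∈ U.normalCore, r (γ * ω * γ⁻¹) ≠ r ω

/-- `z ↦ (1 + ℓ) ^ z` -/
noncomputable def pexp (ℓ : ℕ) [Fact ℓ.Prime] : AddChar ℤ_[ℓ] ℤ_[ℓ] :=
  PadicInt.addChar_of_value_at_one (ℓ : ℤ_[ℓ])
    (tendsto_pow_atTop_nhds_zero_of_norm_lt_one (by
      rw [PadicInt.norm_p]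
      exact inv_lt_one_of_one_lt₀ (by exact_mod_cast (Fact.out : ℓ.Prime).one_lt)))

/-- logarithm of a unit: `pexp (plog x) = x ^ (ℓ - 1)` -/
noncomputable def plog (ℓ : ℕ) [Fact ℓ.Prime] (x : ℚ_[ℓ]) : ℤ_[ℓ] :=
  Classical.epsilon fun z : ℤ_[ℓ] => ((pexp ℓ z : ℤ_[ℓ]) : ℚ_[ℓ]) = x ^ (ℓ - 1)

/-- a continuous surjection from an open subgroup of `G_ℚ` onto `Gal(E/F)` -/
structure PreSetup (F E : Type*) [Field F] [Field E] [Algebra F E] where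
  H : Subgroup Gam
  hH : IsOpen (H : Set Gam)
  a : Gam → (E ≃ₐ[F] E)
  mul : ∀ x ∈ H, ∀ y ∈ H, a (x * y) = a x * a y
  cont : ContinuousOn a H
  surj : ∀ g, ∃ h ∈ H, a h = g

/-- ... which cannot be extended -/
structure Setup (F E : Type*) [Field F] [Field E] [Algebra F E] extends PreSetup F E where
  max : ∀ γ : Gam, (∀ ω ∈ H.normalCore, a (γ * ω * γ⁻¹) = a ω) → γ ∈ H

section
variable {F E : Type*} [Field F] [Field E] [Algebra F E]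

theorem PreSetup.a_one (S : PreSetup F E) : S.a 1 = 1 := by
  have h := S.mul 1 S.H.one_mem 1 S.H.one_mem
  rw [mul_one] at h
  exact (mul_eq_left.mp h.symm)

theorem PreSetup.a_inv (S : PreSetup F E) {x : Gam} (hx : x ∈ S.H) : S.a x⁻¹ = (S.a x)⁻¹ := by
  have h := S.mul x hx x⁻¹ (S.H.inv_mem hx)
  rw [mul_inv_cancel, S.a_one] at h
  exact (eq_inv_of_mul_eq_one_right h.symm)

/-- the preimage of a subgroup -/
def PreSetup.pre (S : PreSetup F E) (G' : Subgroup (E ≃ₐ[F] E)) : Subgroup Gam where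
  carrier := {h | h ∈ S.H ∧ S.a h ∈ G'}
  one_mem' := ⟨S.H.one_mem, by rw [S.a_one]; exact G'.one_mem⟩
  mul_mem' := fun {x y} hx hy =>
    ⟨S.H.mul_mem hx.1 hy.1, by rw [S.mul x hx.1 y hy.1]; exact G'.mul_mem hx.2 hy.2⟩
  inv_mem' := fun {x} hx => ⟨S.H.inv_mem hx.1, by rw [S.a_inv hx.1]; exact G'.inv_mem hx.2⟩

theorem PreSetup.mem_pre (S : PreSetup F E) (G' : Subgroup (E ≃ₐ[F] E)) (h : Gam) :
    h ∈ S.pre G' ↔ h ∈ S.H ∧ S.a h ∈ G' := Iff.rfl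

/-- some Frobenius of residue characteristic `p` is mapped into the decomposition group of `A` -/
def Near (S : PreSetup F E) (p : ℕ) (A : ValuationSubring E) : Prop :=
  ∃ (B : ValuationSubring Qb) (σ : Gam) (f : ℕ),
    Over B p ∧ MinFrob S.H B p σ f ∧ Stab A (S.a σ)

/-- the two cyclotomic characters agree up to finite order -/
def CaseA (S : PreSetup F E) (ℓ : ℕ) [Fact ℓ.Prime] : Prop :=
  ∀ h ∈ S.H, chi ℓ (S.a h) ^ (ℓ - 1) = chi ℓ h ^ (ℓ - 1)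

/-- a choice of local data for the prime `ℓ` -/
structure HitSys (S : PreSetup F E) (ℓ : ℕ) where
  Hit : ℕ → ValuationSubring E → Prop
  smul : ∀ p A (g : E ≃ₐ[F] E), Hit p A → Hit p (g • A)
  fin : ∀ p, {q | ∃ A, Over A q ∧ Hit p A}.Finite
  near : ∀ p A, Hit p A → ∃ (B : ValuationSubring Qb) (σ : Gam) (f : ℕ),
    Over B p ∧ p ≠ ℓ ∧ MinFrob S.H B p σ f ∧ Stab A (S.a σ) ∧
      ∀ (n : ℕ) (ζ : E), ζ ^ (ℓ ^ n) = 1 → S.a σ ζ = ζ ^ (p ^ f)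
  cover : ∀ (B : ValuationSubring Qb) (p : ℕ), Over B p → p ≠ ℓ →
    ∃ τ ∈ S.H, ProL ℓ τ ∧ Inert B τ ∧ Tame ℓ S.H B τ ∧
      (S.a τ = 1 ∨ ∃ A, A ≠ ⊤ ∧ Hit p A ∧ FixRoots ℓ A (S.a τ))

end

section
variable {K : Type*} [Field K] [NumberField K]

/-- additive normalised valuation (junk value `0` at `x = 0`) -/
noncomputable def ord (𝔭 : HeightOneSpectrum (𝓞 K)) (x : K) : ℤ :=
  - WithZero.log (𝔭.valuation K x)

open Classical in
/-- the divisor of `x` -/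
noncomputable def dv (x : K) : HeightOneSpectrum (𝓞 K) →₀ ℤ :=
  if h : (Function.support fun 𝔭 : HeightOneSpectrum (𝓞 K) => ord 𝔭 x).Finite then
    Finsupp.ofSupportFinite _ h else 0

/-- ray modulo `ℓ ^ N`, norms from `L`, and the primes over `ℓ` -/
noncomputable def fiSub (K L : Type*) [Field K] [NumberField K] [Field L] [NumberField L]
    [Algebra K L] (ℓ N : ℕ) : AddSubgroup (HeightOneSpectrum (𝓞 K) →₀ ℤ) :=
  AddSubgroup.closure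
    ({D | ∃ x : K, x ≠ 0 ∧ (∀ 𝔩 : HeightOneSpectrum (𝓞 K), (ℓ : 𝓞 K) ∈ 𝔩.asIdeal →
        𝔩.valuation K (x - 1) ≤ 𝔩.valuation K ((ℓ : K) ^ N)) ∧ D = dv x} ∪
     {D | ∃ (𝔭 : HeightOneSpectrum (𝓞 K)) (𝔓 : HeightOneSpectrum (𝓞 L)),
        𝔓.asIdeal.under (𝓞 K) = 𝔭.asIdeal ∧
        D = Finsupp.single 𝔭 (Nat.card (MulAction.stabilizer (L ≃ₐ[K] L) 𝔓.asIdeal) : ℤ)} ∪
     {D | ∃ 𝔩 : HeightOneSpectrum (𝓞 K), (ℓ : 𝓞 K) ∈ 𝔩.asIdeal ∧ D = Finsupp.single 𝔩 1})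

end

end Crest.Agent.R18
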