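import Crest.Agent.R18.Val

/-! Row 18 toolkit: dictionary between valuation subrings and primes of number fields. -/

set_option autoImplicit false
set_option linter.unusedSectionVars false
open scoped Pointwise NumberField
open IsDedekindDomain Crest.NumberTheoryR

namespace Crest.Agent.R18

variable {F E : Type*} [Field F] [NumberField F] [Field E] [Algebra F E] [IsGalois F E]

section
variable {K L : Type*} [Field K] [NumberField K] [Field L]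

theorem dictA_val_le_of_eq (𝔭 : HeightOneSpectrum (𝓞 K)) {B : ValuationSubring K}
    (hB : (𝔭.valuation K).valuationSubring = B) (x y : K) :
    B.valuation x ≤ B.valuation y ↔ 𝔭.valuation K x ≤ 𝔭.valuation K y := by
  subst hB
  exact ((Valuation.isEquiv_valuation_valuationSubring (𝔭.valuation K)) x y).symm

theorem dictA_exists_prime (B : ValuationSubring K) {p : ℕ} (hB : Over B p) :
    ∃ 𝔭 : HeightOneSpectrum (𝓞 K), (p : 𝓞 K) ∈ 𝔭.asIdeal ∧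
      (𝔭.valuation K).valuationSubring = B := by
  have hint : ∀ a : 𝓞 K, (algebraMap (𝓞 K) K a) ∈ B := fun a =>
    mem_of_isIntegral B (NumberField.RingOfIntegers.isIntegral_coe a)
  let φ : 𝓞 K →+* B := (algebraMap (𝓞 K) K).codRestrict B hint
  let I : Ideal (𝓞 K) := (IsLocalRing.maximalIdeal B).comap φ
  have hI : ∀ a : 𝓞 K, a ∈ I ↔ B.valuation (algebraMap (𝓞 K) K a) < 1 := by
    intro a
    rw [Ideal.mem_comap, ValuationSubring.valuation_lt_one_iff]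
    rfl
  have hpI : (p : 𝓞 K) ∈ I := by
    rw [hI, map_natCast]
    exact hB.2
  have hp0 : (p : 𝓞 K) ≠ 0 := by exact_mod_cast hB.1.ne_zero
  have hne : I ≠ ⊥ := fun h => hp0 (by rwa [h, Ideal.mem_bot] at hpI)
  let 𝔭 : HeightOneSpectrum (𝓞 K) := ⟨I, Ideal.comap_isPrime φ _, hne⟩
  refine ⟨𝔭, hpI, ?_⟩
  rw [← HeightOneSpectrum.valuationSubringAtPrime_eq_valuationSubring]
  refine ValuationSubring.eq_of_le_of_ne_top _ ?_ hB.ne_top
  rintro x ⟨a, s, hs, rfl⟩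
  have hs1 : B.valuation (algebraMap (𝓞 K) K s) = 1 := by
    refine le_antisymm ((B.valuation_le_one_iff _).2 (hint s)) (not_lt.1 fun h => ?_)
    exact hs ((hI s).2 h)
  refine B.mul_mem _ _ (hint a) ?_
  rw [← B.valuation_le_one_iff, map_inv₀, hs1, inv_one]

/-- the prime of `K` below `A` -/
theorem exists_prime_below (ι : K →+* L) (A : ValuationSubring L) {p : ℕ} (hA : Over A p) :
    ∃ 𝔭 : HeightOneSpectrum (𝓞 K), (p : 𝓞 K) ∈ 𝔭.asIdeal ∧
      ∀ x y : K, A.valuation (ι x) ≤ A.valuation (ι y) ↔ 𝔭.valuation K x ≤ 𝔭.valuation K y := by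
  obtain ⟨𝔭, hp, h⟩ := dictA_exists_prime (A.comap ι) (hA.comap ι)
  exact ⟨𝔭, hp, fun x y => (val_comap_le ι A x y).symm.trans (dictA_val_le_of_eq 𝔭 h x y)⟩

theorem dictA_exists_nat_prime (𝔭 : HeightOneSpectrum (𝓞 K)) :
    ∃ p : ℕ, p.Prime ∧ (p : 𝓞 K) ∈ 𝔭.asIdeal := by
  have hN : Ideal.absNorm 𝔭.asIdeal ≠ 0 := by
    rw [Ne, Ideal.absNorm_eq_zero_iff]
    exact 𝔭.ne_bot
  have hmem : ((Ideal.absNorm 𝔭.asIdeal : ℕ) : 𝓞 K) ∈ 𝔭.asIdeal := Ideal.absNorm_mem _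
  have key : ∀ n : ℕ, n ≠ 0 → (n : 𝓞 K) ∈ 𝔭.asIdeal → ∃ p : ℕ, p.Prime ∧ (p : 𝓞 K) ∈ 𝔭.asIdeal := by
    intro n
    induction n using Nat.recOnPrimeCoprime with
    | zero => intro h; exact absurd rfl h
    | prime_pow p n hp =>
      intro _ h
      rw [Nat.cast_pow] at h
      exact ⟨p, hp, 𝔭.isPrime.mem_of_pow_mem n h⟩
    | coprime a b ha hb _ iha ihb =>
      intro _ h
      rw [Nat.cast_mul] at h
      rcases 𝔭.isPrime.mem_or_mem h with h | h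
      · exact iha (by omega) h
      · exact ihb (by omega) h
  exact key _ hN hmem

/-- a valuation subring above `𝔭` -/
theorem exists_val_above (ι : K →+* L) (𝔭 : HeightOneSpectrum (𝓞 K)) :
    ∃ (A : ValuationSubring L) (p : ℕ), Over A p ∧ (p : 𝓞 K) ∈ 𝔭.asIdeal ∧
      ∀ x y : K, A.valuation (ι x) ≤ A.valuation (ι y) ↔ 𝔭.valuation K x ≤ 𝔭.valuation K y := by
  obtain ⟨A, hA⟩ := exists_comap_eq ι (𝔭.valuation K).valuationSubring
  obtain ⟨p, hp, hpm⟩ := dictA_exists_nat_prime 𝔭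
  have key : ∀ x y : K, A.valuation (ι x) ≤ A.valuation (ι y) ↔
      𝔭.valuation K x ≤ 𝔭.valuation K y := fun x y =>
    (val_comap_le ι A x y).symm.trans (dictA_val_le_of_eq 𝔭 hA.symm x y)
  refine ⟨A, p, ⟨hp, ?_⟩, hpm, key⟩
  have h1 : 𝔭.valuation K (p : K) < 1 := by
    have : 𝔭.valuation K (algebraMap (𝓞 K) K (p : 𝓞 K)) < 1 :=
      (HeightOneSpectrum.valuation_lt_one_iff_mem (K := K) 𝔭 (p : 𝓞 K)).2 hpm
    rwa [map_natCast] at this
  have h2 := (key 1 p).not.2 (by rw [map_one]; exact not_le.2 h1)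
  rw [map_one, map_one, map_natCast] at h2
  exact not_le.1 h2

theorem prime_eq_of_val {𝔭 𝔮 : HeightOneSpectrum (𝓞 K)}
    (h : ∀ x : K, 𝔭.valuation K x ≤ 1 ↔ 𝔮.valuation K x ≤ 1) : 𝔭 = 𝔮 := by
  exact HeightOneSpectrum.eq_of_valuation_isEquiv_valuation (K := K)
    (Valuation.isEquiv_iff_val_le_one.2 fun {x} => h x)

theorem ord_mul (𝔭 : HeightOneSpectrum (𝓞 K)) {x y : K} (hx : x ≠ 0) (hy : y ≠ 0) :
    ord 𝔭 (x * y) = ord 𝔭 x + ord 𝔭 y := by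
  unfold ord
  rw [map_mul, WithZero.log_mul ((Valuation.ne_zero_iff _).2 hx) ((Valuation.ne_zero_iff _).2 hy)]
  ring

theorem ord_zpow (𝔭 : HeightOneSpectrum (𝓞 K)) (x : K) (n : ℤ) :
    ord 𝔭 (x ^ n) = n * ord 𝔭 x := by
  unfold ord
  rw [map_zpow₀, WithZero.log_zpow, smul_eq_mul]
  ring

theorem ord_le_iff (𝔭 : HeightOneSpectrum (𝓞 K)) {x y : K} (hx : x ≠ 0) (hy : y ≠ 0) :
    ord 𝔭 x ≤ ord 𝔭 y ↔ 𝔭.valuation K y ≤ 𝔭.valuation K x := by
  unfold ord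
  rw [neg_le_neg_iff,
    WithZero.log_le_log ((Valuation.ne_zero_iff _).2 hy) ((Valuation.ne_zero_iff _).2 hx)]

theorem ord_eq_zero_iff (𝔭 : HeightOneSpectrum (𝓞 K)) {x : K} (hx : x ≠ 0) :
    ord 𝔭 x = 0 ↔ 𝔭.valuation K x = 1 := by
  unfold ord
  rw [neg_eq_zero]
  refine ⟨fun h => ?_, fun h => by rw [h, WithZero.log_one]⟩
  rw [← WithZero.exp_log ((Valuation.ne_zero_iff (𝔭.valuation K)).2 hx), h, WithZero.exp_zero]

theorem exists_ord_eq (𝔭 : HeightOneSpectrum (𝓞 K)) (n : ℤ) : ∃ x : K, x ≠ 0 ∧ ord 𝔭 x = n := by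
  obtain ⟨x, hx⟩ := 𝔭.valuation_surjective K (WithZero.exp (-n))
  refine ⟨x, fun h => ?_, ?_⟩
  · rw [h, map_zero] at hx
    exact WithZero.exp_ne_zero hx.symm
  · unfold ord
    rw [hx, WithZero.log_exp, neg_neg]

open scoped nonZeroDivisors in
theorem db_ord_count (𝔭 : HeightOneSpectrum (𝓞 K)) (x : K) :
    ord 𝔭 x = FractionalIdeal.count K 𝔭 (FractionalIdeal.spanSingleton (𝓞 K)⁰ x) := by
  by_cases hx : x = 0
  · simp [hx, ord, FractionalIdeal.count_zero]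
  obtain ⟨⟨n, d⟩, rfl⟩ := IsLocalization.mk'_surjective (𝓞 K)⁰ x
  dsimp only at hx ⊢
  have hn : n ≠ 0 := by rintro rfl; simp at hx
  have hd : (d : 𝓞 K) ≠ 0 := nonZeroDivisors.coe_ne_zero d
  rw [FractionalIdeal.count_well_defined K 𝔭 (a := d) (J := Ideal.span {n})
    (FractionalIdeal.spanSingleton_ne_zero_iff.2 hx) (by
      rw [FractionalIdeal.coeIdeal_span_singleton, FractionalIdeal.spanSingleton_mul_spanSingleton,
        IsFractionRing.mk'_eq_div, div_eq_inv_mul]),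
    ord, HeightOneSpectrum.valuation_of_mk', HeightOneSpectrum.intValuation_if_neg _ hn,
    HeightOneSpectrum.intValuation_if_neg _ hd, ← WithZero.exp_sub, WithZero.log_exp]
  ring

theorem dv_apply (x : K) (𝔭 : HeightOneSpectrum (𝓞 K)) : dv x 𝔭 = ord 𝔭 x := by
  have h : (Function.support fun 𝔭 : HeightOneSpectrum (𝓞 K) => ord 𝔭 x).Finite := by
    simp only [db_ord_count]
    exact FractionalIdeal.finite_factors _
  rw [dv, dif_pos h]
  rfl

theorem dv_mul {x y : K} (hx : x ≠ 0) (hy : y ≠ 0) : dv (x * y) = dv x + dv y := by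
  ext 𝔭
  simp only [Finsupp.add_apply, dv_apply, ord_mul 𝔭 hx hy]

theorem dv_zpow (x : K) (n : ℤ) : dv (x ^ n) = n • dv x := by
  ext 𝔭
  simp only [Finsupp.smul_apply, dv_apply, ord_zpow, smul_eq_mul]

theorem dv_eq_zero_iff {x : K} (hx : x ≠ 0) :
    dv x = 0 ↔ ∃ u : (𝓞 K)ˣ, x = algebraMap (𝓞 K) K u := by
  constructor
  · intro h
    have h1 : ∀ 𝔭 : HeightOneSpectrum (𝓞 K), 𝔭.valuation K x = 1 := fun 𝔭 =>
      (ord_eq_zero_iff 𝔭 hx).1 (by rw [← dv_apply, h]; rfl)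
    obtain ⟨a, ha⟩ := HeightOneSpectrum.mem_integers_of_valuation_le_one K x fun 𝔭 => (h1 𝔭).le
    obtain ⟨b, hb⟩ := HeightOneSpectrum.mem_integers_of_valuation_le_one K x⁻¹ fun 𝔭 => by
      rw [map_inv₀, h1, inv_one]
    have hab : a * b = 1 := IsFractionRing.injective (𝓞 K) K (by
      rw [map_mul, ha, hb, mul_inv_cancel₀ hx, map_one])
    exact ⟨Units.mkOfMulEqOne a b hab, ha.symm⟩
  · rintro ⟨u, rfl⟩
    ext 𝔭
    rw [dv_apply, Finsupp.zero_apply, ord_eq_zero_iff 𝔭 hx,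
      HeightOneSpectrum.valuation_eq_one_iff_notMem]
    exact fun h => 𝔭.isPrime.ne_top (Ideal.eq_top_of_isUnit_mem _ h u.isUnit)

open scoped nonZeroDivisors in
/-- the fractional ideal of a divisor -/
noncomputable def db_U (D : HeightOneSpectrum (𝓞 K) →₀ ℤ) : (FractionalIdeal (𝓞 K)⁰ K)ˣ :=
  Units.mk0 (D.prod fun v n => (v.asIdeal : FractionalIdeal (𝓞 K)⁰ K) ^ n)
    (Finset.prod_ne_zero_iff.2 fun v _ =>
      zpow_ne_zero _ (FractionalIdeal.coeIdeal_ne_zero.2 v.ne_bot))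

open scoped nonZeroDivisors in
theorem db_count_U (D : HeightOneSpectrum (𝓞 K) →₀ ℤ) (𝔭 : HeightOneSpectrum (𝓞 K)) :
    FractionalIdeal.count K 𝔭 (db_U D : FractionalIdeal (𝓞 K)⁰ K) = D 𝔭 :=
  FractionalIdeal.count_finsuppProd K 𝔭 D

open scoped nonZeroDivisors in
theorem db_principal {I : (FractionalIdeal (𝓞 K)⁰ K)ˣ} (h : ClassGroup.mk K I = 1) :
    ∃ x : K, x ≠ 0 ∧ ∀ 𝔭 : HeightOneSpectrum (𝓞 K),
      dv x 𝔭 = FractionalIdeal.count K 𝔭 (I : FractionalIdeal (𝓞 K)⁰ K) := by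
  obtain ⟨x, hx⟩ := (FractionalIdeal.isPrincipal_iff _).1 (ClassGroup.mk_eq_one_iff.1 h)
  refine ⟨x, fun h0 => I.ne_zero (by rw [hx, h0, FractionalIdeal.spanSingleton_zero]), fun 𝔭 => ?_⟩
  rw [dv_apply, db_ord_count, hx]

/-- finiteness of the class group for divisors -/
theorem exists_class_reps (K : Type*) [Field K] [NumberField K] :
    ∃ T : Finset (HeightOneSpectrum (𝓞 K) →₀ ℤ), ∀ D : HeightOneSpectrum (𝓞 K) →₀ ℤ,
      ∃ D₀ ∈ T, ∃ x : K, x ≠ 0 ∧ D = D₀ + dv x := by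
  classical
  let f : (HeightOneSpectrum (𝓞 K) →₀ ℤ) → ClassGroup (𝓞 K) := fun D => ClassGroup.mk K (db_U D)
  refine ⟨Finset.univ.image (Function.invFun f), fun D =>
    ⟨Function.invFun f (f D), Finset.mem_image_of_mem _ (Finset.mem_univ _), ?_⟩⟩
  have h : f (Function.invFun f (f D)) = f D := Function.invFun_eq ⟨D, rfl⟩
  obtain ⟨x, hx, h2⟩ := db_principal (I := db_U D * (db_U (Function.invFun f (f D)))⁻¹) (by
    rw [map_mul, map_inv]; exact mul_inv_eq_one.2 h.symm)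
  refine ⟨x, hx, Finsupp.ext fun 𝔭 => ?_⟩
  rw [Finsupp.add_apply, h2, Units.val_mul, FractionalIdeal.count_mul K 𝔭 (Units.ne_zero _)
    (Units.ne_zero _), Units.val_inv_eq_inv_val, FractionalIdeal.count_inv, db_count_U, db_count_U]
  ring

theorem exists_class_exp (K : Type*) [Field K] [NumberField K] :
    ∃ h : ℕ, 0 < h ∧ ∀ D : HeightOneSpectrum (𝓞 K) →₀ ℤ, ∃ x : K, x ≠ 0 ∧ dv x = h • D := by
  refine ⟨Fintype.card (ClassGroup (𝓞 K)), Fintype.card_pos, fun D => ?_⟩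
  obtain ⟨x, hx, h2⟩ := db_principal (I := db_U D ^ Fintype.card (ClassGroup (𝓞 K))) (by
    rw [map_pow, pow_card_eq_one])
  refine ⟨x, hx, Finsupp.ext fun 𝔭 => ?_⟩
  rw [h2, Units.val_pow_eq_pow_val, FractionalIdeal.count_pow, db_count_U, Finsupp.smul_apply,
    nsmul_eq_mul]

theorem db_ord_prod {ι : Type*} (𝔭 : HeightOneSpectrum (𝓞 K)) (s : Finset ι) (f : ι → K)
    (hf : ∀ i ∈ s, f i ≠ 0) : ord 𝔭 (∏ i ∈ s, f i) = ∑ i ∈ s, ord 𝔭 (f i) := by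
  classical
  induction s using Finset.induction_on with
  | empty => simp [ord]
  | insert a s ha ih =>
    rw [Finset.prod_insert ha, Finset.sum_insert ha, ord_mul 𝔭 (hf a (Finset.mem_insert_self _ _))
      (Finset.prod_ne_zero_iff.2 fun i hi => hf i (Finset.mem_insert_of_mem hi)),
      ih fun i hi => hf i (Finset.mem_insert_of_mem hi)]

open Classical in
theorem db_unif (S : Finset (HeightOneSpectrum (𝓞 K))) (𝔭 : HeightOneSpectrum (𝓞 K)) :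
    ∃ x : K, x ≠ 0 ∧ ∀ 𝔮 ∈ S, ord 𝔮 x = if 𝔮 = 𝔭 then 1 else 0 := by
  have h : ¬ ((𝔭.asIdeal : Set (𝓞 K)) ⊆ ⋃ 𝔮 ∈ ((insert 𝔭 S : Finset _) : Set _),
      ((if 𝔮 = 𝔭 then 𝔭.asIdeal ^ 2 else 𝔮.asIdeal : Ideal (𝓞 K)) : Set (𝓞 K))) := by
    rw [Ideal.subset_union_prime 𝔭 𝔭 fun 𝔮 _ h _ => by rw [if_neg h]; exact 𝔮.isPrime]
    rintro ⟨𝔮, -, h⟩
    split_ifs at h with h1
    · exact (Ideal.pow_lt_self _ 𝔭.ne_bot 𝔭.isPrime.ne_top 2 le_rfl).not_ge h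
    · exact h1 (HeightOneSpectrum.ext (𝔭.isMaximal.eq_of_le 𝔮.isPrime.ne_top h).symm)
  obtain ⟨a, ha, hb⟩ := Set.not_subset.1 h
  simp only [Set.mem_iUnion, not_exists, SetLike.mem_coe] at ha hb
  have h2 := hb 𝔭 (Finset.mem_insert_self _ _)
  rw [if_pos rfl] at h2
  have ha0 : a ≠ 0 := fun h0 => h2 (h0 ▸ zero_mem _)
  have hx : algebraMap (𝓞 K) K a ≠ 0 := by simpa using ha0
  refine ⟨algebraMap (𝓞 K) K a, hx, fun 𝔮 h𝔮 => ?_⟩
  split_ifs with h1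
  · subst h1
    have e : 𝔮.valuation K (algebraMap (𝓞 K) K a) = 𝔮.intValuation a :=
      HeightOneSpectrum.valuation_of_algebraMap 𝔮 a
    have a1 := (𝔮.intValuation_le_pow_iff_mem a 1).2 (by rwa [pow_one])
    have a2 := (𝔮.intValuation_le_pow_iff_mem a 2).not.2 h2
    rw [ord, e]
    rw [𝔮.intValuation_if_neg ha0] at a1 a2 ⊢
    rw [WithZero.exp_le_exp] at a1 a2
    rw [WithZero.log_exp]
    omega
  · have := hb 𝔮 (Finset.mem_insert_of_mem h𝔮)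
    rw [if_neg h1] at this
    rwa [ord_eq_zero_iff 𝔮 hx, HeightOneSpectrum.valuation_eq_one_iff_notMem]

/-- weak approximation for orders -/
theorem exists_ord_on (S : Finset (HeightOneSpectrum (𝓞 K))) (n : HeightOneSpectrum (𝓞 K) → ℤ) :
    ∃ x : K, x ≠ 0 ∧ ∀ 𝔭 ∈ S, ord 𝔭 x = n 𝔭 := by
  classical
  choose y hy0 hy using db_unif S
  refine ⟨∏ 𝔮 ∈ S, y 𝔮 ^ n 𝔮, Finset.prod_ne_zero_iff.2 fun 𝔮 _ => zpow_ne_zero _ (hy0 𝔮),
    fun 𝔭 h𝔭 => ?_⟩
  rw [db_ord_prod 𝔭 S _ fun 𝔮 _ => zpow_ne_zero _ (hy0 𝔮)]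
  simp [ord_zpow, hy _ 𝔭 h𝔭, h𝔭]

theorem finite_primes_over {p : ℕ} (hp : p ≠ 0) :
    {𝔭 : HeightOneSpectrum (𝓞 K) | (p : 𝓞 K) ∈ 𝔭.asIdeal}.Finite := by
  have h0 : Ideal.span {(p : 𝓞 K)} ≠ 0 := by
    rw [Ne, Ideal.zero_eq_bot, Ideal.span_singleton_eq_bot]
    exact_mod_cast hp
  refine (Ideal.finite_factors h0).subset fun 𝔭 h => ?_
  exact Ideal.dvd_span_singleton.2 h

end

theorem dc_ev {ℓ : ℕ} [Fact ℓ.Prime] {W : Subgroup (E ≃ₐ[F] E)}
    (e : IntermediateField.fixedField W →+* ℚ_[ℓ]) (x : IntermediateField.fixedField W) :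
    ev e (x : E) = e x := by
  unfold ev
  rw [dif_pos x.2]

/-- the valuation subring defined by an embedding into `ℚ_[ℓ]` -/
theorem exists_val_of_emb {ℓ : ℕ} [Fact ℓ.Prime] {W : Subgroup (E ≃ₐ[F] E)}
    (e : IntermediateField.fixedField W →+* ℚ_[ℓ]) :
    ∃ B : ValuationSubring E, Over B ℓ ∧ ∀ x y, Fix W x → Fix W y →
      (B.valuation x ≤ B.valuation y ↔ ‖ev e x‖ ≤ ‖ev e y‖) := by
  let v := (NormedField.valuation (K := ℚ_[ℓ])).comap e
  obtain ⟨B, hB⟩ := exists_comap_eq (algebraMap (IntermediateField.fixedField W) E)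
    v.valuationSubring
  have key : ∀ x y : IntermediateField.fixedField W,
      B.valuation (x : E) ≤ B.valuation (y : E) ↔ ‖e x‖ ≤ ‖e y‖ := by
    intro x y
    have h1 := val_comap_le (algebraMap (IntermediateField.fixedField W) E) B x y
    rw [hB] at h1
    exact h1.symm.trans ((v.isEquiv_valuation_valuationSubring x y).symm.trans Iff.rfl)
  refine ⟨B, ⟨Fact.out, ?_⟩, fun x y hx hy => ?_⟩
  · have h := key 1 (ℓ : IntermediateField.fixedField W)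
    rw [map_one e, map_natCast e, norm_one] at h
    have h2 : ‖(ℓ : ℚ_[ℓ])‖ < 1 := Padic.norm_p_lt_one
    rw [← not_le, ← h, not_le] at h2
    simpa using h2
  · have h := key ⟨x, (fix_iff_mem W x).1 hx⟩ ⟨y, (fix_iff_mem W y).1 hy⟩
    rw [← dc_ev, ← dc_ev] at h
    exact h

theorem ev_mul {ℓ : ℕ} [Fact ℓ.Prime] {W : Subgroup (E ≃ₐ[F] E)}
    (e : IntermediateField.fixedField W →+* ℚ_[ℓ]) {x y : E} (hx : Fix W x) (hy : Fix W y) :
    ev e (x * y) = ev e x * ev e y := by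
  have h := map_mul e ⟨x, (fix_iff_mem W x).1 hx⟩ ⟨y, (fix_iff_mem W y).1 hy⟩
  rw [← dc_ev, ← dc_ev, ← dc_ev] at h
  exact h

theorem ev_coe {ℓ : ℕ} [Fact ℓ.Prime] {W : Subgroup (E ≃ₐ[F] E)}
    (e : IntermediateField.fixedField W →+* ℚ_[ℓ]) (x : IntermediateField.fixedField W) :
    ev e (x : E) = e x := by
  exact dc_ev e x

theorem norm_ev_eq_one {ℓ : ℕ} [Fact ℓ.Prime] {W : Subgroup (E ≃ₐ[F] E)}
    (e : IntermediateField.fixedField W →+* ℚ_[ℓ]) {x : E} (hx : Fix W x)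
    (h : ∀ B : ValuationSubring E, Over B ℓ → B.valuation x = 1) : ‖ev e x‖ = 1 := by
  obtain ⟨B, hB, hv⟩ := exists_val_of_emb e
  have h1 : Fix W (1 : E) := fun g _ => map_one g
  have e1 : ev e (1 : E) = 1 := (dc_ev e 1).trans (map_one e)
  have a1 := (hv x 1 hx h1).1 (by rw [h B hB, map_one])
  have a2 := (hv 1 x h1 hx).1 (by rw [h B hB, map_one])
  rw [e1, norm_one] at a1 a2
  exact le_antisymm a1 a2

/-- a primitive root of unity in the fixed field gives one in `ℤ_[ℓ]` -/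
theorem exists_prim_padic {ℓ : ℕ} [Fact ℓ.Prime] {W : Subgroup (E ≃ₐ[F] E)}
    (e : IntermediateField.fixedField W →+* ℚ_[ℓ]) {s : ℕ} (hs : s.Prime) (hsl : s ≠ ℓ) {ζ : E}
    (hζ : IsPrimitiveRoot ζ s) (hf : Fix W ζ) :
    (∃ ξ : ℤ_[ℓ], IsPrimitiveRoot ξ s) ∧ s ∣ ℓ - 1 := by
  let z : IntermediateField.fixedField W := ⟨ζ, (fix_iff_mem W ζ).1 hf⟩
  have hz : IsPrimitiveRoot z s :=
    IsPrimitiveRoot.of_map_of_injective (f := algebraMap (IntermediateField.fixedField W) E) hζ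
      (algebraMap (IntermediateField.fixedField W) E).injective
  have he : IsPrimitiveRoot (e z) s := hz.map_of_injective e.injective
  have hn : ‖e z‖ = 1 := by
    have h1 := congrArg norm he.pow_eq_one
    rw [norm_pow, norm_one] at h1
    exact (pow_eq_one_iff_of_nonneg (norm_nonneg _) hs.ne_zero).1 h1
  let ξ : ℤ_[ℓ] := ⟨e z, hn.le⟩
  have hξ : IsPrimitiveRoot ξ s :=
    IsPrimitiveRoot.of_map_of_injective (f := PadicInt.Coe.ringHom) he Subtype.val_injective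
  refine ⟨⟨ξ, hξ⟩, ?_⟩
  have := Fact.mk hs
  have h1 : PadicInt.toZMod ξ ^ s = 1 := by rw [← map_pow, hξ.pow_eq_one, map_one]
  have h2 : PadicInt.toZMod ξ ≠ 1 := by
    intro h
    have h3 := congrArg PadicInt.toZMod (hξ.geom_sum_eq_zero hs.one_lt)
    simp only [map_sum, map_pow, h, one_pow, Finset.sum_const, Finset.card_range, nsmul_eq_mul,
      mul_one, map_zero] at h3
    exact hsl ((Nat.prime_dvd_prime_iff_eq Fact.out hs).1
      ((ZMod.natCast_eq_zero_iff _ _).1 h3)).symm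
  have h4 : PadicInt.toZMod ξ ≠ 0 := by
    intro h
    rw [h, zero_pow hs.ne_zero] at h1
    exact zero_ne_one h1
  rw [← orderOf_eq_prime h1 h2]
  exact ZMod.orderOf_dvd_card_sub_one h4

/-- an element generating a fixed power of one prime -/
theorem varpi (U : Subgroup (E ≃ₐ[F] E)) (hU : IsOpen (U : Set (E ≃ₐ[F] E))) :
    ∃ h : ℕ, 0 < h ∧ ∀ (A : ValuationSubring E) (p : ℕ), Over A p →
      ∃ ϖ : E, ϖ ≠ 0 ∧ Fix U ϖ ∧ A.valuation ϖ < 1 ∧
        (∀ B : ValuationSubring E, B ≠ ⊤ → ¬ Agree U A B → B.valuation ϖ = 1) ∧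
        ∀ (y : E) (j : ℤ) (k : ℕ), Fix U y → A.valuation (ϖ ^ j) = A.valuation (y ^ k) →
          (k : ℤ) ∣ h * j := by
  classical
  have := numberField_fixedField U hU
  obtain ⟨h, hh, hD⟩ := exists_class_exp (IntermediateField.fixedField U)
  refine ⟨h, hh, fun A p hA => ?_⟩
  obtain ⟨𝔭, -, h𝔭⟩ := exists_prime_below (algebraMap (IntermediateField.fixedField U) E) A hA
  obtain ⟨x, hx0, hx⟩ := hD (Finsupp.single 𝔭 1)
  have ho : ord 𝔭 x = h := by rw [← dv_apply, hx]; simp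
  have ho1 : ∀ 𝔮 : HeightOneSpectrum (𝓞 (IntermediateField.fixedField U)), ord 𝔮 1 = 0 :=
    fun 𝔮 => (ord_eq_zero_iff 𝔮 one_ne_zero).2 (map_one _)
  refine ⟨x, fun h0 => hx0 (Subtype.ext h0), (fix_iff_mem U _).2 x.2, ?_, fun B hB hAB => ?_,
    fun y j k hy hv => ?_⟩
  · have h1 := h𝔭 1 x
    rw [← ord_le_iff 𝔭 hx0 one_ne_zero, ho, ho1, map_one, map_one] at h1
    rw [← not_le]
    intro h2
    have := h1.1 h2
    omega
  · obtain ⟨q, hq⟩ := exists_over F B hB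
    obtain ⟨𝔮, -, h𝔮⟩ := exists_prime_below (algebraMap (IntermediateField.fixedField U) E) B hq
    have hne : 𝔮 ≠ 𝔭 := by
      rintro rfl
      refine hAB fun z hz => ?_
      have a1 := h𝔭 ⟨z, (fix_iff_mem U z).1 hz⟩ 1
      have a2 := h𝔮 ⟨z, (fix_iff_mem U z).1 hz⟩ 1
      rw [map_one, map_one, ValuationSubring.valuation_le_one_iff] at a1 a2
      exact a1.trans a2.symm
    have h1 : ord 𝔮 x = 0 := by rw [← dv_apply, hx]; simp [Finsupp.single_eq_of_ne hne]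
    rw [ord_eq_zero_iff 𝔮 hx0] at h1
    have a1 := (h𝔮 x 1).2 (by rw [h1, map_one])
    have a2 := (h𝔮 1 x).2 (by rw [h1, map_one])
    rw [map_one, map_one] at a1 a2
    exact le_antisymm a1 a2
  · let y' : IntermediateField.fixedField U := ⟨y, (fix_iff_mem U y).1 hy⟩
    have e1 : algebraMap (IntermediateField.fixedField U) E (x ^ j) = (x : E) ^ j := map_zpow₀ _ _ _
    have e2 : algebraMap (IntermediateField.fixedField U) E (y' ^ (k : ℤ)) = y ^ k := by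
      rw [zpow_natCast, map_pow]; rfl
    have a1 := (h𝔭 (x ^ j) (y' ^ (k : ℤ))).1 (by rw [e1, e2, hv])
    have a2 := (h𝔭 (y' ^ (k : ℤ)) (x ^ j)).1 (by rw [e1, e2, hv])
    have a3 : ord 𝔭 (x ^ j) = ord 𝔭 (y' ^ (k : ℤ)) := by unfold ord; rw [le_antisymm a1 a2]
    rw [ord_zpow, ord_zpow, ho] at a3
    exact ⟨ord 𝔭 y', by rw [← a3, mul_comm]⟩

theorem dc_units (K : Type*) [Field K] [NumberField K] {m : ℕ} (hm : 0 < m) :
    ∃ T : Finset (𝓞 K)ˣ, ∀ u : (𝓞 K)ˣ, ∃ t ∈ T, ∃ y : (𝓞 K)ˣ, u = t * y ^ m := by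
  classical
  have : Group.FG (𝓞 K)ˣ := Group.fg_iff_monoid_fg.2 inferInstance
  have := Subgroup.finiteIndex_range_powMonoidHom_of_fg (𝓞 K)ˣ hm.ne'
  have := Fintype.ofFinite ((𝓞 K)ˣ ⧸ (powMonoidHom (α := (𝓞 K)ˣ) m).range)
  refine ⟨Finset.univ.image fun q : (𝓞 K)ˣ ⧸ (powMonoidHom (α := (𝓞 K)ˣ) m).range => q.out,
    fun u => ?_⟩
  obtain ⟨⟨_, y, rfl⟩, hy⟩ := QuotientGroup.mk_out_eq_mul (powMonoidHom (α := (𝓞 K)ˣ) m).range u
  refine ⟨_, Finset.mem_image_of_mem _ (Finset.mem_univ (u : (𝓞 K)ˣ ⧸ _)), y⁻¹, ?_⟩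
  rw [hy]
  simp

theorem dc_sel (K : Type*) [Field K] [NumberField K] {m : ℕ} (hm : 0 < m)
    (S : Finset (HeightOneSpectrum (𝓞 K))) :
    ∃ T : Finset K, (∀ t ∈ T, t ≠ 0) ∧ ∀ x : K, x ≠ 0 → (∀ 𝔭 ∉ S, (m : ℤ) ∣ ord 𝔭 x) →
      ∃ t ∈ T, ∃ y, x = t * y ^ m := by
  classical
  obtain ⟨T, hT⟩ := exists_class_reps K
  obtain ⟨Tu, hTu⟩ := dc_units K hm
  have hch : ∀ G : HeightOneSpectrum (𝓞 K) →₀ ℤ, ∃ w : K, w ≠ 0 ∧
      ((∃ w' : K, w' ≠ 0 ∧ dv w' = G) → dv w = G) := by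
    intro G
    by_cases h : ∃ w' : K, w' ≠ 0 ∧ dv w' = G
    · obtain ⟨w, h1, h2⟩ := h
      exact ⟨w, h1, fun _ => h2⟩
    · exact ⟨1, one_ne_zero, fun h' => absurd h' h⟩
  choose t ht0 ht using hch
  have hu0 : ∀ u : (𝓞 K)ˣ, algebraMap (𝓞 K) K u ≠ 0 := fun u => NumberField.Units.coe_ne_zero u
  have hm' : (0 : ℤ) < m := by exact_mod_cast hm
  refine ⟨(T ×ˢ (S.finsupp fun _ => Finset.Ico (0 : ℤ) m) ×ˢ Tu).image
    fun q => t ((m : ℤ) • q.1 + q.2.1) * algebraMap (𝓞 K) K q.2.2, ?_, fun x hx hS => ?_⟩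
  · intro a ha
    obtain ⟨q, -, rfl⟩ := Finset.mem_image.1 ha
    exact mul_ne_zero (ht0 _) (hu0 _)
  · let D := Finsupp.mapRange (fun a : ℤ => a / m) (by simp) (dv x)
    let R := Finsupp.mapRange (fun a : ℤ => a % m) (by simp) (dv x)
    have hDR : dv x = (m : ℤ) • D + R := by
      ext 𝔭
      simp only [D, R, Finsupp.add_apply, Finsupp.smul_apply, Finsupp.mapRange_apply, smul_eq_mul]
      exact (Int.mul_ediv_add_emod _ _).symm
    have hR : R ∈ S.finsupp fun _ => Finset.Ico (0 : ℤ) m := by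
      rw [Finset.mem_finsupp_iff]
      refine ⟨fun 𝔭 h𝔭 => by_contra fun h => Finsupp.mem_support_iff.1 h𝔭 ?_, fun 𝔭 _ => ?_⟩
      · simp only [R, Finsupp.mapRange_apply, dv_apply]
        exact Int.emod_eq_zero_of_dvd (hS 𝔭 h)
      · simp only [R, Finsupp.mapRange_apply, Finset.mem_Ico]
        exact ⟨Int.emod_nonneg _ hm'.ne', Int.emod_lt_of_pos _ hm'⟩
    obtain ⟨D₀, hD₀, z, hz0, hz⟩ := hT D
    have h1 : dv (x * z ^ (-(m : ℤ))) = (m : ℤ) • D₀ + R := by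
      rw [dv_mul hx (zpow_ne_zero _ hz0), dv_zpow, hDR, hz, smul_add, neg_smul]
      abel
    have h2 := ht _ ⟨_, mul_ne_zero hx (zpow_ne_zero _ hz0), h1⟩
    have h3 : dv (x * z ^ (-(m : ℤ)) * t ((m : ℤ) • D₀ + R) ^ (-1 : ℤ)) = 0 := by
      rw [dv_mul (mul_ne_zero hx (zpow_ne_zero _ hz0)) (zpow_ne_zero _ (ht0 _)), dv_zpow, h1, h2,
        neg_one_smul, add_neg_cancel]
    obtain ⟨u, hu⟩ := (dv_eq_zero_iff (mul_ne_zero (mul_ne_zero hx (zpow_ne_zero _ hz0))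
      (zpow_ne_zero _ (ht0 _)))).1 h3
    obtain ⟨s, hs, y, rfl⟩ := hTu u
    refine ⟨_, Finset.mem_image_of_mem _ (show (D₀, R, s) ∈ _ by simp [hD₀, hR, hs]),
      algebraMap (𝓞 K) K y * z, ?_⟩
    have h4 := ht0 ((m : ℤ) • D₀ + R)
    rw [Units.val_mul, Units.val_pow_eq_pow_val, map_mul, map_pow, zpow_neg, zpow_neg, zpow_one,
      zpow_natCast] at hu
    have h5 : z ^ m ≠ 0 := pow_ne_zero _ hz0
    field_simp at hu
    rw [hu, mul_pow]
    ring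

/-- finiteness of Selmer groups -/
theorem sel (U : Subgroup (E ≃ₐ[F] E)) (hU : IsOpen (U : Set (E ≃ₐ[F] E))) {m ℓ : ℕ} (hm : 0 < m)
    (hℓ : ℓ.Prime) :
    ∃ T : Finset E, (∀ t ∈ T, t ≠ 0 ∧ Fix U t) ∧ ∀ x : E, x ≠ 0 → Fix U x →
      (∀ (A : ValuationSubring E) (p : ℕ), Over A p → p ≠ ℓ →
        ∃ y, Fix U y ∧ A.valuation x = A.valuation (y ^ m)) →
      ∃ t ∈ T, ∃ y, Fix U y ∧ x = t * y ^ m := by
  classical
  have := numberField_fixedField U hU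
  obtain ⟨T, hT0, hT⟩ := dc_sel (IntermediateField.fixedField U) hm
    (finite_primes_over (K := IntermediateField.fixedField U) hℓ.ne_zero).toFinset
  refine ⟨T.image Subtype.val, fun t ht => ?_, fun x hx0 hx h => ?_⟩
  · obtain ⟨t', ht', rfl⟩ := Finset.mem_image.1 ht
    exact ⟨fun h0 => hT0 t' ht' (Subtype.ext h0), (fix_iff_mem U _).2 t'.2⟩
  · let x' : IntermediateField.fixedField U := ⟨x, (fix_iff_mem U x).1 hx⟩
    obtain ⟨t, ht, y, hy⟩ := hT x' (fun h0 => hx0 (congrArg Subtype.val h0)) fun 𝔭 h𝔭 => by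
      obtain ⟨A, p, hA, hp, hv⟩ :=
        exists_val_above (algebraMap (IntermediateField.fixedField U) E) 𝔭
      obtain ⟨y, hy, hxy⟩ := h A p hA (by
        rintro rfl
        exact h𝔭 ((Set.Finite.mem_toFinset _).2 hp))
      let y' : IntermediateField.fixedField U := ⟨y, (fix_iff_mem U y).1 hy⟩
      have e2 : algebraMap (IntermediateField.fixedField U) E (y' ^ (m : ℤ)) = y ^ m := by
        rw [zpow_natCast, map_pow]; rfl
      have a1 := (hv x' (y' ^ (m : ℤ))).1 (by rw [e2]; exact hxy.le)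
      have a2 := (hv (y' ^ (m : ℤ)) x').1 (by rw [e2]; exact hxy.ge)
      have a3 : ord 𝔭 x' = ord 𝔭 (y' ^ (m : ℤ)) := by unfold ord; rw [le_antisymm a1 a2]
      rw [a3, ord_zpow]
      exact dvd_mul_right _ _
    exact ⟨t, Finset.mem_image_of_mem _ ht, y, (fix_iff_mem U _).2 y.2, congrArg Subtype.val hy⟩

end Crest.Agent.R18
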