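import Crest.Agent.R18.Defs

/-! Row 18 toolkit: the `ℓ`-adic logarithm (odd `ℓ`). -/

set_option autoImplicit false
set_option linter.unusedSectionVars false
open scoped Pointwise NumberField
open IsDedekindDomain Crest.NumberTheoryR

namespace Crest.Agent.R18

variable {F E : Type*} [Field F] [NumberField F] [Field E] [Algebra F E] [IsGalois F E]

section
variable (ℓ : ℕ) [Fact ℓ.Prime]

theorem pexp_nat (n : ℕ) : pexp ℓ (n : ℤ_[ℓ]) = (1 + (ℓ : ℤ_[ℓ])) ^ n := by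
  rw [← nsmul_one n, AddChar.map_nsmul_eq_pow, pexp, PadicInt.addChar_of_value_at_one_def]

theorem pexp_cont : Continuous (pexp ℓ) := by
  exact PadicInt.continuous_addChar_of_value_at_one _

theorem norm_pexp (z : ℤ_[ℓ]) : ‖pexp ℓ z‖ = 1 := by
  exact PadicInt.isUnit_iff.1 ((pexp ℓ).val_isUnit z)

theorem pl_norm_sub_one (h2 : ℓ ≠ 2) (z : ℤ_[ℓ]) : ‖pexp ℓ z - 1‖ = (ℓ : ℝ)⁻¹ * ‖z‖ := by
  have hp : ℓ.Prime := Fact.out
  refine PadicInt.denseRange_natCast.induction_on z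
    (isClosed_eq ((pexp_cont ℓ).sub continuous_const).norm (by fun_prop)) fun n => ?_
  rcases eq_or_ne n 0 with rfl | hn
  · simp
  have h1 : 1 < (1 + ℓ) ^ n := one_lt_pow₀ (by have := hp.pos; omega) hn
  have h3 := padicValNat.pow_sub_pow (hp.odd_of_ne_two h2) (x := 1 + ℓ) (y := 1) (by have := hp.pos; omega)
    (by simp) (by simpa using hp.one_lt.ne') hn
  rw [one_pow, Nat.add_sub_cancel_left, padicValNat_self] at h3
  have h4 : pexp ℓ n - 1 = (((1 + ℓ) ^ n - 1 : ℕ) : ℤ_[ℓ]) := by rw [pexp_nat, Nat.cast_sub h1.le]; simp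
  rw [h4, PadicInt.norm_def, PadicInt.norm_def, PadicInt.coe_natCast, PadicInt.coe_natCast,
    Padic.norm_eq_zpow_neg_valuation (Nat.cast_ne_zero.2 (by omega)),
    Padic.norm_eq_zpow_neg_valuation (Nat.cast_ne_zero.2 hn), Padic.valuation_natCast, Padic.valuation_natCast,
    h3, Nat.cast_add, neg_add, zpow_add₀ (Nat.cast_ne_zero.2 hp.ne_zero), Nat.cast_one, zpow_neg_one]

theorem norm_pexp_sub (h2 : ℓ ≠ 2) (z w : ℤ_[ℓ]) :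
    ‖pexp ℓ z - pexp ℓ w‖ = (ℓ : ℝ)⁻¹ * ‖z - w‖ := by
  rw [← pl_norm_sub_one ℓ h2, ← one_mul ‖pexp ℓ (z - w) - 1‖, ← norm_pexp ℓ w, ← norm_mul, mul_sub, mul_one,
    ← AddChar.map_add_eq_mul, add_sub_cancel]

theorem pl_surj {X : Type*} [MetricSpace X] [CompactSpace X] {f : X → X} (hf : Isometry f) :
    Function.Surjective f := by
  intro x
  by_contra hx
  obtain ⟨ε, hε, h⟩ := Metric.isOpen_iff.1 (isCompact_range hf.continuous).isClosed.isOpen_compl x hx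
  have h1 (m k : ℕ) : ε ≤ dist (f^[m] x) (f^[m + 1 + k] x) := by
    induction m with
    | zero => exact not_lt.1 fun h' => h (Metric.mem_ball'.2 h') ⟨f^[k] x, by
        rw [zero_add, add_comm, Function.iterate_succ_apply']⟩
    | succ m ih => rwa [Function.iterate_succ_apply', show m + 1 + 1 + k = m + 1 + k + 1 by ring,
        Function.iterate_succ_apply', hf.dist_eq]
  obtain ⟨a, φ, hφ, ha⟩ := CompactSpace.tendsto_subseq fun n => f^[n] x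
  have h2 := ha.dist (ha.comp (Filter.tendsto_add_atTop_nat 1))
  rw [dist_self] at h2
  refine hε.not_ge (ge_of_tendsto' h2 fun n => ?_)
  obtain ⟨k, hk⟩ := Nat.exists_eq_add_of_le (Nat.succ_le_of_lt (hφ n.lt_succ_self))
  simpa [← hk] using h1 (φ n) k

theorem pl_exists (h2 : ℓ ≠ 2) {u : ℤ_[ℓ]} (hu : (ℓ : ℤ_[ℓ]) ∣ u - 1) : ∃ z, pexp ℓ z = u := by
  have hp : ℓ.Prime := Fact.out
  have h0 : (0 : ℝ) < (ℓ : ℝ)⁻¹ := inv_pos.2 (Nat.cast_pos.2 hp.pos)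
  have h1 (z : ℤ_[ℓ]) : (ℓ : ℤ_[ℓ]) ∣ pexp ℓ z - 1 := by
    rw [← PadicInt.norm_lt_one_iff_dvd, pl_norm_sub_one ℓ h2]
    exact (mul_le_of_le_one_right h0.le z.norm_le_one).trans_lt
      (inv_lt_one_of_one_lt₀ (Nat.one_lt_cast.2 hp.one_lt))
  choose g hg using h1
  obtain ⟨a, ha⟩ := hu
  obtain ⟨z, hz⟩ := pl_surj (f := g) (Isometry.of_dist_eq fun z w => by
    rw [dist_eq_norm, dist_eq_norm, ← mul_right_inj' h0.ne', ← norm_pexp_sub ℓ h2 z w, ← PadicInt.norm_p, ← norm_mul,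
      mul_sub, ← hg, ← hg, sub_sub_sub_cancel_right]) a
  exact ⟨z, by rw [← sub_left_inj (a := 1), hg, hz, ha]⟩

theorem pexp_plog (h2 : ℓ ≠ 2) {x : ℚ_[ℓ]} (hx : ‖x‖ = 1) :
    ((pexp ℓ (plog ℓ x) : ℤ_[ℓ]) : ℚ_[ℓ]) = x ^ (ℓ - 1) := by
  obtain ⟨x, rfl⟩ : ∃ z : ℤ_[ℓ], z = x := ⟨⟨x, hx.le⟩, rfl⟩
  obtain ⟨z, hz⟩ := pl_exists ℓ h2 (u := x ^ (ℓ - 1)) (by
    rw [← Ideal.mem_span_singleton, ← PadicInt.maximalIdeal_eq_span_p, ← PadicInt.ker_toZMod, RingHom.mem_ker,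
      map_sub, map_pow, map_one, sub_eq_zero]
    exact ZMod.pow_card_sub_one_eq_one ((PadicInt.isUnit_iff.2 hx).map _).ne_zero)
  exact Classical.epsilon_spec (p := fun z : ℤ_[ℓ] => ((pexp ℓ z : ℤ_[ℓ]) : ℚ_[ℓ]) = (x : ℚ_[ℓ]) ^ (ℓ - 1))
    ⟨z, by rw [hz, PadicInt.coe_pow]⟩

theorem pl_inj (h2 : ℓ ≠ 2) {z w : ℤ_[ℓ]} (h : ((pexp ℓ z : ℤ_[ℓ]) : ℚ_[ℓ]) = (pexp ℓ w : ℤ_[ℓ])) : z = w := by
  have h1 := norm_pexp_sub ℓ h2 z w
  rw [Subtype.ext h, sub_self, norm_zero, eq_comm, mul_eq_zero, norm_eq_zero, sub_eq_zero] at h1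
  exact h1.resolve_left (inv_ne_zero (Nat.cast_ne_zero.2 (Fact.out : ℓ.Prime).ne_zero))

theorem plog_one (h2 : ℓ ≠ 2) : plog ℓ 1 = 0 := by
  exact pl_inj ℓ h2 (by rw [pexp_plog ℓ h2 norm_one]; simp)

theorem plog_mul (h2 : ℓ ≠ 2) {x y : ℚ_[ℓ]} (hx : ‖x‖ = 1) (hy : ‖y‖ = 1) :
    plog ℓ (x * y) = plog ℓ x + plog ℓ y := by
  refine pl_inj ℓ h2 ?_
  rw [pexp_plog ℓ h2 (by rw [norm_mul, hx, hy, mul_one]), AddChar.map_add_eq_mul, PadicInt.coe_mul,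
    pexp_plog ℓ h2 hx, pexp_plog ℓ h2 hy, mul_pow]

theorem plog_zpow (h2 : ℓ ≠ 2) {x : ℚ_[ℓ]} (hx : ‖x‖ = 1) (n : ℤ) :
    plog ℓ (x ^ n) = n * plog ℓ x := by
  have h0 : x ≠ 0 := norm_ne_zero_iff.1 (hx ▸ one_ne_zero)
  have h1 (n : ℤ) : plog ℓ (x ^ (n + 1)) = plog ℓ (x ^ n) + plog ℓ x := by
    rw [zpow_add_one₀ h0, plog_mul ℓ h2 (by rw [norm_zpow, hx, one_zpow]) hx]
  induction n using Int.induction_on with
  | zero => simp [plog_one ℓ h2]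
  | succ n ih => rw [h1, ih]; push_cast; ring
  | pred n ih =>
    have := h1 (-n - 1)
    rw [sub_add_cancel, ih] at this
    push_cast at this ⊢
    linear_combination -this

theorem plog_prod (h2 : ℓ ≠ 2) {ι : Type*} (s : Finset ι) (x : ι → ℚ_[ℓ])
    (hx : ∀ i ∈ s, ‖x i‖ = 1) : plog ℓ (∏ i ∈ s, x i) = ∑ i ∈ s, plog ℓ (x i) := by
  induction s using Finset.cons_induction with
  | empty => simp [plog_one ℓ h2]
  | cons a s ha ih =>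
    have h1 := fun i hi => hx i (Finset.mem_cons_of_mem hi)
    rw [Finset.prod_cons, Finset.sum_cons, plog_mul ℓ h2 (hx a (Finset.mem_cons_self ..))
      (by rw [norm_prod, Finset.prod_eq_one h1]), ih h1]

theorem norm_plog_sub (h2 : ℓ ≠ 2) {x y : ℚ_[ℓ]} (hx : ‖x‖ = 1) (hy : ‖y‖ = 1) :
    ‖x ^ (ℓ - 1) - y ^ (ℓ - 1)‖ = (ℓ : ℝ)⁻¹ * ‖plog ℓ x - plog ℓ y‖ := by
  rw [← norm_pexp_sub ℓ h2, ← pexp_plog ℓ h2 hx, ← pexp_plog ℓ h2 hy, ← PadicInt.coe_sub, PadicInt.norm_def]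

/-- for principal units the logarithm is an isometry up to the factor `ℓ` -/
theorem norm_plog_sub' (h2 : ℓ ≠ 2) {x y : ℚ_[ℓ]} (hx : ‖x‖ = 1) (hy : ‖y‖ = 1)
    (hxy : ‖x - y‖ < 1) : ‖x - y‖ = (ℓ : ℝ)⁻¹ * ‖plog ℓ x - plog ℓ y‖ := by
  have hp : ℓ.Prime := Fact.out
  rw [← norm_plog_sub ℓ h2 hx hy]
  obtain ⟨x, rfl⟩ : ∃ z : ℤ_[ℓ], z = x := ⟨⟨x, hx.le⟩, rfl⟩
  obtain ⟨y, rfl⟩ : ∃ z : ℤ_[ℓ], z = y := ⟨⟨y, hy.le⟩, rfl⟩
  have h1 := not_dvd_geom_sum₂ (n := ℓ - 1) PadicInt.prime_p ((PadicInt.norm_lt_one_iff_dvd (x - y)).1 hxy)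
    (fun h => ((PadicInt.norm_lt_one_iff_dvd x).2 h).ne hx) (by
      rw [Nat.cast_sub hp.one_le, Nat.cast_one, dvd_sub_self_left]
      exact PadicInt.prime_p.not_dvd_one)
  rw [← PadicInt.norm_lt_one_iff_dvd, not_lt] at h1
  rw [← PadicInt.coe_pow, ← PadicInt.coe_pow, ← PadicInt.coe_sub, ← PadicInt.coe_sub, ← geom_sum₂_mul,
    ← PadicInt.norm_def, ← PadicInt.norm_def, norm_mul, le_antisymm (PadicInt.norm_le_one _) h1, one_mul]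

theorem plog_eq_iff (h2 : ℓ ≠ 2) {x y : ℚ_[ℓ]} (hx : ‖x‖ = 1) (hy : ‖y‖ = 1) :
    plog ℓ x = plog ℓ y ↔ x ^ (ℓ - 1) = y ^ (ℓ - 1) := by
  rw [← pexp_plog ℓ h2 hx, ← pexp_plog ℓ h2 hy]
  exact ⟨fun h => h ▸ rfl, pl_inj ℓ h2⟩

theorem plog_cont (h2 : ℓ ≠ 2) : ContinuousOn (plog ℓ) {x | ‖x‖ = 1} := by
  intro y hy
  have h0 : (ℓ : ℝ) ≠ 0 := Nat.cast_ne_zero.2 (Fact.out : ℓ.Prime).ne_zero
  have h1 : ContinuousWithinAt (fun x : ℚ_[ℓ] => (ℓ : ℝ) * ‖x ^ (ℓ - 1) - y ^ (ℓ - 1)‖) {x | ‖x‖ = 1} y := by fun_prop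
  rw [ContinuousWithinAt, sub_self, norm_zero, mul_zero] at h1
  refine tendsto_iff_norm_sub_tendsto_zero.2 (h1.congr' (eventually_nhdsWithin_of_forall fun x hx => ?_))
  simp only [norm_plog_sub ℓ h2 hx hy, mul_inv_cancel_left₀ h0]

end

end Crest.Agent.R18
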