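import Crest.Agent.R18.ZE
import Crest.Agent.R18.PL
import Crest.Agent.R18.EM.A

/-! Row 18 block EM: `ℓ`-adic logarithms of independent points span (Emsalem). -/

set_option autoImplicit false
set_option linter.unusedSectionVars false
open scoped Pointwise NumberField
open IsDedekindDomain Crest.NumberTheoryR

namespace Crest.Agent.R18

variable {F E : Type*} [Field F] [NumberField F] [Field E] [Algebra F E] [IsGalois F E]

theorem em_param (ℓ d n J γ A₀ : ℕ) (hl : 1 < ℓ) (hn : 0 < n) : ∃ A D M B : ℕ, A₀ ≤ A ∧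
    (d + 1) * ((ℓ - 1) * D) ≤ A ^ (d + 1) ∧ (ℓ ^ M) ^ (M ^ d) < (B + 1) ^ (D ^ (d + 1)) ∧
    (D ^ (d + 1) * (B * (ℓ ^ γ) ^ (A * ((ℓ - 1) * D) * (J * (d + 1))))) ^ n < ℓ ^ M := by
  obtain ⟨c3, hc3⟩ : ∃ c3, c3 = (d + 1) + γ * (ℓ - 1) * (J * (d + 1)) := ⟨_, rfl⟩
  obtain ⟨c2, hc2⟩ : ∃ c2, c2 = (2 * n + 1) * c3 := ⟨_, rfl⟩
  obtain ⟨A, hA⟩ : ∃ A, A = A₀ + 1 + (d + 1) * ((ℓ - 1) * ((2 * n + 1) * c2 ^ d)) := ⟨_, rfl⟩
  obtain ⟨S, hS⟩ : ∃ S, S = c2 * A := ⟨_, rfl⟩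
  obtain ⟨D, hD⟩ : ∃ D, D = (2 * n + 1) * S ^ d := ⟨_, rfl⟩
  obtain ⟨β, hβ⟩ : ∃ β, β = S ^ (d + 1) := ⟨_, rfl⟩
  have hA1 : 1 ≤ A := by omega
  have hS0 : 0 < S := by
    rw [hS, hc2]
    exact Nat.mul_pos (Nat.mul_pos (by omega) (by omega)) hA1
  have hβ0 : 0 < β := hβ ▸ Nat.pow_pos hS0
  have hB : 0 < ℓ ^ β := Nat.pow_pos (by omega)
  refine ⟨A, D, 2 * n * β, ℓ ^ β - 1, by omega, ?_, ?_, ?_⟩
  · calc (d + 1) * ((ℓ - 1) * D) = (d + 1) * ((ℓ - 1) * ((2 * n + 1) * c2 ^ d)) * A ^ d := by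
          rw [hD, hS]
          ring
      _ ≤ A * A ^ d := Nat.mul_le_mul_right _ (by omega)
      _ = _ := by ring
  · rw [Nat.sub_add_cancel hB, ← pow_mul, ← pow_mul]
    refine Nat.pow_lt_pow_right hl ?_
    calc 2 * n * β * (2 * n * β) ^ d = (2 * n) ^ (d + 1) * β ^ (d + 1) := by ring
      _ < (2 * n + 1) ^ (d + 1) * β ^ (d + 1) :=
          Nat.mul_lt_mul_of_pos_right (Nat.pow_lt_pow_left (by omega) (by omega)) (Nat.pow_pos hβ0)
      _ = _ := by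
          rw [hD, mul_pow, ← pow_mul S d, mul_comm d, pow_mul, ← hβ]
          ring
  · rw [show 2 * n * β = (β + β) * n by ring, pow_mul ℓ (β + β)]
    refine Nat.pow_lt_pow_left ?_ hn.ne'
    have h1 : D ^ (d + 1) ≤ ℓ ^ (D * (d + 1)) := by
      rw [pow_mul]
      exact Nat.pow_le_pow_left (Nat.lt_pow_self hl).le _
    have h2 : D * (d + 1) + γ * (A * ((ℓ - 1) * D) * (J * (d + 1))) ≤ β := by
      calc _ ≤ A * (D * (d + 1)) + γ * (A * ((ℓ - 1) * D) * (J * (d + 1))) :=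
            Nat.add_le_add_right (Nat.le_mul_of_pos_left _ hA1) _
        _ = A * D * c3 := by
            rw [hc3]
            ring
        _ = β := by
            rw [hβ, hD, pow_succ S d]
            nth_rewrite 3 [hS]
            rw [hc2]
            ring
    calc _ = D ^ (d + 1) * ℓ ^ (γ * (A * ((ℓ - 1) * D) * (J * (d + 1)))) * (ℓ ^ β - 1) := by
          rw [pow_mul ℓ γ]
          ring
      _ ≤ ℓ ^ β * (ℓ ^ β - 1) := by
          refine Nat.mul_le_mul_right _ ((Nat.mul_le_mul_right _ h1).trans ?_)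
          rw [← pow_add]
          exact Nat.pow_le_pow_right (by omega) h2
      _ < ℓ ^ β * ℓ ^ β := Nat.mul_lt_mul_of_pos_left (by omega) hB
      _ = _ := by rw [pow_add]

theorem em_poly {K : Type*} [Field K] [CharZero K] {d D r : ℕ} (hr : r ≠ 0) (b : (Fin d → Fin D) → ℤ)
    (hb : b ≠ 0) : ∃ P : MvPolynomial (Fin d) K, P ≠ 0 ∧ P.totalDegree ≤ d * (r * D) ∧
      ∀ w : Fin d → K, MvPolynomial.eval w P = ∑ m, (b m : K) * ∏ i, w i ^ (r * m i) := by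
  classical
  let ex : (Fin d → Fin D) → (Fin d →₀ ℕ) := fun m => Finsupp.equivFunOnFinite.symm fun i => r * m i
  have hex : Function.Injective ex := fun m m' h => funext fun i => Fin.ext <| by
    have := congrArg (fun f : Fin d →₀ ℕ => f i) h
    simpa [ex, hr] using this
  refine ⟨∑ m, MvPolynomial.monomial (ex m) (b m : K), fun h0 => hb (funext fun m => ?_), ?_,
    fun w => ?_⟩
  · have := congrArg (MvPolynomial.coeff (ex m)) h0
    simp only [MvPolynomial.coeff_sum, MvPolynomial.coeff_monomial, hex.eq_iff, Finset.sum_ite_eq',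
      Finset.mem_univ, if_true, MvPolynomial.coeff_zero] at this
    exact_mod_cast this
  · refine MvPolynomial.totalDegree_finsetSum_le fun m _ =>
      (MvPolynomial.totalDegree_monomial_le _ _).trans ?_
    rw [Finsupp.sum_fintype _ _ fun _ => rfl]
    calc _ ≤ ∑ _i : Fin d, r * D := Finset.sum_le_sum fun i _ => Nat.mul_le_mul_left r (m i).2.le
      _ = _ := by simp
  · rw [map_sum]
    refine Finset.sum_congr rfl fun m _ => ?_
    rw [MvPolynomial.eval_monomial, Finsupp.prod_fintype _ _ fun _ => pow_zero _]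
    rfl

theorem em_pexp_sum (ℓ : ℕ) [Fact ℓ.Prime] {ι : Type*} (s : Finset ι) (z : ι → ℤ_[ℓ]) :
    pexp ℓ (∑ i ∈ s, z i) = ∏ i ∈ s, pexp ℓ (z i) := by
  classical
  induction s using Finset.induction_on with
  | empty => simp
  | insert i s hi ih => rw [Finset.sum_insert hi, Finset.prod_insert hi, AddChar.map_add_eq_mul, ih]

theorem emsalem (K : Type*) [Field K] [NumberField K] (ℓ : ℕ) [Fact ℓ.Prime] (h2 : ℓ ≠ 2)
    (e : K →+* ℚ_[ℓ]) (d : ℕ) (Y : ℕ → Fin d → Kˣ) (hu : ∀ j i, ‖e (Y j i)‖ = 1)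
    (hind : ∀ m : Fin d → ℤ, m ≠ 0 → ∀ (s : Finset ℕ) (a : ℕ → ℤ),
      ∏ j ∈ s, ∏ i, Y j i ^ (a j * m i) = 1 → ∀ j ∈ s, a j = 0)
    (lam : Fin d → ℤ_[ℓ]) (h : ∀ j, ∑ i, lam i * plog ℓ (e (Y j i)) = 0) : lam = 0 := by
  by_contra hlam
  have hp : ℓ.Prime := Fact.out
  obtain ⟨i1, hi1⟩ := Function.ne_iff.1 hlam
  obtain ⟨d, rfl⟩ : ∃ d', d = d' + 1 := ⟨d - 1, by have := i1.2; omega⟩
  obtain ⟨i0, -, hi0⟩ := Finset.exists_max_image Finset.univ (fun i => ‖lam i‖) ⟨i1, Finset.mem_univ _⟩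
  have h0 : lam i0 ≠ 0 := fun h0 => hi1 (by simpa [h0] using hi0 i1 (Finset.mem_univ _))
  have h0' : (lam i0 : ℚ_[ℓ]) ≠ 0 := PadicInt.coe_ne_zero.2 h0
  have hdiv : ∀ i, ∃ μ : ℤ_[ℓ], lam i = lam i0 * μ := fun i => by
    refine ⟨⟨(lam i : ℚ_[ℓ]) / lam i0, ?_⟩, Subtype.ext ?_⟩
    · rw [norm_div]
      exact div_le_one_of_le₀ (hi0 i (Finset.mem_univ _)) (norm_nonneg _)
    · exact (mul_div_cancel₀ _ h0').symm
  choose mu hmu using hdiv
  have hmu0 : mu i0 = 1 := (mul_left_cancel₀ h0 ((mul_one _).trans (hmu i0))).symm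
  have h' : ∀ j, ∑ i, mu i * plog ℓ (e (Y j i)) = 0 := fun j => by
    refine mul_left_cancel₀ h0 ?_
    rw [mul_zero, ← h j, Finset.mul_sum]
    exact Finset.sum_congr rfl fun i _ => by rw [← mul_assoc, ← hmu]
  obtain ⟨J, A₀, hze⟩ := ze K (d + 1) (d + 1)
  have hze' := hze (fun j => Y j) fun m hm a ha => by
    have h1 := hind m hm (Finset.range J) (fun j => if hj : j < J then a ⟨j, hj⟩ else 0) (by
      rw [← ha, Finset.prod_range]
      simp)
    funext j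
    simpa using h1 j (Finset.mem_range.2 j.2)
  obtain ⟨δ, γ, hδ0, hδ1, hδ2, hδ3⟩ :=
    em_den (fun t : Fin J × Fin (d + 1) => (Y t.1 t.2 : K)) hp.one_lt
  obtain ⟨A, D, M, B, hA, hdeg, hB, hfin⟩ :=
    em_param ℓ d (Module.finrank ℚ K) J γ A₀ hp.one_lt Module.finrank_pos
  obtain ⟨b, hb0, hb1, hb2⟩ := em_padic ℓ h2 (ι := Fin d) (μ := Fin (d + 1) → Fin D)
    (fun m i => ((m (i0.succAbove i) : ℕ) : ℤ_[ℓ]) - mu (i0.succAbove i) * (m i0 : ℕ)) (M := M) (B := B)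
    (by simpa using hB)
  obtain ⟨P, hP0, hP1, hP2⟩ := em_poly (K := K) (r := ℓ - 1) (by have := hp.one_lt; omega) b hb0
  obtain ⟨a, ha, hne⟩ := hze' A hA P hP0 (hP1.trans hdeg)
  rw [hP2] at hne
  set w : Fin (d + 1) → K := fun i => ∏ j : Fin J, (Y j i : K) ^ a j with hw
  have hw1 : ∀ i, ‖e (w i)‖ = 1 := fun i => by simp [hw, hu]
  set z : Fin (d + 1) → ℤ_[ℓ] := fun i => plog ℓ (e (w i)) with hz
  have hz1 : ∀ i, z i = ∑ j : Fin J, (a j : ℤ_[ℓ]) * plog ℓ (e (Y j i)) := fun i => by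
    simp only [hz, hw, map_prod, map_pow]
    rw [plog_prod ℓ h2 _ _ fun j _ => by simp [hu]]
    refine Finset.sum_congr rfl fun j _ => ?_
    have := plog_zpow ℓ h2 (hu j i) (a j)
    simpa using this
  have hz2 : ∑ i, mu i * z i = 0 := by
    simp only [hz1, Finset.mul_sum]
    rw [Finset.sum_comm]
    refine Finset.sum_eq_zero fun j _ => ?_
    simp only [mul_left_comm (mu _), ← Finset.mul_sum, h', mul_zero]
  have hsm : ‖e (∑ m, (b m : K) * ∏ i, w i ^ ((ℓ - 1) * (m i : ℕ)))‖ ≤ (ℓ : ℝ) ^ (-M : ℤ) := by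
    refine le_of_eq_of_le ?_ (hb2 fun i => z (i0.succAbove i))
    rw [PadicInt.norm_def]
    congr 1
    rw [map_sum, PadicInt.coe_sum]
    refine Finset.sum_congr rfl fun m _ => ?_
    rw [map_mul, map_intCast, PadicInt.coe_mul, PadicInt.coe_intCast, ← em_pexp_sum]
    congr 1
    have e1 : ∑ i, (((m (i0.succAbove i) : ℕ) : ℤ_[ℓ]) - mu (i0.succAbove i) * (m i0 : ℕ)) *
        z (i0.succAbove i) = ∑ i, (m i : ℕ) • z i := by
      rw [Fin.sum_univ_succAbove _ i0, hmu0, one_mul] at hz2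
      rw [Fin.sum_univ_succAbove _ i0, eq_neg_of_add_eq_zero_left hz2]
      simp only [nsmul_eq_mul, sub_mul, Finset.sum_sub_distrib, mul_neg, Finset.mul_sum]
      rw [sub_eq_neg_add]
      congr 2
      exact Finset.sum_congr rfl fun i _ => by ring
    rw [e1, em_pexp_sum, map_prod]
    refine Eq.trans ?_ (map_prod (PadicInt.Coe.ringHom (p := ℓ)) _ _).symm
    refine Finset.prod_congr rfl fun i _ => ?_
    rw [AddChar.map_nsmul_eq_pow, map_pow, map_pow, pow_mul, ← pexp_plog ℓ h2 (hw1 i)]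
    rfl
  have e2 : ∀ m : Fin (d + 1) → Fin D, ∏ i, w i ^ ((ℓ - 1) * (m i : ℕ)) =
      ∏ t : Fin J × Fin (d + 1), (Y t.1 t.2 : K) ^ (a t.1 * ((ℓ - 1) * (m t.2 : ℕ))) := fun m => by
    rw [Fintype.prod_prod_type_right]
    refine Finset.prod_congr rfl fun i _ => ?_
    simp only [hw, ← Finset.prod_pow, pow_mul]
  replace hne : ∑ m, (b m : K) * ∏ i, w i ^ ((ℓ - 1) * (m i : ℕ)) ≠ 0 := hne
  simp only [e2] at hne hsm
  obtain ⟨h3, h4⟩ := em_clear (fun t : Fin J × Fin (d + 1) => (Y t.1 t.2 : K)) δ hδ1 hδ2 hδ3 b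
    (G := A * ((ℓ - 1) * D)) hb1 (fun m t => a t.1 * ((ℓ - 1) * (m t.2 : ℕ)))
    fun m t => Nat.mul_le_mul (ha _).le (Nat.mul_le_mul_left _ (m _).2.le)
  have h5 := em_liouville e h3 (mul_ne_zero (pow_ne_zero _ (Int.cast_ne_zero.2 hδ0)) hne) (M := M) (by
    rw [map_mul, norm_mul]
    refine (mul_le_of_le_one_left (norm_nonneg _) ?_).trans hsm
    exact em_norm_le_one e ((isIntegral_algebraMap (R := ℤ) (x := δ)).pow _))
  have h6 := h5.trans (pow_le_pow_left₀ (NumberField.house_nonneg _) h4 _)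
  simp only [Fintype.card_prod, Fintype.card_fin, Fintype.card_fun] at h6
  exact absurd hfin (not_lt.2 (by exact_mod_cast h6))

end Crest.Agent.R18
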