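import Crest.Agent.R18.Grp

/-! Row 18 toolkit: Hilbert 90 and Kummer characters. -/

set_option autoImplicit false
set_option linter.unusedSectionVars false
open scoped Pointwise NumberField
open IsDedekindDomain Crest.NumberTheoryR

namespace Crest.Agent.R18

variable {F E : Type*} [Field F] [NumberField F] [Field E] [Algebra F E] [IsGalois F E]

/-- Hilbert 90 for locally constant cocycles of an open subgroup -/
theorem h90 (U : Subgroup (E ≃ₐ[F] E)) (hU : IsOpen (U : Set (E ≃ₐ[F] E)))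
    (c : (E ≃ₐ[F] E) → E) (hc0 : ∀ g ∈ U, c g ≠ 0)
    (hc : ∀ g ∈ U, ∀ h ∈ U, c (g * h) = c g * g (c h))
    (W : Subgroup (E ≃ₐ[F] E)) (hW : IsOpen (W : Set (E ≃ₐ[F] E)))
    (h1 : ∀ g ∈ U, g ∈ W → c g = 1) :
    ∃ z : E, z ≠ 0 ∧ ∀ g ∈ U, g z = c g * z := by
  classical
  set N : Subgroup (E ≃ₐ[F] E) := (U ⊓ W).normalCore with hN
  have hNo : IsOpen (N : Set (E ≃ₐ[F] E)) := open_normalCore _ (by
    rw [Subgroup.coe_inf]; exact hU.inter hW)
  have hNle : N ≤ U ⊓ W := Subgroup.normalCore_le _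
  have : N.FiniteIndex := finiteIndex_of_open N hNo
  have : (N.subgroupOf U).FiniteIndex := inferInstance
  have : Finite (U ⧸ N.subgroupOf U) := Subgroup.finite_quotient_of_finiteIndex
  let : Fintype (U ⧸ N.subgroupOf U) := Fintype.ofFinite _
  have key : ∀ u : U, c ((QuotientGroup.mk u : U ⧸ N.subgroupOf U).out : U) = c u ∧
      ∀ x, Fix N x → (((QuotientGroup.mk u : U ⧸ N.subgroupOf U).out : U) : E ≃ₐ[F] E) x =
        (u : E ≃ₐ[F] E) x := by
    intro u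
    obtain ⟨h, hh⟩ := QuotientGroup.mk_out_eq_mul (N.subgroupOf U) u
    have hm : ((h : U) : E ≃ₐ[F] E) ∈ N := h.2
    rw [hh]
    refine ⟨?_, fun x hx => ?_⟩
    · rw [Subgroup.coe_mul, hc _ u.2 _ (h : U).2, h1 _ (h : U).2 (hNle hm).2, map_one, mul_one]
    · rw [Subgroup.coe_mul, AlgEquiv.mul_apply, hx _ hm]
  let L := IntermediateField.fixedField N
  let φ : (U ⧸ N.subgroupOf U) → (L →* E) := fun q =>
    { toFun := fun x => ((q.out : U) : E ≃ₐ[F] E) x
      map_one' := by simp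
      map_mul' := fun x y => by simp }
  have hφ : Function.Injective φ := by
    intro q q' h
    rw [← QuotientGroup.out_eq' q, ← QuotientGroup.out_eq' q', QuotientGroup.eq,
      Subgroup.mem_subgroupOf]
    refine mem_of_fix N (N.isClosed_of_isOpen hNo) _ fun x hx => ?_
    have h2 : ((q.out : U) : E ≃ₐ[F] E) x = ((q'.out : U) : E ≃ₐ[F] E) x :=
      DFunLike.congr_fun h ⟨x, (fix_iff_mem N x).1 hx⟩
    rw [Subgroup.coe_mul, Subgroup.coe_inv, AlgEquiv.mul_apply, ← h2, ← AlgEquiv.mul_apply,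
      inv_mul_cancel, AlgEquiv.one_apply]
  have hli := (linearIndependent_monoidHom L E).comp φ hφ
  rw [Fintype.linearIndependent_iff] at hli
  have hex : ∃ x : L, ∑ q : U ⧸ N.subgroupOf U, (c (q.out : U))⁻¹ * φ q x ≠ 0 := by
    by_contra hcon
    push Not at hcon
    have := hli (fun q => (c (q.out : U))⁻¹) (by
      funext x
      simpa [Finset.sum_apply] using hcon x) 1
    exact hc0 _ (Subtype.property _) (inv_eq_zero.1 this)
  obtain ⟨x, hx⟩ := hex
  refine ⟨_, hx, fun g hg => ?_⟩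
  have hxf : Fix N (x : E) := (fix_iff_mem N x).2 x.2
  rw [map_sum, ← Equiv.sum_comp (Equiv.mulLeft (QuotientGroup.mk (⟨g, hg⟩ : U) :
    U ⧸ N.subgroupOf U)) (fun q => (c (q.out : U))⁻¹ * φ q x), Finset.mul_sum]
  refine Finset.sum_congr rfl fun q _ => ?_
  have e : (QuotientGroup.mk (⟨g, hg⟩ : U) : U ⧸ N.subgroupOf U) * q =
      QuotientGroup.mk ((⟨g, hg⟩ : U) * q.out) := by
    rw [QuotientGroup.mk_mul, QuotientGroup.out_eq']
  obtain ⟨k1, k2⟩ := key ((⟨g, hg⟩ : U) * q.out)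
  simp only [Equiv.coe_mulLeft, e, φ, MonoidHom.coe_mk, OneHom.coe_mk]
  rw [k1, k2 _ hxf, Subgroup.coe_mul, hc _ hg _ (q.out).2, AlgEquiv.mul_apply, map_mul, map_inv₀]
  have := hc0 g hg
  field_simp

theorem kum_pow_val_add {m : ℕ} [NeZero m] {ζ : E} (hζ : ζ ^ m = 1) (a b : ZMod m) :
    ζ ^ (a + b).val = ζ ^ a.val * ζ ^ b.val := by
  rw [ZMod.val_add, ← pow_add, ← pow_eq_pow_mod _ hζ]

/-- every character of exponent `m` is a Kummer character -/
theorem kummer_surj (U : Subgroup (E ≃ₐ[F] E)) (hU : IsOpen (U : Set (E ≃ₐ[F] E))) {m : ℕ}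
    [NeZero m] (ζ : E) (hζ : IsPrimitiveRoot ζ m) (hf : Fix U ζ) (ρ : (E ≃ₐ[F] E) → ZMod m)
    (hρ : IsChar U ρ) :
    ∃ z : E, z ≠ 0 ∧ Fix U (z ^ m) ∧ ∀ g ∈ U, g z = ζ ^ (ρ g).val * z := by
  obtain ⟨K, hK⟩ := hρ.exists_ker
  have hz0 : ζ ≠ 0 := hζ.ne_zero (NeZero.ne m)
  obtain ⟨z, hz, h⟩ := h90 U hU (fun g => ζ ^ (ρ g).val) (fun g _ => pow_ne_zero _ hz0)
    (fun g hg h hh => by
      rw [hρ.1 g hg h hh, kum_pow_val_add hζ.pow_eq_one, map_pow, hf g hg])
    K (hρ.ker_open hU hK) (fun g _ hg => by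
      rw [((hK g).1 hg).2, ZMod.val_zero, pow_zero])
  refine ⟨z, hz, fun g hg => ?_, h⟩
  rw [map_pow, h g hg, mul_pow, ← pow_mul, mul_comm (ρ g).val, pow_mul, hζ.pow_eq_one, one_pow,
    one_mul]

/-- the Kummer cocycle of `z` (no assumption on `U` fixing `ζ`) -/
theorem kummer_cocycle (U : Subgroup (E ≃ₐ[F] E)) {m : ℕ} [NeZero m] (ζ : E)
    (hζ : IsPrimitiveRoot ζ m) (z : E) (hz : z ≠ 0) (hf : Fix U (z ^ m)) :
    ∃ ρ : (E ≃ₐ[F] E) → ZMod m, ContinuousOn ρ U ∧ ∀ g ∈ U, g z = ζ ^ (ρ g).val * z := by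
  classical
  let τ : E → ZMod m := fun y => if h : ∃ i : ZMod m, y = ζ ^ i.val * z then h.choose else 0
  refine ⟨fun g => τ (g z), ?_, fun g hg => ?_⟩
  · refine Continuous.continuousOn (continuous_iff_continuousAt.2 fun g0 => ?_)
    obtain ⟨W, -, hWo, hW⟩ := exists_open_fix (F := F) ({z} : Set E) (Set.finite_singleton z)
    have ho : IsOpen ((fun g => g0⁻¹ * g) ⁻¹' (W : Set (E ≃ₐ[F] E))) :=
      hWo.preimage (continuous_const.mul continuous_id)
    have hev : (fun g : E ≃ₐ[F] E => τ (g z)) =ᶠ[nhds g0] fun _ => τ (g0 z) := by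
      filter_upwards [ho.mem_nhds (show g0⁻¹ * g0 ∈ W by rw [inv_mul_cancel]; exact W.one_mem)]
        with g hg
      have h2 : (g0⁻¹ * g) z = z := hW z rfl _ hg
      have h3 : g z = g0 z := by
        conv_rhs => rw [← h2, ← AlgEquiv.mul_apply, mul_inv_cancel_left]
      rw [h3]
    exact continuousAt_const.congr hev.symm
  · have hex : ∃ i : ZMod m, g z = ζ ^ i.val * z := by
      have h1 : (g z / z) ^ m = 1 := by
        rw [div_pow, ← map_pow, hf g hg, div_self (pow_ne_zero _ hz)]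
      obtain ⟨i, hi, e⟩ := hζ.eq_pow_of_pow_eq_one h1
      refine ⟨(i : ZMod m), ?_⟩
      rw [ZMod.val_cast_of_lt hi, e, div_mul_cancel₀ _ hz]
    simp only [τ, dif_pos hex]
    exact hex.choose_spec

/-- the Kummer character of `z` -/
theorem kummer_char (U : Subgroup (E ≃ₐ[F] E)) {m : ℕ} [NeZero m] (ζ : E)
    (hζ : IsPrimitiveRoot ζ m) (hfζ : Fix U ζ) (z : E) (hz : z ≠ 0) (hf : Fix U (z ^ m)) :
    ∃ ρ : (E ≃ₐ[F] E) → ZMod m, IsChar U ρ ∧ ∀ g ∈ U, g z = ζ ^ (ρ g).val * z := by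
  obtain ⟨ρ, hc, h⟩ := kummer_cocycle U ζ hζ z hz hf
  refine ⟨ρ, ⟨fun x hx y hy => ?_, hc⟩, h⟩
  have h1 := h _ (U.mul_mem hx hy)
  rw [AlgEquiv.mul_apply, h y hy, map_mul, map_pow, hfζ x hx, h x hx, ← mul_assoc,
    mul_comm (ζ ^ (ρ y).val), ← kum_pow_val_add hζ.pow_eq_one] at h1
  have h2 := mul_right_cancel₀ hz h1
  exact (ZMod.val_injective m (hζ.pow_inj (ZMod.val_lt _) (ZMod.val_lt _) h2)).symm

/-- linearly independent characters are jointly surjective -/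
theorem chars_surj {G ι : Type*} [Group G] [TopologicalSpace G] [Fintype ι] {s : ℕ}
    [Fact s.Prime] (U : Subgroup G) (ρ : ι → G → ZMod s) (hρ : ∀ i, IsChar U (ρ i))
    (hind : ∀ a : ι → ZMod s, (∀ g ∈ U, ∑ i, a i * ρ i g = 0) → a = 0) (b : ι → ZMod s) :
    ∃ g ∈ U, ∀ i, ρ i g = b i := by
  classical
  have h1 : ∀ i, ρ i 1 = 0 := fun i => by
    have := (hρ i).1 1 U.one_mem 1 U.one_mem
    rw [mul_one] at this
    exact left_eq_add.1 this
  let A : AddSubgroup (ι → ZMod s) :=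
    { carrier := {v | ∃ g ∈ U, ∀ i, ρ i g = v i}
      zero_mem' := ⟨1, U.one_mem, h1⟩
      add_mem' := by
        rintro v w ⟨g, hg, e⟩ ⟨h, hh, e'⟩
        exact ⟨g * h, U.mul_mem hg hh, fun i => by
          rw [(hρ i).1 g hg h hh, e, e', Pi.add_apply]⟩
      neg_mem' := by
        rintro v ⟨g, hg, e⟩
        refine ⟨g⁻¹, U.inv_mem hg, fun i => ?_⟩
        have := (hρ i).1 g hg g⁻¹ (U.inv_mem hg)
        rw [mul_inv_cancel, h1, e] at this
        rw [Pi.neg_apply]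
        exact (neg_eq_of_add_eq_zero_right this.symm).symm }
  by_contra hcon
  have hb : b ∉ AddSubgroup.toZModSubmodule s A := fun h => hcon h
  have hlt : AddSubgroup.toZModSubmodule s A < ⊤ :=
    lt_top_iff_ne_top.2 fun h => hb (h ▸ Submodule.mem_top)
  obtain ⟨f, hf0, hf⟩ := Submodule.exists_le_ker_of_lt_top _ hlt
  have ha := hind (fun i => f (fun j => if i = j then 1 else 0)) fun g hg => by
    have h2 : f (fun i => ρ i g) = 0 := hf (show (fun i => ρ i g) ∈ A from ⟨g, hg, fun _ => rfl⟩)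
    rw [LinearMap.pi_apply_eq_sum_univ] at h2
    exact (Finset.sum_congr rfl fun i _ => by rw [smul_eq_mul, mul_comm]).trans h2
  refine hf0 (LinearMap.ext fun v => ?_)
  rw [LinearMap.pi_apply_eq_sum_univ]
  refine Finset.sum_eq_zero fun i _ => ?_
  rw [show f (fun j => if i = j then 1 else 0) = 0 from congrFun ha i, smul_zero]

end Crest.Agent.R18
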