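import Crest.Agent.R18.EM
import Crest.Agent.R18.Dict
import Crest.Agent.R18.EP.Abs

/-! Row 18 block EP: Emsalem's theorem for points supported over single primes. -/

set_option autoImplicit false
set_option linter.unusedSectionVars false
open scoped Pointwise NumberField
open IsDedekindDomain Crest.NumberTheoryR

namespace Crest.Agent.R18

variable {F E : Type*} [Field F] [NumberField F] [Field E] [Algebra F E] [IsGalois F E]

open Classical in
theorem emsalem' (ℓ : ℕ) [Fact ℓ.Prime] (h2 : ℓ ≠ 2) (W : Subgroup (E ≃ₐ[F] E))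
    (hW : IsOpen (W : Set (E ≃ₐ[F] E))) (e : IntermediateField.fixedField W →+* ℚ_[ℓ])
    {ι : Type*} [Fintype ι] (lam : ι → ℤ_[ℓ]) (P : Set ℕ) (hP : P.Infinite) (x : ℕ → ι → E)
    (hx : ∀ p ∈ P, ∀ i, x p i ≠ 0 ∧ Fix W (x p i) ∧ ‖ev e (x p i)‖ = 1)
    (hsum : ∀ p ∈ P, ∑ i, lam i * plog ℓ (ev e (x p i)) = 0)
    (hsupp : ∀ p ∈ P, ∀ (B : ValuationSubring E) (q : ℕ), Over B q → q ≠ p →
      ∀ i, B.valuation (x p i) = 1)
    (hval : ∀ p ∈ P, ∀ B : ValuationSubring E, Over B p → ∀ i i', B.valuation (x p i) ≠ 1 →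
      B.valuation (x p i') ≠ 1 → B.valuation (x p i) = B.valuation (x p i')) :
    ∃ p ∈ P, ∀ B : ValuationSubring E, Over B p →
      ∑ i ∈ Finset.univ.filter (fun i => B.valuation (x p i) ≠ 1), lam i = 0 := by
  let K := IntermediateField.fixedField W
  have : NumberField K := numberField_fixedField W hW
  let N : Subgroup Kˣ :=
    { carrier := {u | ‖e u‖ = 1}
      one_mem' := by simp
      mul_mem' := fun {a b} ha hb => by
        simp only [Set.mem_ofPred_eq, Units.val_mul, map_mul, norm_mul] at ha hb ⊢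
        rw [ha, hb, one_mul]
      inv_mem' := fun {a} ha => by
        simp only [Set.mem_ofPred_eq, Units.val_inv_eq_inv_val, map_inv₀, norm_inv] at ha ⊢
        rw [ha, inv_one] }
  let L : Additive N →+ ℤ_[ℓ] := AddMonoidHom.mk' (fun z => plog ℓ (e ((z.toMul : N) : Kˣ)))
    fun a b => by
      rw [← plog_mul ℓ h2 (a.toMul).2 (b.toMul).2, ← map_mul]
      rfl
  let o : HeightOneSpectrum (𝓞 K) → Additive N →+ ℤ := fun 𝔭 =>
    AddMonoidHom.mk' (fun z => ord 𝔭 (((z.toMul : N) : Kˣ) : K)) fun a b =>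
      ord_mul 𝔭 (Units.ne_zero _) (Units.ne_zero _)
  let ψ : Additive (𝓞 K)ˣ →ₗ[ℤ] Additive Kˣ :=
    (Units.map (algebraMap (𝓞 K) K : 𝓞 K →* K)).toAdditive.toIntLinearMap
  let j : Additive N →ₗ[ℤ] Additive Kˣ := N.subtype.toAdditive.toIntLinearMap
  have hj : Function.Injective j := fun a b h => Subtype.ext h
  have : Module.Finite ℤ ((LinearMap.range ψ).comap j) :=
    Module.Finite.of_injective (j.submoduleComap (LinearMap.range ψ)) fun a b h =>
      Subtype.ext (hj (congrArg (fun z : LinearMap.range ψ => (z : Additive Kˣ)) h))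
  have hm : ∀ (p : P) i, x p i ∈ K := fun p i => (fix_iff_mem W _).1 (hx p p.2 i).2.1
  have h0 : ∀ (p : P) i, (⟨x p i, hm p i⟩ : K) ≠ 0 := fun p i h =>
    (hx p p.2 i).1 (congrArg Subtype.val h)
  have he : ∀ (p : P) i, ev e (x p i) = e ⟨x p i, hm p i⟩ := fun p i => ev_coe e ⟨x p i, hm p i⟩
  let X : P → ι → Additive N := fun p i => Additive.ofMul
    ⟨Units.mk0 ⟨x p i, hm p i⟩ (h0 p i), by
      change ‖e ⟨x p i, hm p i⟩‖ = 1
      rw [← he]
      exact (hx p p.2 i).2.2⟩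
  have key : ∀ (B : ValuationSubring E) (𝔭 : HeightOneSpectrum (𝓞 K)),
      (∀ y z : K, B.valuation (algebraMap K E y) ≤ B.valuation (algebraMap K E z) ↔
        𝔭.valuation K y ≤ 𝔭.valuation K z) →
      (∀ (p : P) i, o 𝔭 (X p i) = 0 ↔ B.valuation (x p i) = 1) ∧ ∀ (p : P) i i',
        B.valuation (x p i) = B.valuation (x p i') → o 𝔭 (X p i) = o 𝔭 (X p i') := by
    intro B 𝔭 h
    refine ⟨fun p i => ?_, fun p i i' h' => ?_⟩
    · refine (ord_eq_zero_iff 𝔭 (h0 p i)).trans ?_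
      have h1 := h ⟨x p i, hm p i⟩ 1
      have h1' := h 1 ⟨x p i, hm p i⟩
      simp only [map_one] at h1 h1'
      rw [le_antisymm_iff, le_antisymm_iff, ← h1, ← h1']
      rfl
    · exact le_antisymm ((ord_le_iff 𝔭 (h0 p i) (h0 p i')).2 ((h _ _).1 h'.ge))
        ((ord_le_iff 𝔭 (h0 p i') (h0 p i)).2 ((h _ _).1 h'.le))
  have key2 : ∀ 𝔭 : HeightOneSpectrum (𝓞 K), ∃ (B : ValuationSubring E) (q : ℕ), Over B q ∧
      (∀ (p : P) i, o 𝔭 (X p i) = 0 ↔ B.valuation (x p i) = 1) ∧ (∀ (p : P) i i',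
        B.valuation (x p i) = B.valuation (x p i') → o 𝔭 (X p i) = o 𝔭 (X p i')) ∧
      ∀ (p : P) i, o 𝔭 (X p i) ≠ 0 → q = p := by
    intro 𝔭
    obtain ⟨B, q, h1, -, h3⟩ := exists_val_above (algebraMap K E) 𝔭
    refine ⟨B, q, h1, (key B 𝔭 h3).1, (key B 𝔭 h3).2, fun p i h => ?_⟩
    by_contra hq
    exact h (((key B 𝔭 h3).1 p i).2 (hsupp p p.2 B q h1 hq i))
  have := hP.to_subtype
  have hh := EP.abs L o ((LinearMap.range ψ).comap j) ?_ lam X ?_ ?_ ?_ ?_
  · obtain ⟨p, hp⟩ := hh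
    refine ⟨p, p.2, fun B hB => ?_⟩
    obtain ⟨𝔭, -, h⟩ := exists_prime_below (algebraMap K E) B hB
    rw [← hp 𝔭]
    exact Finset.sum_congr (Finset.filter_congr fun i _ => ((key B 𝔭 h).1 p i).not.symm)
      fun _ _ => rfl
  · intro z hz
    obtain ⟨u, hu⟩ := (dv_eq_zero_iff (Units.ne_zero ((z.toMul : N) : Kˣ))).1
      (Finsupp.ext fun 𝔭 => (dv_apply _ 𝔭).trans (hz 𝔭))
    exact ⟨Additive.ofMul u, Units.ext hu.symm⟩
  · intro p
    rw [← hsum p p.2]
    exact Finset.sum_congr rfl fun i _ => by rw [he]; rfl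
  · intro 𝔭 p p' i i' h h'
    obtain ⟨B, q, -, -, -, h4⟩ := key2 𝔭
    exact Subtype.ext ((h4 p i h).symm.trans (h4 p' i' h'))
  · intro 𝔭 p i i' h h'
    obtain ⟨B, q, h1, h2, h3, h4⟩ := key2 𝔭
    rw [h4 p i h] at h1
    exact h3 p i i' (hval p p.2 B h1 i i' ((h2 p i).not.1 h) ((h2 p i').not.1 h'))
  · intro d Y hY lam' hl
    refine emsalem K ℓ h2 e d (fun j i => ((Y j i).toMul : N)) (fun j i => (Y j i).toMul.2)
      (fun m hm s a h => hY m hm s a (hj ?_)) lam' hl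
    simp only [map_sum, map_zsmul, map_zero]
    have := congrArg Additive.ofMul h
    simp only [ofMul_prod, ofMul_zpow, ofMul_one] at this
    exact this

end Crest.Agent.R18
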