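import Crest.Agent.R18.FD
import Crest.Agent.R18.Kum
import Crest.Agent.R18.END.Level

/-! Row 18 block END: Uchida's endgame. -/

set_option autoImplicit false
set_option linter.unusedSectionVars false
open scoped Pointwise NumberField
open IsDedekindDomain Crest.NumberTheoryR

namespace Crest.Agent.R18

variable {F E : Type*} [Field F] [NumberField F] [Field E] [Algebra F E] [IsGalois F E]

theorem endgame (hE : IsSolvablyClosed E) (S : PreSetup F E)
    (hR : {q : ℕ | ∃ A : ValuationSubring E, Over A q ∧ ¬ Near S q A}.Finite) :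
    ∃ j : E →+* Qb, ∀ h ∈ S.H, ∀ x : E, h (j x) = j (S.a h x) := by
  obtain ⟨ι⟩ := end_emb (E := E) F
  have hc : ∀ (h : Gam) (a b : Qb), IsClosed {τ : Gam | h (τ a) = τ b} := fun h a b => by
    rw [← isOpen_compl_iff, isOpen_iff_mem_nhds]
    intro τ hτ
    have ho := ((stabilizer_isOpen_of_isIntegral (K := ℚ) a).inter (stabilizer_isOpen_of_isIntegral b)).preimage
      (continuous_const_mul τ⁻¹)
    refine Filter.mem_of_superset (ho.mem_nhds (by simp)) fun σ hσ e => hτ ?_
    have h1 : τ.symm (σ a) = a := hσ.1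
    have h2 : τ.symm (σ b) = b := hσ.2
    rw [AlgEquiv.symm_apply_eq] at h1 h2
    rw [Set.mem_ofPred_eq, ← h1, ← h2]
    exact e
  obtain ⟨τ, hτ⟩ := compact_levels (F := F) (E := E)
    (fun W => {τ : Gam | ∀ h ∈ S.H, ∀ x, Fix W x → h (τ (ι x)) = τ (ι (S.a h x))})
    (fun W _ _ => by
      simp only [Set.ofPred_forall]
      exact isClosed_iInter fun h => isClosed_iInter fun _ => isClosed_iInter fun x => isClosed_iInter fun _ =>
        hc h _ _)
    (fun W _ ho => by
      obtain ⟨W', hle, hn, ho', h3, -⟩ := exists_level hE W ho ∅ Set.finite_empty 3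
      obtain ⟨τ, hτ⟩ := end_level hE S hR ι hn ho' h3
      exact ⟨τ, fun h hh x hx => hτ h hh x fun g hg => hx g (hle hg)⟩)
    fun W W' _ _ _ _ hle τ hτ h hh x hx => hτ h hh x fun g hg => hx g (hle hg)
  refine ⟨(τ : Qb →+* Qb).comp ι, fun h hh x => ?_⟩
  obtain ⟨W, hn, ho, hx⟩ := exists_open_fix (F := F) {x} (Set.finite_singleton x)
  exact hτ W hn ho h hh x (hx x rfl)

end Crest.Agent.R18
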