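import Crest.Agent.R18.Grp

/-! Row 18 toolkit: formal properties of `Stab`, `Inert`, `Frob`, `Over`. -/

set_option autoImplicit false
set_option linter.unusedSectionVars false
open scoped Pointwise NumberField
open IsDedekindDomain Crest.NumberTheoryR

namespace Crest.Agent.R18

variable {F E : Type*} [Field F] [NumberField F] [Field E] [Algebra F E] [IsGalois F E]

variable {A B : ValuationSubring E} {g h : E ≃ₐ[F] E}

theorem mem_smul_val (g : E ≃ₐ[F] E) (A : ValuationSubring E) (x : E) :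
    g x ∈ g • A ↔ x ∈ A := by
  exact ValuationSubring.smul_mem_pointwise_smul_iff

theorem stab_iff : Stab A g ↔ g • A = A := by
  constructor
  · intro h
    ext x
    obtain ⟨y, rfl⟩ := g.surjective x
    rw [mem_smul_val, h]
  · intro h x
    rw [← mem_smul_val g A x, h]

theorem val_smul_le (g : E ≃ₐ[F] E) (A : ValuationSubring E) (x y : E) :
    (g • A).valuation (g x) ≤ (g • A).valuation (g y) ↔ A.valuation x ≤ A.valuation y := by
  rw [ValuationSubring.valuation_le_iff, ValuationSubring.valuation_le_iff]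
  constructor
  · rintro ⟨⟨a, ha⟩, h⟩
    refine ⟨⟨g⁻¹ a, (mem_smul_val g A _).1 (by simpa using ha)⟩, g.injective ?_⟩
    simpa using h
  · rintro ⟨⟨a, ha⟩, h⟩
    exact ⟨⟨g a, (mem_smul_val g A a).2 ha⟩, by rw [← h, map_mul]⟩

theorem val_smul_lt (g : E ≃ₐ[F] E) (A : ValuationSubring E) (x y : E) :
    (g • A).valuation (g x) < (g • A).valuation (g y) ↔ A.valuation x < A.valuation y := by
  rw [← not_le, ← not_le, val_smul_le]

theorem val_smul_eq (g : E ≃ₐ[F] E) (A : ValuationSubring E) (x y : E) :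
    (g • A).valuation (g x) = (g • A).valuation (g y) ↔ A.valuation x = A.valuation y := by
  rw [le_antisymm_iff, le_antisymm_iff, val_smul_le, val_smul_le]

theorem val_smul_lt_one (g : E ≃ₐ[F] E) (A : ValuationSubring E) (x : E) :
    (g • A).valuation (g x) < 1 ↔ A.valuation x < 1 := by
  simpa using val_smul_lt g A x 1

theorem val_smul_eq_one (g : E ≃ₐ[F] E) (A : ValuationSubring E) (x : E) :
    (g • A).valuation (g x) = 1 ↔ A.valuation x = 1 := by
  simpa using val_smul_eq g A x 1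

/-- the decomposition group preserves the valuation -/
theorem Stab.val_eq (hg : Stab A g) (x : E) : A.valuation (g x) = A.valuation x := by
  have hA := stab_iff.1 hg
  have := finiteIndex_of_open _ (stabilizer_isOpen_of_isIntegral (K := F) x)
  obtain ⟨n, hn, -, hx⟩ := Subgroup.exists_pow_mem_of_index_ne_zero
    (Subgroup.FiniteIndex.index_ne_zero (H := MulAction.stabilizer (E ≃ₐ[F] E) x)) g
  have h1 : ∀ a b, A.valuation a < A.valuation b → A.valuation (g a) < A.valuation (g b) :=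
    fun a b h => by
      have := (val_smul_lt g A a b).2 h
      rwa [hA] at this
  have h2 : (g ^ n) x = x := hx
  rcases lt_trichotomy (A.valuation (g x)) (A.valuation x) with h | h | h
  · have h3 : StrictAnti fun k : ℕ => A.valuation ((g ^ k) x) :=
      strictAnti_nat_of_succ_lt fun k => by
        induction k with
        | zero => simpa using h
        | succ k ih => simpa only [pow_succ' g, AlgEquiv.mul_apply] using h1 _ _ ih
    simpa only [h2, pow_zero, AlgEquiv.one_apply, lt_self_iff_false] using h3 hn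
  · exact h
  · have h3 : StrictMono fun k : ℕ => A.valuation ((g ^ k) x) :=
      strictMono_nat_of_lt_succ fun k => by
        induction k with
        | zero => simpa using h
        | succ k ih => simpa only [pow_succ' g, AlgEquiv.mul_apply] using h1 _ _ ih
    simpa only [h2, pow_zero, AlgEquiv.one_apply, lt_self_iff_false] using h3 hn

theorem Stab.one (A : ValuationSubring E) : Stab A (1 : E ≃ₐ[F] E) := by
  exact fun _ => Iff.rfl

theorem Stab.mul (hg : Stab A g) (hh : Stab A h) : Stab A (g * h) := by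
  exact fun x => (hg (h x)).trans (hh x)

theorem Stab.inv (hg : Stab A g) : Stab A g⁻¹ := by
  intro x
  simpa using (hg (g⁻¹ x)).symm

theorem Stab.pow (hg : Stab A g) (n : ℕ) : Stab A (g ^ n) := by
  induction n with
  | zero => exact Stab.one A
  | succ n ih => rw [pow_succ]; exact ih.mul hg

theorem Stab.conj (hh : Stab A h) (g : E ≃ₐ[F] E) : Stab (g • A) (g * h * g⁻¹) := by
  rw [stab_iff] at hh ⊢
  rw [mul_smul, inv_smul_smul, mul_smul, hh]

theorem Inert.one (A : ValuationSubring E) : Inert A (1 : E ≃ₐ[F] E) := by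
  exact ⟨Stab.one A, fun x _ => by simp⟩

theorem Inert.mul (hg : Inert A g) (hh : Inert A h) : Inert A (g * h) := by
  refine ⟨hg.1.mul hh.1, fun x hx => ?_⟩
  rw [AlgEquiv.mul_apply, ← sub_add_sub_cancel _ (h x)]
  exact Valuation.map_add_lt _ (hg.2 _ ((hh.1 x).2 hx)) (hh.2 x hx)

theorem Inert.inv (hg : Inert A g) : Inert A g⁻¹ := by
  refine ⟨hg.1.inv, fun x hx => ?_⟩
  rw [Valuation.map_sub_swap]
  simpa using hg.2 _ ((hg.1.inv x).2 hx)

theorem Inert.pow (hg : Inert A g) (n : ℕ) : Inert A (g ^ n) := by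
  induction n with
  | zero => exact Inert.one A
  | succ n ih => rw [pow_succ]; exact ih.mul hg

theorem Inert.conj (hh : Inert A h) (g : E ≃ₐ[F] E) : Inert (g • A) (g * h * g⁻¹) := by
  refine ⟨hh.1.conj g, fun x hx => ?_⟩
  obtain ⟨y, rfl⟩ := g.surjective x
  simpa using (val_smul_lt_one g A _).2 (hh.2 y ((mem_smul_val g A y).1 hx))

theorem Inert.conj_stab (hh : Inert A h) (hg : Stab A g) : Inert A (g * h * g⁻¹) := by
  simpa only [stab_iff.1 hg] using hh.conj g

theorem Frob.conj {N : ℕ} (hh : Frob A h N) (g : E ≃ₐ[F] E) : Frob (g • A) (g * h * g⁻¹) N := by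
  refine ⟨hh.1.conj g, fun x hx => ?_⟩
  obtain ⟨y, rfl⟩ := g.surjective x
  simpa using (val_smul_lt_one g A _).2 (hh.2 y ((mem_smul_val g A y).1 hx))

theorem Frob.mul {N M : ℕ} (hg : Frob A g N) (hh : Frob A h M) : Frob A (g * h) (N * M) := by
  refine ⟨hg.1.mul hh.1, fun x hx => ?_⟩
  rw [AlgEquiv.mul_apply, ← sub_add_sub_cancel _ (g (x ^ M)), ← map_sub, mul_comm N, pow_mul]
  refine Valuation.map_add_lt _ ?_ (hg.2 _ (pow_mem hx M))
  rw [hg.1.val_eq]
  exact hh.2 x hx

theorem Frob.pow {N : ℕ} (hg : Frob A g N) (n : ℕ) : Frob A (g ^ n) (N ^ n) := by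
  induction n with
  | zero => exact ⟨Stab.one A, fun x _ => by simp⟩
  | succ n ih => rw [pow_succ, pow_succ]; exact ih.mul hg

theorem Frob.mul_inert {N : ℕ} (hg : Frob A g N) (hh : Inert A h) : Frob A (g * h) N := by
  simpa using hg.mul (M := 1) ⟨hh.1, by simpa using hh.2⟩

theorem Frob.inert_of_frob {N : ℕ} (hg : Frob A g N) (hh : Frob A h N) : Inert A (g⁻¹ * h) := by
  refine ⟨hg.1.inv.mul hh.1, fun x hx => ?_⟩
  rw [← hg.1.val_eq, map_sub, ← AlgEquiv.mul_apply, mul_inv_cancel_left,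
    ← sub_sub_sub_cancel_right _ _ (x ^ N)]
  exact Valuation.map_sub_lt _ (hh.2 x hx) (hg.2 x hx)

theorem MinFrob.conj {U : Subgroup (E ≃ₐ[F] E)} {p f : ℕ} (hh : MinFrob U A p h f) (hg : g ∈ U) :
    MinFrob U (g • A) p (g * h * g⁻¹) f := by
  refine ⟨U.mul_mem (U.mul_mem hg hh.1) (U.inv_mem hg), hh.2.1, hh.2.2.1.conj g, ?_⟩
  rintro j h0 hj ⟨σ, hσ, hF⟩
  exact hh.2.2.2 j h0 hj ⟨_, U.mul_mem (U.mul_mem (U.inv_mem hg) hσ) (U.inv_mem (U.inv_mem hg)),
    by simpa only [inv_smul_smul] using hF.conj g⁻¹⟩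

theorem ProL.conj {ℓ : ℕ} (hh : ProL ℓ h) (g : E ≃ₐ[F] E) : ProL ℓ (g * h * g⁻¹) := by
  intro W hW
  obtain ⟨n, hn⟩ := hh W.normalCore (open_normalCore W hW)
  exact ⟨n, by rw [conj_pow]; exact hn g⟩

theorem Tame.conj {ℓ : ℕ} {U : Subgroup (E ≃ₐ[F] E)} (hh : Tame ℓ U A h) (hg : g ∈ U) :
    Tame ℓ U (g • A) (g * h * g⁻¹) := by
  intro U' hle hU' hτ z k hz hf hτz
  obtain ⟨z, rfl⟩ := g.surjective z
  obtain ⟨y, hy, hv⟩ := hh (U'.comap (MulAut.conj g).toMonoidHom)
    (fun w hw => by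
      simpa [mul_assoc] using U.mul_mem (U.mul_mem (U.inv_mem hg) (hle hw)) hg)
    (hU'.preimage (f := fun w => g * w * g⁻¹) (by fun_prop)) hτ z k (by simpa using hz)
    (fun w hw => g.injective (by simpa using hf _ hw)) (g.injective (by simpa using hτz))
  refine ⟨g y, fun w hw => ?_, (val_smul_eq g A z y).2 hv⟩
  simpa using congrArg g (hy (g⁻¹ * w * g) (by simpa [mul_assoc] using hw))

theorem FixRoots.conj {ℓ : ℕ} (hh : FixRoots ℓ A h) (g : E ≃ₐ[F] E) :
    FixRoots ℓ (g • A) (g * h * g⁻¹) := by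
  intro z k hz hf
  obtain ⟨z, rfl⟩ := g.surjective z
  simpa using hh z k ((val_smul_eq_one g A z).1 hz) (g.injective (by simpa using hf))

theorem valb_isClosed_ev (x : E) (P : E → Prop) : IsClosed {g : E ≃ₐ[F] E | P (g x)} := by
  rw [← isOpen_compl_iff, isOpen_iff_forall_mem_open]
  intro g hg
  have h1 : IsOpen (MulAction.stabilizer (E ≃ₐ[F] E) x : Set (E ≃ₐ[F] E)) :=
    stabilizer_isOpen_of_isIntegral x
  refine ⟨(fun k => g⁻¹ * k) ⁻¹' (MulAction.stabilizer (E ≃ₐ[F] E) x : Set (E ≃ₐ[F] E)), ?_,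
    h1.preimage (continuous_const.mul continuous_id), ?_⟩
  · intro k hk
    have hk' : (g⁻¹ * k) x = x := hk
    have : k x = g x := by
      have h2 := congrArg g hk'
      simpa using h2
    simpa [this] using hg
  · show (g⁻¹ * g) • x = x
    simp

theorem isClosed_stab (A : ValuationSubring E) : IsClosed {g : E ≃ₐ[F] E | Stab A g} := by
  have : {g : E ≃ₐ[F] E | Stab A g} = ⋂ x : E, {g : E ≃ₐ[F] E | (fun y => y ∈ A ↔ x ∈ A) (g x)} := by
    ext g; simp [Stab]
  rw [this]
  exact isClosed_iInter fun x => valb_isClosed_ev x (fun y => y ∈ A ↔ x ∈ A)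

theorem isClosed_inert (A : ValuationSubring E) : IsClosed {g : E ≃ₐ[F] E | Inert A g} := by
  have : {g : E ≃ₐ[F] E | Inert A g} = {g : E ≃ₐ[F] E | Stab A g} ∩
      ⋂ x : E, {g : E ≃ₐ[F] E | (fun y => x ∈ A → A.valuation (y - x) < 1) (g x)} := by
    ext g; simp [Inert]
  rw [this]
  exact (isClosed_stab A).inter (isClosed_iInter fun x =>
    valb_isClosed_ev x (fun y => x ∈ A → A.valuation (y - x) < 1))

theorem isClosed_frob (A : ValuationSubring E) (N : ℕ) :
    IsClosed {g : E ≃ₐ[F] E | Frob A g N} := by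
  have : {g : E ≃ₐ[F] E | Frob A g N} = {g : E ≃ₐ[F] E | Stab A g} ∩
      ⋂ x : E, {g : E ≃ₐ[F] E | (fun y => x ∈ A → A.valuation (y - x ^ N) < 1) (g x)} := by
    ext g; simp [Frob]
  rw [this]
  exact (isClosed_stab A).inter (isClosed_iInter fun x =>
    valb_isClosed_ev x (fun y => x ∈ A → A.valuation (y - x ^ N) < 1))

theorem Over.smul {p : ℕ} (hA : Over A p) (g : E ≃ₐ[F] E) : Over (g • A) p := by
  refine ⟨hA.1, ?_⟩
  have := (val_smul_lt_one g A (p : E)).2 hA.2
  rwa [map_natCast] at this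

theorem Agree.smul {U : Subgroup (E ≃ₐ[F] E)} (A : ValuationSubring E) (hg : g ∈ U) :
    Agree U A (g • A) := by
  intro x hx
  have := mem_smul_val g A x
  rw [hx g hg] at this
  exact this.symm

theorem valb_val_le_iff (A : ValuationSubring E) (x : E) {y : E} (hy : y ≠ 0) :
    A.valuation x ≤ A.valuation y ↔ x / y ∈ A := by
  rw [← A.valuation_le_one_iff, map_div₀, div_le_one₀]
  exact zero_lt_iff.2 ((map_ne_zero _).2 hy)

theorem Agree.val_le {U : Subgroup (E ≃ₐ[F] E)} (h : Agree U A B) {x y : E} (hx : Fix U x)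
    (hy : Fix U y) : A.valuation x ≤ A.valuation y ↔ B.valuation x ≤ B.valuation y := by
  by_cases hy0 : y = 0
  · subst hy0
    simp
  · rw [valb_val_le_iff A x hy0, valb_val_le_iff B x hy0]
    exact h _ fun g hg => by rw [map_div₀, hx g hg, hy g hg]

theorem Agree.over {U : Subgroup (E ≃ₐ[F] E)} (h : Agree U A B) {p : ℕ} (hA : Over A p) :
    Over B p := by
  refine ⟨hA.1, ?_⟩
  have h1 := Agree.val_le h (x := (1 : E)) (y := (p : E)) (fun g _ => map_one g)
    (fun g _ => map_natCast g p)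
  rw [map_one, map_one] at h1
  exact not_le.1 fun h2 => (not_le.2 hA.2) (h1.2 h2)

section field
variable {L : Type*} [Field L] {A : ValuationSubring L}

theorem Over.ne_top {p : ℕ} [CharZero L] (hA : Over A p) : A ≠ ⊤ := by
  rintro rfl
  rcases (ValuationSubring.mem_nonunits_iff_or _).1 ((ValuationSubring.mem_nonunits_iff _).2 hA.2) with h | h
  · exact hA.1.ne_zero (Nat.cast_eq_zero.1 h)
  · exact h trivial

theorem valc_coprime {m n : ℤ} (h : IsCoprime m n) (hm : A.valuation (m : L) < 1) : A.valuation (n : L) = 1 := by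
  obtain ⟨a, b, hab⟩ := h
  have h1 : ∀ k : ℤ, A.valuation (k : L) ≤ 1 := fun k => (A.valuation_le_one_iff _).2 (intCast_mem A k)
  refine (h1 n).eq_of_not_lt fun hn => ?_
  have h2 : ∀ (c k : ℤ), A.valuation (k : L) < 1 → A.valuation ((c : L) * k) < 1 := fun c k hk => by
    rw [map_mul]; exact (mul_le_of_le_one_left' (h1 c)).trans_lt hk
  have := A.valuation.map_add_lt (h2 a m hm) (h2 b n hn)
  rw [← Int.cast_mul, ← Int.cast_mul, ← Int.cast_add, hab, Int.cast_one, map_one] at this
  exact lt_irrefl _ this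

theorem Over.unique {p q : ℕ} (hp : Over A p) (hq : Over A q) : p = q := by
  by_contra h
  have := valc_coprime (A := A) (Nat.isCoprime_iff_coprime.2 ((Nat.coprime_primes hp.1 hq.1).2 h))
    (by simpa using hp.2)
  exact hq.2.ne (by simpa using this)

theorem Over.val_nat {p n : ℕ} (hA : Over A p) (hn : ¬ p ∣ n) : A.valuation (n : L) = 1 := by
  simpa using valc_coprime (A := A) (Nat.isCoprime_iff_coprime.2 ((Nat.Prime.coprime_iff_not_dvd hA.1).2 hn))
    (by simpa using hA.2)

theorem Over.val_int {p : ℕ} (hA : Over A p) (n : ℤ) :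
    A.valuation (n : L) < 1 ↔ (p : ℤ) ∣ n := by
  refine ⟨fun h => by_contra fun hn => h.ne (valc_coprime
    ((Nat.prime_iff_prime_int.1 hA.1).irreducible.coprime_iff_not_dvd.2 hn) (by simpa using hA.2)), ?_⟩
  rintro ⟨k, rfl⟩
  rw [Int.cast_mul, map_mul, Int.cast_natCast]
  exact (mul_le_of_le_one_right' ((A.valuation_le_one_iff _).2 (intCast_mem A k))).trans_lt hA.2

theorem mem_of_isIntegral (A : ValuationSubring L) {x : L} (hx : IsIntegral ℤ x) : x ∈ A := by
  obtain ⟨y, rfl⟩ := (IsIntegrallyClosed.isIntegral_iff (R := A) (K := L)).1 hx.tower_top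
  exact y.2

/-- an element lying in all valuation subrings is integral -/
theorem isIntegral_of_forall_mem {x : L} (h : ∀ A : ValuationSubring L, A ≠ ⊤ → x ∈ A) :
    IsIntegral ℤ x := by
  by_contra hx
  have : IsIntegrallyClosedIn (integralClosure ℤ L).toSubring L :=
    inferInstanceAs (IsIntegrallyClosedIn (integralClosure ℤ L) L)
  obtain ⟨V, -, hV⟩ := Subring.exists_le_valuationSubring_of_isIntegrallyClosedIn
    (R := (integralClosure ℤ L).toSubring) hx
  exact hV (h V fun e => hV (e ▸ trivial))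

/-- roots of unity of order prime to `p` are distinct modulo `A` -/
theorem Over.eq_one_of_root {p m : ℕ} (hA : Over A p) (hm : ¬ p ∣ m) {ζ : L} (hζ : ζ ^ m = 1)
    (h : A.valuation (ζ - 1) < 1) : ζ = 1 := by
  by_contra hne
  have h1 : ∑ i ∈ Finset.range m, ζ ^ i = 0 :=
    (mul_eq_zero.1 ((geom_sum_mul ζ m).trans (sub_eq_zero.2 hζ))).resolve_right (sub_ne_zero.2 hne)
  have h0 : ζ ∈ A := by
    have := A.add_mem _ _ ((A.valuation_le_one_iff _).1 h.le) A.one_mem
    rwa [sub_add_cancel] at this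
  have h2 : ∀ i, A.valuation (ζ ^ i - 1) < 1 := fun i => by
    rw [← geom_sum_mul, map_mul]
    exact (mul_le_of_le_one_left' ((A.valuation_le_one_iff _).2 (sum_mem fun j _ => pow_mem h0 j))).trans_lt h
  have h3 := A.valuation.map_sum_lt one_ne_zero fun i (_ : i ∈ Finset.range m) => h2 i
  rw [Finset.sum_sub_distrib, h1, zero_sub, Valuation.map_neg, Finset.sum_const, Finset.card_range, nsmul_one] at h3
  exact h3.ne (hA.val_nat hm)

theorem Over.comap {K : Type*} [Field K] (ι : K →+* L) {p : ℕ} (hA : Over A p) :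
    Over (A.comap ι) p := by
  refine ⟨hA.1, (ValuationSubring.mem_nonunits_iff _).1 ((ValuationSubring.mem_nonunits_iff_or _).2 ?_)⟩
  refine ((ValuationSubring.mem_nonunits_iff_or _).1 ((ValuationSubring.mem_nonunits_iff _).2 hA.2)).imp
    (fun h => ι.injective (by simpa using h)) fun h => ?_
  simpa [ValuationSubring.mem_comap] using h

/-- valuation rings extend -/
theorem exists_comap_eq {K : Type*} [Field K] (ι : K →+* L) (A₀ : ValuationSubring K) :
    ∃ A : ValuationSubring L, A.comap ι = A₀ := by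
  obtain ⟨A, h, hl⟩ := IsLocalRing.exists_factor_valuationRing (ι.comp A₀.subtype)
  refine ⟨A, SetLike.ext fun x => ⟨fun hx => by_contra fun hx' => ?_, fun hx => h ⟨x, hx⟩⟩⟩
  have h0 : x ≠ 0 := fun e => hx' (e ▸ A₀.zero_mem)
  have h1 : x⁻¹ ∈ A₀ := (A₀.mem_or_inv_mem x).resolve_left hx'
  obtain ⟨y, hy⟩ := (hl.map_nonunit ⟨x⁻¹, h1⟩ (IsUnit.of_mul_eq_one ⟨ι x, hx⟩ (Subtype.ext (by
    simp [h0])))).exists_right_inv
  have h2 : x⁻¹ * (y : K) = 1 := congrArg Subtype.val hy
  rw [inv_mul_eq_one₀ h0] at h2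
  exact hx' (h2 ▸ y.2)

theorem val_comap_le {K : Type*} [Field K] (ι : K →+* L) (A : ValuationSubring L) (x y : K) :
    (A.comap ι).valuation x ≤ (A.comap ι).valuation y ↔ A.valuation (ι x) ≤ A.valuation (ι y) := by
  rcases eq_or_ne y 0 with rfl | hy
  · simp
  rw [← div_le_one₀ ((Valuation.pos_iff _).2 hy),
    ← div_le_one₀ (a := A.valuation (ι x)) ((Valuation.pos_iff _).2 ((map_ne_zero ι).2 hy)),
    ← map_div₀, ← map_div₀, ValuationSubring.valuation_le_one_iff, ValuationSubring.valuation_le_one_iff,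
    ValuationSubring.mem_comap, map_div₀]

theorem exists_val [CharZero L] {p : ℕ} (hp : p.Prime) : ∃ A : ValuationSubring L, Over A p := by
  obtain ⟨A, -, h⟩ := Ideal.image_subset_nonunits_valuationSubring (A := (⊥ : Subring L)) (Ideal.span {(p : (⊥ : Subring L))})
    fun e => by
      obtain ⟨⟨_, k, rfl⟩, hk⟩ := (Ideal.span_singleton_eq_top.1 e).exists_right_inv
      have h1 : ((p * k : ℤ) : L) = (1 : ℤ) := by simpa using congrArg Subtype.val hk
      exact (Nat.prime_iff_prime_int.1 hp).not_isUnit (IsUnit.of_mul_eq_one k (Int.cast_injective h1))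
  exact ⟨A, hp, (ValuationSubring.mem_nonunits_iff _).1 (h ⟨_, Ideal.mem_span_singleton_self _, by simp⟩)⟩

end field

theorem valb_alg (F : Type*) [Field F] [NumberField F] [Algebra F E] [IsGalois F E] (x : E) :
    ∃ n : ℤ, n ≠ 0 ∧ IsIntegral ℤ ((n : E) * x) := by
  have : CharZero E := charZero_of_injective_algebraMap (algebraMap F E).injective
  have : Algebra.IsAlgebraic ℚ E := Algebra.IsAlgebraic.trans ℚ F E
  have h1 : IsAlgebraic ℤ x := (IsFractionRing.isAlgebraic_iff ℤ ℚ E).2 (Algebra.IsAlgebraic.isAlgebraic x)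
  obtain ⟨n, hn, h2⟩ := h1.exists_integral_multiple
  exact ⟨n, hn, by rwa [zsmul_eq_mul] at h2⟩

theorem exists_over (F : Type*) [Field F] [NumberField F] [Algebra F E] [IsGalois F E]
    (A : ValuationSubring E) (hA : A ≠ ⊤) : ∃ p, Over A p := by
  by_contra hcon
  push Not at hcon
  have hnat : ∀ n : ℕ, n ≠ 0 → A.valuation (n : E) = 1 := by
    intro n
    induction n using induction_on_primes with
    | zero => intro h; exact absurd rfl h
    | one => intro _; simp
    | prime_mul p a hp ih =>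
      intro h
      have ha : a ≠ 0 := fun h0 => h (by simp [h0])
      have hp1 : A.valuation (p : E) = 1 := by
        refine le_antisymm ((A.valuation_le_one_iff _).2 (natCast_mem A p)) ?_
        exact not_lt.1 fun h2 => hcon p ⟨hp, h2⟩
      rw [Nat.cast_mul, map_mul, hp1, ih ha, one_mul]
  apply hA
  rw [eq_top_iff]
  intro x _
  obtain ⟨n, hn, h2⟩ := valb_alg F x
  have h3 := (A.valuation_le_one_iff _).2 (mem_of_isIntegral A h2)
  have h4 : A.valuation (n : E) = 1 := by
    have := hnat n.natAbs (Int.natAbs_ne_zero.2 hn)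
    rcases Int.natAbs_eq n with h5 | h5
    · rw [h5, Int.cast_natCast]; exact this
    · rw [h5, Int.cast_neg, Int.cast_natCast, Valuation.map_neg]; exact this
  rw [map_mul, h4, one_mul] at h3
  exact (A.valuation_le_one_iff _).1 h3

theorem valb_bound_mem (F : Type*) [Field F] [NumberField F] [Algebra F E] [IsGalois F E]
    (x : E) : ∃ q₀ : ℕ, ∀ q, q₀ ≤ q → ∀ A : ValuationSubring E, Over A q → A.valuation x ≤ 1 := by
  obtain ⟨n, hn, h2⟩ := valb_alg F x
  refine ⟨n.natAbs + 1, fun q hq A hA => ?_⟩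
  have h3 := (A.valuation_le_one_iff _).2 (mem_of_isIntegral A h2)
  have h4 : A.valuation (n : E) = 1 := by
    refine le_antisymm ((A.valuation_le_one_iff _).2 (intCast_mem A n)) ?_
    refine not_lt.1 fun h5 => ?_
    have h6 := (hA.val_int n).1 h5
    have h7 : q ∣ n.natAbs := Int.natCast_dvd.1 h6
    have := Nat.le_of_dvd (Int.natAbs_pos.2 hn) h7
    omega
  rwa [map_mul, h4, one_mul] at h3

/-- a nonzero element is a unit at all primes of large residue characteristic -/
theorem exists_bound_unit (F : Type*) [Field F] [NumberField F] [Algebra F E] [IsGalois F E]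
    (x : E) (hx : x ≠ 0) :
    ∃ q₀ : ℕ, ∀ q, q₀ ≤ q → ∀ A : ValuationSubring E, Over A q → A.valuation x = 1 := by
  obtain ⟨q₁, h1⟩ := valb_bound_mem F x
  obtain ⟨q₂, h2⟩ := valb_bound_mem F x⁻¹
  refine ⟨max q₁ q₂, fun q hq A hA => le_antisymm (h1 q (le_of_max_le_left hq) A hA) ?_⟩
  have h3 := h2 q (le_of_max_le_right hq) A hA
  rw [map_inv₀] at h3
  exact (inv_le_one₀ (zero_lt_iff.2 ((map_ne_zero _).2 hx))).1 h3

theorem Inert.fix_root {p m : ℕ} (hg : Inert A g) (hA : Over A p) (hm : ¬ p ∣ m) {z : E}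
    (hz : A.valuation z = 1) (h : g (z ^ m) = z ^ m) : g z = z := by
  have hz0 : z ≠ 0 := fun h0 => by simp [h0] at hz
  have h1 : (g z / z) ^ m = 1 := by
    rw [div_pow, ← map_pow, h, div_self (pow_ne_zero _ hz0)]
  have h2 : A.valuation (g z / z - 1) < 1 := by
    have : g z / z - 1 = (g z - z) / z := by field_simp
    rw [this, map_div₀, hz, div_one]
    exact hg.2 z ((A.valuation_le_one_iff _).1 hz.le)
  have h3 := hA.eq_one_of_root hm h1 h2
  exact (div_eq_one_iff_eq hz0).1 h3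

theorem Frob.root {p m N : ℕ} (hg : Frob A g N) (hA : Over A p) (hm : ¬ p ∣ m) {ζ : E}
    (hζ : ζ ^ m = 1) : g ζ = ζ ^ N := by
  have hm0 : m ≠ 0 := fun h0 => hm (h0 ▸ dvd_zero p)
  have hv : A.valuation ζ = 1 := by
    have h1 : A.valuation ζ ^ m = 1 := by rw [← map_pow, hζ, map_one]
    exact (pow_eq_one_iff_of_nonneg zero_le hm0).1 h1
  have hz0 : ζ ≠ 0 := fun h0 => by simp [h0] at hv
  have hN : ζ ^ N ≠ 0 := pow_ne_zero _ hz0
  have h1 : (g ζ / ζ ^ N) ^ m = 1 := by
    rw [div_pow, ← map_pow, hζ, map_one, ← pow_mul, mul_comm, pow_mul, hζ, one_pow, div_one]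
  have h2 : A.valuation (g ζ / ζ ^ N - 1) < 1 := by
    have : g ζ / ζ ^ N - 1 = (g ζ - ζ ^ N) / ζ ^ N := by field_simp
    rw [this, map_div₀, map_pow, hv, one_pow, div_one]
    exact hg.2 ζ ((A.valuation_le_one_iff _).1 hv.le)
  have h3 := hA.eq_one_of_root hm h1 h2
  exact (div_eq_one_iff_eq hN).1 h3

end Crest.Agent.R18
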