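import Crest.Agent.R18.Val
import Crest.Agent.R18.Kum
import Crest.Agent.R18.F1.Main

/-! Row 18 block F1: a tame pair lies in a decomposition group. -/

set_option autoImplicit false
set_option linter.unusedSectionVars false
open scoped Pointwise NumberField
open IsDedekindDomain Crest.NumberTheoryR

namespace Crest.Agent.R18

variable {F E : Type*} [Field F] [NumberField F] [Field E] [Algebra F E] [IsGalois F E]

theorem f1 (hE : IsSolvablyClosed E) {ℓ : ℕ} (hℓ : ℓ.Prime) (h2 : ℓ ≠ 2) {t φ : E ≃ₐ[F] E}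
    {u : ℕ} (ht : t ≠ 1) (hp : ProL ℓ t) (hu : 2 ≤ u) (hlu : ¬ ℓ ∣ u)
    (h : φ * t * φ⁻¹ = t ^ u) :
    ∃ A : ValuationSubring E, A ≠ ⊤ ∧ Stab A φ ∧ FixRoots ℓ A t ∧
      ∀ (n : ℕ) (ζ : E), ζ ^ (ℓ ^ n) = 1 → φ ζ = ζ ^ u :=
  f1_main hE hℓ h2 ht hp hu hlu h

end Crest.Agent.R18
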