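import Crest.Agent.R18.Tower
import Crest.Agent.R18.Dec
import Crest.Agent.R18.FD.PD
import Crest.Agent.R18.FD.Hom

/-! Row 18 block FD: Frobenius density (existence form). -/

set_option autoImplicit false
set_option linter.unusedSectionVars false
open scoped Pointwise NumberField
open IsDedekindDomain Crest.NumberTheoryR

namespace Crest.Agent.R18

variable {F E : Type*} [Field F] [NumberField F] [Field E] [Algebra F E] [IsGalois F E]

section grp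
variable {G : Type*} [Group G] {a : G} {d : ℕ}

theorem fd_pow_mem (hd : d ∣ orderOf a) (k : ℕ) : a ^ k ∈ Subgroup.zpowers (a ^ d) ↔ d ∣ k := by
  constructor
  · rintro ⟨j, hj⟩
    have h1 : a ^ ((d : ℤ) * j) = a ^ (k : ℤ) := by
      rw [zpow_mul, zpow_natCast, zpow_natCast]; exact hj
    have h2 := (Int.natCast_dvd_natCast.2 hd).trans (zpow_eq_zpow_iff_modEq.1 h1).dvd
    exact Int.natCast_dvd_natCast.1 (by simpa using dvd_add h2 (dvd_mul_right (d : ℤ) j))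
  · rintro ⟨j, rfl⟩
    rw [pow_mul]
    exact Subgroup.pow_mem _ (Subgroup.mem_zpowers _) _

theorem fd_relIndex (h : 0 < orderOf a) (hd : d ∣ orderOf a) :
    (Subgroup.zpowers (a ^ d)).relIndex (Subgroup.zpowers a) = d := by
  have hle : Subgroup.zpowers (a ^ d) ≤ Subgroup.zpowers a :=
    Subgroup.zpowers_le.2 (Subgroup.pow_mem _ (Subgroup.mem_zpowers _) _)
  have h1 := ((Subgroup.zpowers (a ^ d)).subgroupOf (Subgroup.zpowers a)).card_mul_index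
  rw [Nat.card_congr (Subgroup.subgroupOfEquivOfLe hle).toEquiv, Nat.card_zpowers, Nat.card_zpowers,
    orderOf_pow_of_dvd (Nat.pos_of_dvd_of_pos hd h).ne' hd] at h1
  exact Nat.eq_of_mul_eq_mul_left (Nat.div_pos (Nat.le_of_dvd h hd) (Nat.pos_of_dvd_of_pos hd h))
    (h1.trans (Nat.div_mul_cancel hd).symm)

theorem fd_cyc (U W : Subgroup G) [W.FiniteIndex] (hle : W ≤ U)
    (hn : ∀ u ∈ U, ∀ w ∈ W, u * w * u⁻¹ ∈ W) {g : G} (hg : g ∈ U) :
    ∃ (m : ℕ) (C : ℕ → Subgroup G), 0 < m ∧ (∀ d, W ≤ C d) ∧ (∀ d, C d ≤ C 1) ∧ C 1 ≤ U ∧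
      (∀ d, ∀ u ∈ C 1, ∀ w ∈ C d, u * w * u⁻¹ ∈ C d) ∧ (∀ d, d ∣ m → (C d).relIndex (C 1) = d) ∧
      ∀ φ ∈ C 1, ∃ k : ℕ, (∀ d, d ∣ m → (φ ∈ C d ↔ d ∣ k)) ∧
        (Nat.Coprime k m → (∃ k : ℕ, φ⁻¹ * g ^ k ∈ W) ∧ ∃ k : ℕ, g⁻¹ * φ ^ k ∈ W) := by
  have : (W.subgroupOf U).Normal := ⟨fun w hw u => hn u u.2 w hw⟩
  let π := QuotientGroup.mk' (W.subgroupOf U)
  have hπ : ∀ x y : U, π x = π y ↔ (x : G)⁻¹ * y ∈ W := fun x y => QuotientGroup.eq
  set a := π ⟨g, hg⟩ with ha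
  have hm : 0 < orderOf a := orderOf_pos a
  let C : ℕ → Subgroup G := fun d => ((Subgroup.zpowers (a ^ d)).comap π).map U.subtype
  have hC : ∀ d (x : U), (x : G) ∈ C d ↔ π x ∈ Subgroup.zpowers (a ^ d) := fun d x =>
    Subgroup.mem_map_iff_mem U.subtype_injective
  have hCU : ∀ d, C d ≤ U := fun d => Subgroup.map_subtype_le _
  have hz : ∀ d, Subgroup.zpowers (a ^ d) ≤ Subgroup.zpowers (a ^ 1) := fun d =>
    Subgroup.zpowers_le.2 (by rw [pow_one]; exact Subgroup.pow_mem _ (Subgroup.mem_zpowers _) _)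
  refine ⟨orderOf a, C, hm, fun d w hw => (hC d ⟨w, hle hw⟩).2 ?_,
    fun d => Subgroup.map_mono (Subgroup.comap_mono (hz d)), hCU 1, fun d u hu w hw => ?_,
    fun d hd => ?_, fun φ hφ => ?_⟩
  · rw [show π ⟨w, hle hw⟩ = 1 from (QuotientGroup.eq_one_iff _).2 hw]; exact one_mem _
  · have h1 := (hC 1 ⟨u, hCU 1 hu⟩).1 hu
    have h2 := (hC d ⟨w, hCU d hw⟩).1 hw
    refine (hC d (⟨u, hCU 1 hu⟩ * ⟨w, hCU d hw⟩ * ⟨u, hCU 1 hu⟩⁻¹)).2 ?_
    obtain ⟨i, hi⟩ := h1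
    obtain ⟨j, hj⟩ := hz d h2
    have h3 : Commute (π ⟨u, hCU 1 hu⟩) (π ⟨w, hCU d hw⟩) := by
      rw [← hi, ← hj]; exact Commute.zpow_zpow_self _ _ _
    rwa [map_mul, map_mul, map_inv, h3.eq, mul_inv_cancel_right]
  · rw [Subgroup.relIndex_map_map_of_injective _ _ U.subtype_injective, Subgroup.relIndex_comap,
      Subgroup.map_comap_eq_self_of_surjective (QuotientGroup.mk'_surjective _), pow_one,
      fd_relIndex hm hd]
  · have h1 := (hC 1 ⟨φ, hCU 1 hφ⟩).1 hφ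
    rw [pow_one] at h1
    obtain ⟨k, hk⟩ : ∃ k : ℕ, a ^ k = π ⟨φ, hCU 1 hφ⟩ := mem_powers_iff_mem_zpowers.2 h1
    refine ⟨k, fun d hd => by rw [hC d ⟨φ, hCU 1 hφ⟩, ← hk, fd_pow_mem hd], fun hco => ?_⟩
    obtain ⟨j, hj⟩ := exists_pow_eq_self_of_coprime hco
    exact ⟨⟨k, (hπ ⟨φ, hCU 1 hφ⟩ (⟨g, hg⟩ ^ k)).1 (by rw [map_pow, hk])⟩,
      j, (hπ ⟨g, hg⟩ (⟨φ, hCU 1 hφ⟩ ^ j)).1 (by rw [map_pow, ← hk, hj])⟩

end grp

open ArithmeticFunction in
theorem fd_mu {m k : ℕ} (hm : 0 < m) (h : ¬ Nat.Coprime k m) :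
    ∑ d ∈ m.divisors, (if d ∣ k then (moebius d : ℝ) else 0) = 0 := by
  have h1 : m.divisors.filter (· ∣ k) = (Nat.gcd k m).divisors := by
    ext d
    simp only [Finset.mem_filter, Nat.mem_divisors, Nat.dvd_gcd_iff]
    have := (Nat.gcd_pos_of_pos_right k hm).ne'
    have := hm.ne'
    tauto
  have h2 := congrArg (fun f : ArithmeticFunction ℤ => f (Nat.gcd k m)) moebius_mul_coe_zeta
  simp only [coe_mul_zeta_apply, one_apply_ne h] at h2
  rw [← Finset.sum_filter, h1]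
  exact_mod_cast h2

open ArithmeticFunction in
theorem fd_mu_ne {m : ℕ} (hm : 0 < m) : ∑ d ∈ m.divisors, (moebius d : ℝ) / d ≠ 0 := by
  have h1 := (sum_eq_iff_sum_smul_moebius_eq (f := fun n => (Nat.totient n : ℝ))
    (g := fun n => (n : ℝ))).1 (fun n _ => by exact_mod_cast Nat.sum_totient n) m hm
  rw [Nat.sum_divisorsAntidiagonal fun d e => moebius d • (e : ℝ)] at h1
  have h2 : (∑ d ∈ m.divisors, (moebius d : ℝ) / d) * m = Nat.totient m := by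
    rw [← h1, Finset.sum_mul]
    refine Finset.sum_congr rfl fun d hd => ?_
    rw [Nat.cast_div_charZero (Nat.dvd_of_mem_divisors hd), zsmul_eq_mul]; ring
  intro h
  rw [h, zero_mul] at h2
  exact (Nat.totient_pos.2 hm).ne (by exact_mod_cast h2)

theorem fd (U W : Subgroup (E ≃ₐ[F] E)) (hW : IsOpen (W : Set (E ≃ₐ[F] E))) (hle : W ≤ U)
    (hn : ∀ u ∈ U, ∀ w ∈ W, u * w * u⁻¹ ∈ W) {g : E ≃ₐ[F] E} (hg : g ∈ U) (q₀ : ℕ) :
    ∃ q, q₀ ≤ q ∧ ∃ (A : ValuationSubring E) (φ : E ≃ₐ[F] E), Over A q ∧ φ ∈ U ∧ Frob A φ q ∧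
      (∃ k : ℕ, φ⁻¹ * g ^ k ∈ W) ∧ ∃ k : ℕ, g⁻¹ * φ ^ k ∈ W := by
  classical
  have := finiteIndex_of_open W hW
  obtain ⟨m, C, hm, hWC, hC1, hCU, hCn, hCi, hC⟩ := fd_cyc U W hle hn hg
  have hCo : ∀ d, IsOpen (C d : Set (E ≃ₐ[F] E)) := fun d => Subgroup.isOpen_mono (hWC d) hW
  obtain ⟨q₁, hq₁⟩ := dec1 W hW
  obtain ⟨q, hq, hp, hs⟩ := pd_comb m.divisors
    (fun d => (ArithmeticFunction.moebius d : ℝ) / d) (fun d q => Nat.card (HomQ (C d) q))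
    (fun d _ => by have := numberField_fixedField (C d) (hCo d); exact pd _) (fd_mu_ne hm) (max q₀ q₁)
  refine ⟨q, le_of_max_le_left hq, ?_⟩
  by_contra hc
  refine hs ?_
  have hf := fun d => finite_homQ (hCo d) hp
  have := Fintype.ofFinite (HomQ (C 1) q)
  choose A hA hx using exists_lies (hCo 1) hp
  choose φ hφ hF using fun x => (hx x).frob (hCo 1) (hA x)
  choose k hk hk' using fun x => hC (φ x) (hφ x)
  have h1 : ∀ d ∈ m.divisors, (ArithmeticFunction.moebius d : ℝ) / d *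
      (Nat.card (HomQ (C d) q) : ℝ) =
      ∑ x, if d ∣ k x then (ArithmeticFunction.moebius d : ℝ) else 0 := fun d hd => by
    have hd' := Nat.dvd_of_mem_divisors hd
    have hd0 : (d : ℝ) ≠ 0 := by exact_mod_cast (Nat.pos_of_mem_divisors hd).ne'
    rw [← Nat.card_congr (Equiv.sigmaFiberEquiv (resQ (q := q) (hC1 d))), Nat.card_sigma, Nat.cast_sum,
      Finset.mul_sum]
    refine Finset.sum_congr rfl fun x _ => ?_
    rw [card_fiber (hCo 1) (hCo d) (hC1 d) (hCn d) (fun B hB =>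
      ⟨fun g hg => hWC d ((hq₁ q (le_of_max_le_right hq) B hB).1 g hg), fun ψ hψ g hg =>
        ((hq₁ q (le_of_max_le_right hq) B hB).2 ψ hψ g hg).imp fun _ h => hWC d h⟩) (hA x) (hx x)
      (hF x), hCi d hd']
    simp only [hk x d hd']
    split_ifs
    · field_simp
    · simp
  rw [Finset.sum_congr rfl h1, Finset.sum_comm]
  exact Finset.sum_eq_zero fun x _ => fd_mu hm fun hco =>
    hc ⟨A x, φ x, hA x, hCU (hφ x), hF x, hk' x hco⟩

end Crest.Agent.R18
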