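import Crest.Agent.R18.Defs

/-! Row 18 block MU: Minkowski units. -/

set_option autoImplicit false
set_option linter.unusedSectionVars false
open scoped Pointwise NumberField
open IsDedekindDomain Crest.NumberTheoryR

namespace Crest.Agent.R18

variable {F E : Type*} [Field F] [NumberField F] [Field E] [Algebra F E] [IsGalois F E]

open NumberField

namespace MU
open NumberField.Units NumberField.Units.dirichletUnitTheorem NumberField.InfinitePlace

section
variable {L : Type*} [Field L] [NumberField L] {u : InfinitePlace L → (𝓞 L)ˣ}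

open scoped Classical in
theorem indep (hu : ∀ w w' : InfinitePlace L, w' ≠ w → Real.log (w' (u w)) < 0)
    (w₁ : InfinitePlace L) (a : {w : InfinitePlace L // w ≠ w₁} → ℝ)
    (h : ∀ w' : {w : InfinitePlace L // w ≠ w₁},
      ∑ w, a w * (mult w'.1 * Real.log (w'.1 (u w.1))) = 0) : a = 0 := by
  let A : Matrix {w : InfinitePlace L // w ≠ w₁} {w : InfinitePlace L // w ≠ w₁} ℝ :=
    Matrix.of fun w w' => mult w'.1 * Real.log (w'.1 (u w.1))
  have hm : ∀ w : InfinitePlace L, (0 : ℝ) < mult w := fun w => by exact_mod_cast mult_pos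
  have hdet : A.det ≠ 0 := by
    refine Matrix.det_ne_zero_of_sum_row_pos (fun w w' hw => ?_) fun w => ?_
    · exact mul_neg_of_pos_of_neg (hm _) (hu _ _ fun h => hw (Subtype.ext h.symm))
    · have h1 := sum_mult_mul_log (u w.1)
      rw [Fintype.sum_eq_add_sum_subtype_ne _ w₁] at h1
      have h2 := mul_neg_of_pos_of_neg (hm w₁) (hu w.1 w₁ w.2.symm)
      change 0 < ∑ w' : {w : InfinitePlace L // w ≠ w₁}, mult w'.1 * Real.log (w'.1 (u w.1))
      linarith
  exact Matrix.eq_zero_of_vecMul_eq_zero hdet (funext h)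

theorem finIdx (hu : ∀ w w' : InfinitePlace L, w' ≠ w → Real.log (w' (u w)) < 0) :
    ∃ c : ℕ, 0 < c ∧ ∀ x : (𝓞 L)ˣ, x ^ c ∈ Subgroup.closure (Set.range u) := by
  classical
  have h1 : LinearIndependent ℝ fun w : {w : InfinitePlace L // w ≠ w₀} =>
      logEmbedding L (Additive.ofMul (u w.1)) := by
    rw [Fintype.linearIndependent_iff]
    intro a ha
    refine congrFun (indep hu w₀ a fun w' => ?_)
    have := congrFun ha w'
    simpa only [Finset.sum_apply, Pi.smul_apply, smul_eq_mul, logEmbedding_component,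
      Pi.zero_apply] using this
  have h2 : IsMaxRank fun i => u (equivFinRank L i).1 :=
    (linearIndependent_equiv (equivFinRank L)).2 h1
  have h3 := isMaxRank_iff_closure_finiteIndex.1 h2
  have h4 : (Subgroup.closure (Set.range u)).FiniteIndex :=
    Subgroup.finiteIndex_of_le (H := Subgroup.closure (Set.range fun i => u (equivFinRank L i).1))
      (Subgroup.closure_mono (by rintro _ ⟨i, rfl⟩; exact ⟨_, rfl⟩))
  exact ⟨_, Nat.pos_of_ne_zero h4.index_ne_zero, fun x => Subgroup.pow_index_mem _ x⟩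

/-- the inclusion of the units in the field -/
def coeU (L : Type*) [Field L] : (𝓞 L)ˣ →* L :=
  (algebraMap (𝓞 L) L : 𝓞 L →* L).comp (Units.coeHom _)

theorem coeU_apply (x : (𝓞 L)ˣ) : coeU L x = ((x : 𝓞 L) : L) := rfl

theorem coe_prod {ι : Type*} [Fintype ι] (v : ι → (𝓞 L)ˣ) (a : ι → ℤ) :
    (((∏ i, v i ^ a i : (𝓞 L)ˣ) : 𝓞 L) : L) = ∏ i, ((v i : 𝓞 L) : L) ^ a i := by
  rw [← coeU_apply, map_prod]
  exact Finset.prod_congr rfl fun i _ => coe_zpow _ _

theorem indepZ (hu : ∀ w w' : InfinitePlace L, w' ≠ w → Real.log (w' (u w)) < 0)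
    (a : InfinitePlace L → ℤ) (w₁ : InfinitePlace L) (h1 : a w₁ = 0)
    (h : IsOfFinOrder (∏ w, u w ^ a w)) : a = 0 := by
  classical
  have ht : (∏ w, u w ^ a w) ∈ torsion L := h
  rw [mem_torsion] at ht
  have h2 := indep hu w₁ (fun w => (a w.1 : ℝ)) fun w' => by
    have h3 := congrArg Real.log (ht w'.1)
    rw [← coe_coe, coe_prod, map_prod, Real.log_one,
      Real.log_prod fun w _ => by
        rw [map_zpow₀]
        exact zpow_ne_zero _ (pos_at_place (u w) w'.1).ne',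
      Fintype.sum_eq_add_sum_subtype_ne _ w₁] at h3
    simp only [map_zpow₀, Real.log_zpow, h1, Int.cast_zero, zero_mul, zero_add] at h3
    simp only [mul_left_comm _ (mult w'.1 : ℝ), ← Finset.mul_sum]
    exact mul_eq_zero_of_right _ h3
  funext w
  by_cases hw : w = w₁
  · rw [hw, h1]; rfl
  · have h4 : (a w : ℝ) = 0 := congrFun h2 ⟨w, hw⟩
    exact_mod_cast h4

end

section
variable (K L : Type*) [Field K] [NumberField K] [Field L] [NumberField L] [Algebra K L]
  [IsGalois K L]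

/-- conjugate of a unit -/
noncomputable def conjU (σ : L ≃ₐ[K] L) (x : (𝓞 L)ˣ) : (𝓞 L)ˣ :=
  Units.map (RingOfIntegers.mapRingHom (σ : L →+* L) : 𝓞 L →* 𝓞 L) x

theorem coe_conjU (σ : L ≃ₐ[K] L) (x : (𝓞 L)ˣ) :
    ((conjU K L σ x : 𝓞 L) : L) = σ ((x : 𝓞 L) : L) := rfl

theorem family : ∃ (e : InfinitePlace K → (𝓞 L)ˣ) (r : InfinitePlace K → InfinitePlace L)
    (s : InfinitePlace L → (L ≃ₐ[K] L)), (∀ w, s w • r (w.comap (algebraMap K L)) = w) ∧
      ∀ w w' : InfinitePlace L, w' ≠ w →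
        Real.log (w' (conjU K L (s w) (e (w.comap (algebraMap K L))))) < 0 := by
  choose r hr using fun v : InfinitePlace K => comap_surjective (K := L) v
  choose e he using fun v : InfinitePlace K => exists_unit L (r v)
  choose s hs using fun w : InfinitePlace L =>
    exists_smul_eq_of_comap_eq (k := K) (hr (w.comap (algebraMap K L)))
  refine ⟨e, r, s, hs, fun w w' hw => ?_⟩
  have h := he (w.comap (algebraMap K L)) ((s w)⁻¹ • w') fun h => hw (by
    rw [← hs w, ← h, smul_inv_smul])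
  exact h

end
end MU

section
variable (K L : Type*) [Field K] [NumberField K] [Field L] [NumberField L] [Algebra K L]
  [IsGalois K L]

/-- conjugates of at most `[K : ℚ]` units generate a subgroup of finite index -/
theorem mu1 : ∃ (u : InfinitePlace K → (𝓞 L)ˣ) (c : ℕ), 0 < c ∧ ∀ x : (𝓞 L)ˣ,
    ∃ a : InfinitePlace K → (L ≃ₐ[K] L) → ℤ,
      ((x : 𝓞 L) : L) ^ c = ∏ v, ∏ σ : L ≃ₐ[K] L, σ ((u v : 𝓞 L) : L) ^ a v σ := by
  classical
  obtain ⟨e, r, s, -, h⟩ := MU.family K L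
  obtain ⟨c, hc, hx⟩ := MU.finIdx h
  refine ⟨e, c, hc, fun x => ?_⟩
  have h1 : x ^ c ∈ Subgroup.closure
      (Set.range fun p : InfinitePlace K × (L ≃ₐ[K] L) => MU.conjU K L p.2 (e p.1)) :=
    Subgroup.closure_mono (by rintro _ ⟨w, rfl⟩; exact ⟨(_, s w), rfl⟩) (hx x)
  obtain ⟨a, ha⟩ := Subgroup.mem_closure_range_iff_of_fintype.1 h1
  refine ⟨fun v σ => a (v, σ), ?_⟩
  rw [← MU.coeU_apply, ← map_pow, ha, MU.coeU_apply, MU.coe_prod, Fintype.prod_prod_type]
  rfl

/-- an equivariant family of Minkowski units when the action on infinite places is free -/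
theorem mu2 (hfree : ∀ (σ : L ≃ₐ[K] L) (w : InfinitePlace L), σ • w = w → σ = 1) :
    ∃ (u : InfinitePlace L → (𝓞 L)ˣ) (c : ℕ), 0 < c ∧
      (∀ (σ : L ≃ₐ[K] L) (w : InfinitePlace L), ((u (σ • w) : 𝓞 L) : L) = σ ((u w : 𝓞 L) : L)) ∧
      (∀ x : (𝓞 L)ˣ, ∃ a : InfinitePlace L → ℤ, x ^ c = ∏ w, u w ^ a w) ∧
      ∀ (a : InfinitePlace L → ℤ) (w₀ : InfinitePlace L), a w₀ = 0 →
        IsOfFinOrder (∏ w, u w ^ a w) → a = 0 := by
  obtain ⟨e, r, s, hs, h⟩ := MU.family K L
  obtain ⟨c, hc, hx⟩ := MU.finIdx h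
  refine ⟨_, c, hc, fun σ w => ?_, fun x => Subgroup.mem_closure_range_iff_of_fintype.1 (hx x),
    MU.indepZ h⟩
  have h1 : (σ • w).comap (algebraMap K L) = w.comap (algebraMap K L) :=
    (InfinitePlace.mem_orbit_iff.1 ⟨σ, rfl⟩).symm
  have h2 : s (σ • w) = σ * s w := by
    have h3 := hs (σ • w)
    rw [h1] at h3
    have h4 := hfree ((σ * s w)⁻¹ * s (σ • w)) (r (w.comap (algebraMap K L))) (by
      rw [mul_smul, h3, inv_smul_eq_iff, mul_smul, hs])
    exact (inv_mul_eq_one.1 h4).symm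
  rw [MU.coe_conjU, MU.coe_conjU, h1, h2]
  rfl

end

end Crest.Agent.R18
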