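import Crest.Agent.R18.Dict
import Crest.Agent.R18.MU
import Crest.Agent.R18.FI.V
import Crest.Agent.R18.FI.Units

/-! Row 18 block FI: the first inequality for cyclic extensions of odd degree. -/

set_option autoImplicit false
set_option linter.unusedSectionVars false
open scoped Pointwise NumberField
open IsDedekindDomain Crest.NumberTheoryR

namespace Crest.Agent.R18

variable {F E : Type*} [Field F] [NumberField F] [Field E] [Algebra F E] [IsGalois F E]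

open FI in
theorem fi (K L : Type*) [Field K] [NumberField K] [Field L] [NumberField L] [Algebra K L]
    [IsGalois K L] (hc : IsCyclic (L ≃ₐ[K] L)) (hodd : Odd (Module.finrank K L)) {ℓ : ℕ}
    (hℓ : ℓ.Prime)
    (hunr : ∀ 𝔓 : HeightOneSpectrum (𝓞 L), (ℓ : 𝓞 L) ∉ 𝔓.asIdeal →
      𝔓.asIdeal.inertia (L ≃ₐ[K] L) = ⊥) :
    ∃ N : ℕ, Module.finrank K L ≤ (fiSub K L ℓ N).index := by
  obtain ⟨g, hg⟩ := hc.exists_generator
  obtain ⟨V, N, h1, h2, h3, h4⟩ := exists_V hℓ hg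
  rw [← IsGalois.card_aut_eq_finrank, Nat.card_eq_fintype_card] at hodd ⊢
  have hU : (dvH L).ker ≤ SU L ℓ := fun x hx => mem_SU_iff.2 ((show dvH L x = 0 from hx) ▸ zero_mem _)
  have hE := (hq_iff (st_of ker_dvH_stable g) (st_of (A := V ⊓ (dvH L).ker)
    (fun σ x hx => ⟨h3 σ x hx.1, ker_dvH_stable σ x hx.2⟩) g) inf_le_right (fun h => ray_rel hℓ N
      (AddSubgroup.relIndex_eq_zero_of_le_right hU (AddSubgroup.relIndex_eq_zero_of_le_left h1
        (AddSubgroup.inf_relIndex_right V _ ▸ h)))) _).1 (hq_units hodd hg)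
  have h5 := first (st_of h3 g) (st_of J0_stable g) (dvH L) (dG_comm _ dvH_comm) (nG_comm _ dvH_comm) h4 (J0_h1 hg)
    (by
      rintro _ ⟨x, hx, rfl⟩
      exact mem_SU_iff.1 (h2 hx))
    (fun h => ray_dv hℓ N (AddSubgroup.relIndex_eq_zero_of_le_left (AddSubgroup.map_mono h1) h)) hE.1 hE.2
  rw [← con_range hg, ← AddSubgroup.index_comap] at h5
  refine ⟨N + 1, h5.trans (Nat.le_of_dvd (Nat.pos_of_ne_zero (fiSub_index L hℓ N))
    (AddSubgroup.index_dvd_of_le ((AddSubgroup.closure_le _).2 ?_)))⟩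
  rintro _ ((⟨x, hx, h, rfl⟩ | ⟨𝔭, 𝔓, h, rfl⟩) | ⟨𝔩, h, rfl⟩)
  · have hl : (ℓ : K) ^ (N + 1) ≠ 0 := pow_ne_zero _ (Nat.cast_ne_zero.2 hℓ.ne_zero)
    have hy : Additive.ofMul (Units.mk0 _ ((map_ne_zero (algebraMap K L)).2 hx)) ∈ V :=
      h1 ⟨algebraMap K L ((x - 1) / ℓ ^ (N + 1)), map_Sl (mem_Sl.2 fun 𝔩 h' => by
        rw [map_div₀]
        exact div_le_one_of_le₀ (h 𝔩 h') zero_le), by
        rw [← map_natCast (algebraMap K L), ← map_pow, ← map_mul, mul_div_cancel₀ _ hl]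
        simp⟩
    exact AddSubgroup.mem_sup_left ⟨_, ⟨hy, sub_eq_zero.2 (Units.ext (g.commutes x).symm)⟩,
      (con_dv hunr (h2 hy) rfl).symm⟩
  · obtain rfl : 𝔓.under (𝓞 K) = 𝔭 := HeightOneSpectrum.ext h
    by_cases h' : (ℓ : 𝓞 L) ∈ 𝔓.asIdeal
    · exact AddSubgroup.mem_comap.2 ((con_single_of_mem (L := L) ((mem_under (K := K) 𝔓).2 h') _).symm ▸ zero_mem _)
    · refine AddSubgroup.mem_sup_right ⟨_, fun 𝔔 h𝔔 => ?_, (con_single h').symm⟩
      exact Finsupp.single_eq_of_ne fun e => h' (e ▸ h𝔔)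
  · exact AddSubgroup.mem_comap.2 ((con_single_of_mem (L := L) h _).symm ▸ zero_mem _)

end Crest.Agent.R18
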