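import Crest.Agent.R18.Gen

/-! Row 18 block RED: reductions. -/

set_option autoImplicit false
set_option linter.unusedSectionVars false
open scoped Pointwise NumberField
open IsDedekindDomain Crest.NumberTheoryR

namespace Crest.Agent.R18

variable {F E : Type*} [Field F] [NumberField F] [Field E] [Algebra F E] [IsGalois F E]

attribute [local instance] grpb_galois

/-- maximal extension -/
theorem extend (hE : IsSolvablyClosed E) (S : PreSetup F E) :
    ∃ S' : Setup F E, S.H ≤ S'.H ∧ ∀ h ∈ S.H, S'.a h = S.a h := by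
  obtain ⟨U, hU, hU', -⟩ := S.exists_image S.H.normalCore S.H.normalCore_le (open_normalCore _ S.hH)
  have hN : ∀ (τ : Gam), ∀ w ∈ S.H.normalCore, τ * w * τ⁻¹ ∈ S.H.normalCore := fun τ w hw =>
    S.H.normalCore_normal.conj_mem w hw τ
  let P : Gam → (E ≃ₐ[F] E) → Prop := fun τ δ => ∀ w ∈ S.H.normalCore, S.a (τ * w * τ⁻¹) = δ * S.a w * δ⁻¹
  have hu : ∀ {τ δ δ'}, P τ δ → P τ δ' → δ = δ' := fun {τ δ δ'} h h' => by
    refine inv_mul_eq_one.1 (slim hE U hU _ fun g hg => ?_)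
    obtain ⟨w, hw, rfl⟩ := (hU' g).1 hg
    calc δ⁻¹ * δ' * S.a w = δ⁻¹ * (δ' * S.a w * δ'⁻¹) * δ' := by group
      _ = _ := by rw [← h' w hw, h w hw]; group
  have hmul : ∀ {τ δ τ' δ'}, P τ δ → P τ' δ' → P (τ * τ') (δ * δ') := fun {τ δ τ' δ'} h h' w hw => by
    rw [show τ * τ' * w * (τ * τ')⁻¹ = τ * (τ' * w * τ'⁻¹) * τ⁻¹ by group, h _ (hN τ' w hw), h' w hw]
    group
  have hH : ∀ h ∈ S.H, P h (S.a h) := fun h hh w hw => by
    have hw' := S.H.normalCore_le hw
    rw [S.mul _ (S.H.mul_mem hh hw') _ (S.H.inv_mem hh), S.mul _ hh _ hw', S.a_inv hh]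
  let H₀ : Subgroup Gam :=
    { carrier := {τ | ∃ δ, P τ δ}
      one_mem' := ⟨_, hH 1 S.H.one_mem⟩
      mul_mem' := fun ⟨_, h⟩ ⟨_, h'⟩ => ⟨_, hmul h h'⟩
      inv_mem' := fun {τ} ⟨δ, h⟩ => ⟨δ⁻¹, fun w hw => by
        have := h _ (hN τ⁻¹ w hw)
        rw [show τ * (τ⁻¹ * w * τ⁻¹⁻¹) * τ⁻¹ = w by group] at this
        rw [this]
        group⟩ }
  have hle : S.H ≤ H₀ := fun h hh => ⟨_, hH h hh⟩
  let a : Gam → (E ≃ₐ[F] E) := fun τ => Classical.epsilon (P τ)
  have ha : ∀ τ ∈ H₀, P τ (a τ) := fun τ hτ => Classical.epsilon_spec hτ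
  have ha' : ∀ h ∈ S.H, a h = S.a h := fun h hh => hu (ha h (hle hh)) (hH h hh)
  have hm : ∀ x ∈ H₀, ∀ y ∈ H₀, a (x * y) = a x * a y := fun x hx y hy =>
    hu (ha _ (H₀.mul_mem hx hy)) (hmul (ha x hx) (ha y hy))
  refine ⟨⟨⟨H₀, Subgroup.isOpen_mono hle S.hH, a, hm, fun τ hτ => ContinuousAt.continuousWithinAt ?_, fun g => ?_⟩,
    fun γ hγ => ⟨1, fun w hw => ?_⟩⟩, hle, ha'⟩
  · have h1 : ContinuousAt (fun x : Gam => τ⁻¹ * x) τ := by fun_prop
    have h2 : S.H.carrier ∈ nhds (τ⁻¹ * τ) := S.hH.mem_nhds (by rw [inv_mul_cancel]; exact S.H.one_mem)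
    refine (continuousAt_const.mul ((S.cont.continuousAt h2).comp (f := fun x : Gam => τ⁻¹ * x) h1)
      (f := fun _ => a τ)).congr ?_
    filter_upwards [h1.eventually h2] with x hx
    rw [Pi.mul_apply, Function.comp, ← ha' _ hx, ← hm τ hτ _ (hle hx), mul_inv_cancel_left]
  · obtain ⟨h, hh, e⟩ := S.surj g
    exact ⟨h, hle hh, (ha' h hh).trans e⟩
  · have := hγ w (Subgroup.normalCore_mono hle hw)
    change a _ = a _ at this
    rw [ha' _ (S.H.normalCore_le (hN γ w hw)), ha' _ (S.H.normalCore_le hw)] at this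
    rw [this, one_mul, inv_one, mul_one]

theorem tendsto_krull {K L X : Type*} [Field K] [Field L] [Algebra K L] {l : Filter X} {f : X → (L ≃ₐ[K] L)}
    {g : L ≃ₐ[K] L} (h : ∀ e, ∀ᶠ y in l, f y e = g e) : Filter.Tendsto f l (nhds g) := by
  have h1 : Filter.Tendsto (fun y => g⁻¹ * f y) l (nhds 1) := fun V hV => by
    obtain ⟨M, hM, hMV⟩ := (krullTopology_mem_nhds_one_iff K L V).1 hV
    let b := Module.finBasis K M
    refine Filter.mem_map.2 (Filter.mem_of_superset (Filter.eventually_all.2 fun i => h (b i)) fun y hy => ?_)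
    refine hMV ((IntermediateField.mem_fixingSubgroup_iff M _).2 fun x hx => ?_)
    have := LinearMap.congr_fun (b.ext (f₁ := (f y).toLinearMap ∘ₗ M.val.toLinearMap)
      (f₂ := g.toLinearMap ∘ₗ M.val.toLinearMap) hy) ⟨x, hx⟩
    exact (AlgEquiv.symm_apply_eq g).2 this
  simpa using h1.const_mul g

theorem eventually_krull {K L : Type*} [Field K] [Field L] [Algebra K L] [Algebra.IsIntegral K L]
    (g : L ≃ₐ[K] L) (e : L) : ∀ᶠ σ in nhds g, σ e = g e := by
  have h1 : ContinuousAt (fun x : L ≃ₐ[K] L => g⁻¹ * x) g := by fun_prop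
  filter_upwards [h1.eventually ((stabilizer_isOpen_of_isIntegral (K := K) e).mem_nhds
    (by simp))] with σ hσ
  exact (AlgEquiv.symm_apply_eq g).1 hσ

theorem exists_res (F E : Type*) [Field F] [NumberField F] [Field E] [Algebra F E] [IsGalois F E] :
    ∃ (ι : E →+* Qb) (H : Subgroup Gam) (r : Gam → (E ≃ₐ[F] E)), IsOpen (H : Set Gam) ∧
      (∀ h ∈ H, ∀ x, ι (r h x) = h (ι x)) ∧ (∀ g, ∃ h ∈ H, r h = g) ∧
      ∀ y : Qb, (∀ h ∈ H, r h = 1 → h y = y) → y ∈ ι.range := by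
  classical
  have : CharZero E := charZero_of_injective_algebraMap (algebraMap F E).injective
  have : Algebra.IsAlgebraic ℚ E := Algebra.IsAlgebraic.trans ℚ F E
  let ι : E →ₐ[ℚ] Qb := IsAlgClosed.lift
  let _ : Algebra E Qb := ι.toRingHom.toAlgebra
  let _ : Algebra F Qb := (ι.toRingHom.comp (algebraMap F E)).toAlgebra
  have : IsScalarTower F E Qb := IsScalarTower.of_algebraMap_eq fun _ => rfl
  have : IsGalois F Qb := IsGalois.tower_top_of_isGalois ℚ F Qb
  have : IsGalois E Qb := IsGalois.tower_top_of_isGalois F E Qb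
  let M := (IsScalarTower.toAlgHom ℚ F Qb).fieldRange
  have : FiniteDimensional ℚ M := (IsScalarTower.toAlgHom ℚ F Qb).toLinearMap.finiteDimensional_range
  have hM : ∀ h : Gam, h ∈ M.fixingSubgroup ↔ ∀ x, h (algebraMap F Qb x) = algebraMap F Qb x := fun h =>
    (IntermediateField.mem_fixingSubgroup_iff M h).trans ⟨fun H x => H _ ⟨x, rfl⟩, fun H _ ⟨x, e⟩ => e ▸ H x⟩
  let r : Gam → (E ≃ₐ[F] E) := fun h => if hh : h ∈ M.fixingSubgroup then
    (AlgEquiv.ofRingEquiv (f := h.toRingEquiv) ((hM h).1 hh)).restrictNormal E else 1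
  have hr : ∀ h ∈ M.fixingSubgroup, ∀ x, algebraMap E Qb (r h x) = h (algebraMap E Qb x) := fun h hh x => by
    simp only [r, dif_pos hh]
    exact AlgEquiv.restrictNormal_commutes _ E x
  refine ⟨algebraMap E Qb, M.fixingSubgroup, r, M.fixingSubgroup_isOpen, hr, fun g => ?_, fun y hy => ?_⟩
  · have hh := (hM ((g.liftNormal Qb).restrictScalars ℚ)).2 (g.liftNormal Qb).commutes
    exact ⟨_, hh, AlgEquiv.ext fun x => (algebraMap E Qb).injective ((hr _ hh x).trans (g.liftNormal_commutes Qb x))⟩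
  · refine (InfiniteGalois.mem_range_algebraMap_iff_fixed y).2 fun σ => ?_
    have hh := (hM (σ.restrictScalars ℚ)).2 fun x => σ.commutes (algebraMap F E x)
    exact hy _ hh (AlgEquiv.ext fun x => (algebraMap E Qb).injective ((hr _ hh x).trans (σ.commutes x)))

/-- reduction of the statement to presetups -/
theorem reduce (F₁ F₂ E₁ E₂ : Type*) [Field F₁] [NumberField F₁] [Field F₂] [NumberField F₂]
    [Field E₁] [Algebra F₁ E₁] [IsGalois F₁ E₁] [Field E₂] [Algebra F₂ E₂] [IsGalois F₂ E₂]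
    (α : (E₁ ≃ₐ[F₁] E₁) →* (E₂ ≃ₐ[F₂] E₂)) (hα : Continuous α) (hopen : IsOpen (Set.range α))
    (main : ∀ (K : IntermediateField F₂ E₂) [NumberField K] (S : PreSetup K E₂),
      ∃ j : E₂ →+* Qb, ∀ h ∈ S.H, ∀ x : E₂, h (j x) = j (S.a h x)) :
    ∃ j : E₂ →+* E₁, ∀ g : E₁ ≃ₐ[F₁] E₁, ∀ x : E₂, g (j x) = j (α g x) := by
  obtain ⟨ι, H, r, hH, hr, hs, hfix⟩ := exists_res F₁ E₁
  have hm : ∀ x ∈ H, ∀ y ∈ H, r (x * y) = r x * r y := fun x hx y hy => AlgEquiv.ext fun e => ι.injective (by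
    rw [hr _ (H.mul_mem hx hy), AlgEquiv.mul_apply, AlgEquiv.mul_apply, hr x hx, hr y hy])
  have hc : ContinuousOn r H := fun x hx => tendsto_krull fun e => by
    filter_upwards [self_mem_nhdsWithin, nhdsWithin_le_nhds (eventually_krull x (ι e))] with y hy h
    exact ι.injective (by rw [hr y hy, hr x hx, h])
  have := numberField_fixedField α.range hopen
  let a : Gam → (E₂ ≃ₐ[IntermediateField.fixedField α.range] E₂) := fun h =>
    AlgEquiv.ofRingEquiv (f := (α (r h)).toRingEquiv) fun k => (fix_iff_mem α.range k).2 k.2 _ ⟨r h, rfl⟩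
  have ha : ∀ h x, a h x = α (r h) x := fun _ _ => rfl
  obtain ⟨j, hj⟩ := main _ ⟨H, hH, a, fun x hx y hy => AlgEquiv.ext fun e => by
      rw [AlgEquiv.mul_apply, ha, ha, ha, hm x hx y hy, map_mul, AlgEquiv.mul_apply],
    fun x hx => tendsto_krull fun e => ((hα.tendsto _).comp (hc x hx)).eventually (eventually_krull (α (r x)) e),
    fun g => by
      obtain ⟨g₁, e⟩ := mem_of_fix α.range (α.range.isClosed_of_isOpen hopen) (g.restrictScalars F₂)
        fun x hx => g.commutes ⟨x, (fix_iff_mem _ _).1 hx⟩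
      obtain ⟨h, hh, rfl⟩ := hs g₁
      exact ⟨h, hh, AlgEquiv.ext fun x => by rw [ha, e]; rfl⟩⟩
  replace hj : ∀ h ∈ H, ∀ x, h (j x) = j (α (r h) x) := hj
  have hr' : ∀ x, j x ∈ ι.range := fun x => hfix _ fun h hh e => by rw [hj h hh, e, map_one, AlgEquiv.one_apply]
  let e := RingEquiv.ofBijective ι.rangeRestrict ⟨fun x y h => ι.injective (congrArg Subtype.val h),
    ι.rangeRestrict_surjective⟩
  have he : ∀ y, ι (e.symm y) = y := fun y => congrArg Subtype.val (e.apply_symm_apply y)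
  refine ⟨e.symm.toRingHom.comp (j.codRestrict ι.range hr'), fun g x => ι.injective ?_⟩
  obtain ⟨h, hh, rfl⟩ := hs g
  rw [hr h hh]
  exact (congrArg h (he _)).trans ((hj h hh x).trans (he ⟨_, hr' _⟩).symm)

end Crest.Agent.R18
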