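import Crest.Agent.R18.R
import Crest.Agent.R18.End
import Crest.Agent.R18.Red

/-! Row 18: assembly. -/

set_option autoImplicit false
set_option linter.unusedSectionVars false
open scoped Pointwise NumberField
open IsDedekindDomain Crest.NumberTheoryR

namespace Crest.Agent.R18

variable {F E : Type*} [Field F] [NumberField F] [Field E] [Algebra F E] [IsGalois F E]

theorem main_pre (hE : IsSolvablyClosed E) (S : PreSetup F E) :
    ∃ j : E →+* Qb, ∀ h ∈ S.H, ∀ x : E, h (j x) = j (S.a h x) := by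
  obtain ⟨S', hle, ha⟩ := extend hE S
  obtain ⟨j, hj⟩ := endgame hE S'.toPreSetup (right hE S')
  exact ⟨j, fun h hh x => by rw [hj h (hle hh) x, ha h hh]⟩

theorem final (F₁ F₂ E₁ E₂ : Type*) [Field F₁] [NumberField F₁] [Field F₂] [NumberField F₂]
    [Field E₁] [Algebra F₁ E₁] [IsGalois F₁ E₁] [Field E₂] [Algebra F₂ E₂] [IsGalois F₂ E₂]
    (h₂ : IsSolvablyClosed E₂)
    (α : (E₁ ≃ₐ[F₁] E₁) →* (E₂ ≃ₐ[F₂] E₂)) (hα : Continuous α) (hopen : IsOpen (Set.range α)) :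
    ∃ j : E₂ →+* E₁, ∀ g : E₁ ≃ₐ[F₁] E₁, ∀ x : E₂, g (j x) = j (α g x) :=
  reduce F₁ F₂ E₁ E₂ α hα hopen fun _ _ S => main_pre h₂ S

end Crest.Agent.R18
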