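import Crest.Agent.R18.H
import Crest.Agent.R18.EP
import Crest.Agent.R18.FD

/-! Row 18 block G: few primes are killed by a `ℤ_[ℓ]`-character. -/

set_option autoImplicit false
set_option linter.unusedSectionVars false
open scoped Pointwise NumberField
open IsDedekindDomain Crest.NumberTheoryR

namespace Crest.Agent.R18

variable {F E : Type*} [Field F] [NumberField F] [Field E] [Algebra F E] [IsGalois F E]

namespace BG

theorem isGaloisQb : IsGalois ℚ Qb :=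
  @IsAlgClosure.isGalois ℚ Qb _ _ (AlgebraicClosure.instAlgebra ℚ) _ _

attribute [local instance] isGaloisQb

/-- `lam` kills the logarithms of all `PUnit`s -/
def InLam (ℓ : ℕ) [Fact ℓ.Prime] (U W : Subgroup Gam) [Fintype (Gam ⧸ U)]
    (e : IntermediateField.fixedField W →+* ℚ_[ℓ]) (η : Gam → ℤ_[ℓ]) (lam : Gam ⧸ U → ℤ_[ℓ]) :
    Prop :=
  ∀ x, PUnit ℓ U η x → ∑ c : Gam ⧸ U, lam c * plog ℓ (ev e ((Quotient.out c : Gam) x)) = 0

theorem out_apply {U : Subgroup Gam} {x : Qb} (hx : Fix U x) (γ : Gam) :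
    (Quotient.out (γ : Gam ⧸ U) : Gam) x = γ x := by
  obtain ⟨h, hh⟩ := QuotientGroup.mk_out_eq_mul U γ
  rw [hh, AlgEquiv.mul_apply, hx h h.2]

theorem val_eq_one_iff (γ : Gam) (B : ValuationSubring Qb) (x : Qb) :
    B.valuation (γ x) = 1 ↔ (γ⁻¹ • B).valuation x = 1 := by
  have h := val_smul_eq_one γ (γ⁻¹ • B) x
  rwa [smul_inv_smul] at h

theorem smul_ne_top {B : ValuationSubring Qb} (hB : B ≠ ⊤) (γ : Gam) : γ • B ≠ ⊤ := by
  obtain ⟨p, hp⟩ := exists_over ℚ B hB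
  exact (hp.smul γ).ne_top

theorem stab_conj_inv {B : ValuationSubring Qb} {g d : Gam} (h : Stab (g • B) d) :
    Stab B (g⁻¹ * d * g) := by
  have h1 := h.conj g⁻¹
  rwa [inv_smul_smul, inv_inv] at h1

open Classical in
/-- the sums of `lam` over translates of a decomposition group vanish -/
theorem core (ℓ : ℕ) [Fact ℓ.Prime] (h2 : ℓ ≠ 2) (U W : Subgroup Gam) [Fintype (Gam ⧸ U)]
    (hW : IsOpen (W : Set Gam)) (hn : W.Normal) (hle : W ≤ U)
    (e : IntermediateField.fixedField W →+* ℚ_[ℓ]) (η : Gam → ℤ_[ℓ]) (hη : IsChar U η)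
    (lam : Gam ⧸ U → ℤ_[ℓ]) (hlam : InLam ℓ U W e η lam) (Q : ℕ → ValuationSubring Qb → Prop)
    (hP : {p | ∃ B, Q p B}.Infinite)
    (hQ : ∀ p B, Q p B → Over B p ∧ p ≠ ℓ ∧ ∀ d ∈ U, Stab B d → η d = 0) :
    ∃ p B, Q p B ∧ ∀ g₀ : Gam,
      ∑ c ∈ Finset.univ.filter (fun c : Gam ⧸ U => ∃ d : Gam, Stab B d ∧ c = (d : Gam ⧸ U)),
        lam (g₀ • c) = 0 := by
  have hU : IsOpen (U : Set Gam) := Subgroup.isOpen_mono hle hW
  obtain ⟨h, -, hv⟩ := varpi U hU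
  have hex : ∀ p, ∃ (B : ValuationSubring Qb) (ϖ : Qb), p ∈ {p | ∃ B, Q p B} →
      Q p B ∧ ϖ ≠ 0 ∧ Fix U ϖ ∧ B.valuation ϖ < 1 ∧
        ∀ B' : ValuationSubring Qb, B' ≠ ⊤ → B'.valuation ϖ ≠ 1 → ∃ g ∈ U, g • B = B' := by
    intro p
    by_cases hp : p ∈ {p | ∃ B, Q p B}
    · obtain ⟨B, hB⟩ := hp
      obtain ⟨ϖ, h1, h3, h4, h5, -⟩ := hv B p (hQ p B hB).1
      refine ⟨B, ϖ, fun _ => ⟨hB, h1, h3, h4, fun B' hB' hne => ?_⟩⟩
      exact conj_of_agree U hU (hQ p B hB).1 (by_contra fun hc => hne (h5 B' hB' hc))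
    · exact ⟨⊤, 0, fun h => absurd h hp⟩
  choose B ϖ hB using hex
  -- translates
  have htr : ∀ p ∈ {p | ∃ B, Q p B}, ∀ (γ : Gam) (B' : ValuationSubring Qb), B' ≠ ⊤ →
      B'.valuation (γ (ϖ p)) ≠ 1 → ∃ g ∈ U, (γ * g) • B p = B' := by
    intro p hp γ B' hB' hne
    rw [Ne, val_eq_one_iff] at hne
    obtain ⟨g, hg, h1⟩ := (hB p hp).2.2.2.2 _ (smul_ne_top hB' γ⁻¹) hne
    exact ⟨g, hg, by rw [mul_smul, h1, smul_inv_smul]⟩
  have hsupp : ∀ p ∈ {p | ∃ B, Q p B}, ∀ (B' : ValuationSubring Qb) (q : ℕ), Over B' q → q ≠ p →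
      ∀ γ : Gam, B'.valuation (γ (ϖ p)) = 1 := by
    intro p hp B' q hq hqp γ
    by_contra hne
    obtain ⟨g, -, h1⟩ := htr p hp γ B' hq.ne_top hne
    exact hqp (hq.unique (h1 ▸ (hQ p _ (hB p hp).1).1.smul (γ * g)))
  have hfix : ∀ p ∈ {p | ∃ B, Q p B}, ∀ γ : Gam, Fix W (γ (ϖ p)) := by
    intro p hp γ w hw
    have h1 := (hB p hp).2.2.1 (γ⁻¹ * w * γ) (hle (hn.conj_mem' w hw γ))
    have h3 : w (γ (ϖ p)) = γ ((γ⁻¹ * w * γ) (ϖ p)) := by
      rw [← AlgEquiv.mul_apply, ← AlgEquiv.mul_apply]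
      congr 1
      group
    rw [h3, h1]
  obtain ⟨p, hp, hsum⟩ := emsalem' ℓ h2 W hW e lam _ hP
    (fun p (c : Gam ⧸ U) => (Quotient.out c : Gam) (ϖ p))
    (fun p hp c => ⟨(map_ne_zero _).2 (hB p hp).2.1, hfix p hp _,
      norm_ev_eq_one e (hfix p hp _) fun B' hB' =>
        hsupp p hp B' ℓ hB' (hQ p _ (hB p hp).1).2.1.symm _⟩)
    (fun p hp => by
      obtain ⟨hq, h1, h3, -, h5⟩ := hB p hp
      obtain ⟨ho, hne, hgood⟩ := hQ p _ hq
      refine hlam _ ⟨h1, h3, fun B' hB' hv => ?_⟩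
      obtain ⟨g, hg, rfl⟩ := h5 B' hB' hv
      refine ⟨(ho.smul g).val_nat fun hd => hne ?_, fun d hd hs => ?_⟩
      · exact (Nat.prime_dvd_prime_iff_eq ho.1 Fact.out).1 hd
      · have h6 := hgood _ (U.mul_mem (U.mul_mem (U.inv_mem hg) hd) hg) (stab_conj_inv hs)
        have h7 := hη.conj (U.inv_mem hg) hd
        rw [inv_inv] at h7
        rw [← h7, h6])
    (fun p hp B' q hq hqp c => hsupp p hp B' q hq hqp _)
    (fun p hp B' hB' c c' h1 h3 => by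
      obtain ⟨g, hg, h4⟩ := htr p hp _ B' hB'.ne_top h1
      obtain ⟨g', hg', h5⟩ := htr p hp _ B' hB'.ne_top h3
      have hf := (hB p hp).2.2.1
      have h6 : (Quotient.out c : Gam) (ϖ p) = (Quotient.out c * g : Gam) (ϖ p) := by
        rw [AlgEquiv.mul_apply, hf g hg]
      have h7 : (Quotient.out c' : Gam) (ϖ p) = (Quotient.out c' * g' : Gam) (ϖ p) := by
        rw [AlgEquiv.mul_apply, hf g' hg']
      show B'.valuation ((Quotient.out c : Gam) (ϖ p)) =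
        B'.valuation ((Quotient.out c' : Gam) (ϖ p))
      rw [h6, h7]
      generalize (Quotient.out c * g : Gam) = a at h4
      generalize (Quotient.out c' * g' : Gam) = a' at h5
      have hs : Stab (B p) (a⁻¹ * a') := stab_iff.2 (by rw [mul_smul, h5, ← h4, inv_smul_smul])
      have h8 : a' (ϖ p) = a ((a⁻¹ * a') (ϖ p)) := by
        rw [← AlgEquiv.mul_apply, mul_inv_cancel_left]
      rw [h8, ← h4, val_smul_eq]
      exact (hs.val_eq _).symm)
  obtain ⟨hq, -, hf, hlt, -⟩ := hB p hp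
  have ho := (hQ p _ hq).1
  refine ⟨p, B p, hq, fun g₀ => ?_⟩
  have h1 := hsum (g₀ • B p) (ho.smul g₀)
  let τ : (Gam ⧸ U) ≃ (Gam ⧸ U) := MulAction.toPerm g₀
  rw [Finset.sum_filter, ← Equiv.sum_comp τ] at h1
  rw [Finset.sum_filter]
  refine Eq.trans (Finset.sum_congr rfl fun c _ => ?_) h1
  induction c using QuotientGroup.induction_on with
  | H γ =>
    have h3 : (Quotient.out (τ (γ : Gam ⧸ U)) : Gam) (ϖ p) =
        g₀ (γ (ϖ p)) := out_apply hf (g₀ * γ)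
    refine if_congr ?_ rfl rfl
    rw [h3, Ne, val_smul_eq_one]
    constructor
    · rintro ⟨d, hd, hc⟩ h4
      have h5 : γ (ϖ p) = d (ϖ p) := by
        rw [← out_apply hf γ, hc, out_apply hf d]
      rw [h5, hd.val_eq] at h4
      exact hlt.ne h4
    · intro h4
      obtain ⟨g, hg, h5⟩ := htr p hp γ _ ho.ne_top h4
      exact ⟨γ * g, stab_iff.2 h5, QuotientGroup.eq.2 (by simpa using hg)⟩

/-- right translation by an element normalising `U` -/
noncomputable def rmul (U : Subgroup Gam) (δ : Gam) (c : Gam ⧸ U) : Gam ⧸ U :=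
  ((Quotient.out c * δ : Gam) : Gam ⧸ U)

theorem rmul_mk {U : Subgroup Gam} {δ : Gam} (hδ : ∀ u ∈ U, δ⁻¹ * u * δ ∈ U) (γ : Gam) :
    rmul U δ (γ : Gam ⧸ U) = ((γ * δ : Gam) : Gam ⧸ U) := by
  obtain ⟨h, hh⟩ := QuotientGroup.mk_out_eq_mul U γ
  rw [rmul, hh]
  refine QuotientGroup.eq.2 ?_
  have h1 := hδ _ (U.inv_mem h.2)
  convert h1 using 1
  group

theorem InLam.rmul {ℓ : ℕ} [Fact ℓ.Prime] {U W : Subgroup Gam} [Fintype (Gam ⧸ U)]
    {e : IntermediateField.fixedField W →+* ℚ_[ℓ]} {η : Gam → ℤ_[ℓ]} {lam : Gam ⧸ U → ℤ_[ℓ]}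
    (h : InLam ℓ U W e η lam) {δ : Gam} (hδ : ∀ u ∈ U, δ⁻¹ * u * δ ∈ U)
    (hδ' : ∀ u ∈ U, δ * u * δ⁻¹ ∈ U) (hη : ∀ u ∈ U, η (δ * u * δ⁻¹) = 0 → η u = 0) :
    InLam ℓ U W e η (fun c => lam (rmul U δ c)) := by
  intro x hx
  obtain ⟨h0, hf, hB⟩ := hx
  have hδ'' : ∀ u ∈ U, δ⁻¹⁻¹ * u * δ⁻¹ ∈ U := by simpa only [inv_inv] using hδ'
  have hf' : Fix U (δ⁻¹ x) := by
    intro u hu
    have h3 : u (δ⁻¹ x) = δ⁻¹ ((δ * u * δ⁻¹) x) := by
      rw [← AlgEquiv.mul_apply, ← AlgEquiv.mul_apply]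
      congr 1
      group
    rw [h3, hf _ (hδ' u hu)]
  have hx' : PUnit ℓ U η (δ⁻¹ x) := by
    refine ⟨(map_ne_zero _).2 h0, hf', fun B hBt hv => ?_⟩
    rw [Ne, val_eq_one_iff, inv_inv] at hv
    obtain ⟨h1, h3⟩ := hB _ (smul_ne_top hBt δ) hv
    refine ⟨?_, fun d hd hs => hη d hd (h3 _ (hδ' d hd) (hs.conj δ))⟩
    rw [← val_smul_eq_one δ, map_natCast]
    exact h1
  let σ : (Gam ⧸ U) ≃ (Gam ⧸ U) :=
    { toFun := BG.rmul U δ
      invFun := BG.rmul U δ⁻¹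
      left_inv := fun c => by
        induction c using QuotientGroup.induction_on with
        | H γ => rw [rmul_mk hδ, rmul_mk hδ'', mul_inv_cancel_right]
      right_inv := fun c => by
        induction c using QuotientGroup.induction_on with
        | H γ => rw [rmul_mk hδ'', rmul_mk hδ, inv_mul_cancel_right] }
  have h1 := h _ hx'
  rw [← Equiv.sum_comp σ] at h1
  rw [← h1]
  refine Finset.sum_congr rfl fun c _ => ?_
  induction c using QuotientGroup.induction_on with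
  | H γ =>
    have h3 : σ (γ : Gam ⧸ U) = ((γ * δ : Gam) : Gam ⧸ U) := rmul_mk hδ γ
    beta_reduce
    rw [h3, out_apply hf, out_apply hf', rmul_mk hδ, ← AlgEquiv.mul_apply, mul_inv_cancel_right]

end BG

open BG
attribute [local instance] isGaloisQb

theorem g1 (ℓ : ℕ) [Fact ℓ.Prime] (h2 : ℓ ≠ 2) (U W : Subgroup Gam)
    (hW : IsOpen (W : Set Gam)) (hn : W.Normal) (hle : W ≤ U)
    (e : IntermediateField.fixedField W →+* ℚ_[ℓ]) (η : Gam → ℤ_[ℓ]) (hη : IsChar U η)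
    (h0 : ∃ g ∈ U, η g ≠ 0) :
    {p : ℕ | ∃ (B : ValuationSubring Qb) (σ : Gam), Over B p ∧ σ ∈ U ∧ Frob B σ p ∧
      η σ = 0}.Finite := by
  classical
  by_contra hinf
  have hU : IsOpen (U : Set Gam) := Subgroup.isOpen_mono hle hW
  have := finiteIndex_of_open U hU
  have : Fintype (Gam ⧸ U) := Fintype.ofFinite _
  obtain ⟨lam, hlam0, hlam⟩ := lemmaH ℓ h2 U W hW hn hle e η hη h0
  obtain ⟨q₀, hq₀⟩ := dec1 W hW
  obtain ⟨K, hK⟩ := hη.exists_ker
  have hKc := hη.ker_closed (U.isClosed_of_isOpen hU) hK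
  obtain ⟨p, B, ⟨hp, -, σ, ho, hσ, hF, -⟩, hsum⟩ := core ℓ h2 U W hW hn hle e η hη lam hlam
    (fun p B => q₀ ≤ p ∧ p ≠ ℓ ∧ ∃ σ : Gam, Over B p ∧ σ ∈ U ∧ Frob B σ p ∧ η σ = 0)
    (by
      refine (Set.Infinite.sdiff hinf ((Set.finite_lt_nat q₀).union (Set.finite_singleton ℓ))).mono
        ?_
      rintro p ⟨⟨B, σ, h⟩, hp⟩
      simp only [Set.mem_union, Set.mem_ofPred_eq, Set.mem_singleton_iff, not_or, not_lt] at hp
      exact ⟨B, hp.1, hp.2, σ, h⟩)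
    (by
      rintro p B ⟨-, hpl, σ, ho, hσ, hF, hz⟩
      refine ⟨ho, hpl, fun d hd hs => ?_⟩
      have hm : MinFrob U B p σ 1 :=
        ⟨hσ, one_pos, by rwa [pow_one], fun j h1 h3 => absurd h3 (by omega)⟩
      have h1 := dec4 hU ho hm hd hs
      refine ((hK d).1 (closure_minimal ?_ hKc h1)).2
      rintro x ⟨a, i, hi, hI, rfl⟩
      exact K.mul_mem (K.pow_mem ((hK σ).2 ⟨hσ, hz⟩) a)
        ((hK i).2 ⟨hi, unr U hU hη ho hpl hi hI⟩))
  apply hlam0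
  funext c
  induction c using QuotientGroup.induction_on with
  | H g₀ =>
    have h1 := hsum g₀
    have h3 : Finset.univ.filter (fun c : Gam ⧸ U => ∃ d : Gam, Stab B d ∧ c = (d : Gam ⧸ U)) =
        {((1 : Gam) : Gam ⧸ U)} := by
      ext c
      simp only [Finset.mem_filter, Finset.mem_univ, true_and, Finset.mem_singleton]
      constructor
      · rintro ⟨d, hd, rfl⟩
        obtain ⟨a, ha⟩ := (hq₀ p hp B ho).2 σ hF d hd
        have h4 : d ∈ U := by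
          have := U.mul_mem (U.pow_mem hσ a) (hle ha)
          rwa [mul_inv_cancel_left] at this
        exact QuotientGroup.eq.2 (by simpa using h4)
      · rintro rfl
        exact ⟨1, Stab.one B, rfl⟩
    rw [h3, Finset.sum_singleton, MulAction.Quotient.smul_mk, smul_eq_mul, mul_one] at h1
    exact h1

theorem lemmaG {s : ℕ} (hs : s.Prime) (U U' W : Subgroup Gam) (r : Gam → ZMod s)
    (hr : IsChar U r) (hr0 : ∃ g ∈ U, r g ≠ 0) (hgen : Generic U r)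
    (hU' : ∀ g, g ∈ U' ↔ g ∈ U ∧ r g = 0) (hW : IsOpen (W : Set Gam)) (hn : W.Normal)
    (hle : W ≤ U') (ℓ : ℕ) [Fact ℓ.Prime] (h2 : ℓ ≠ 2)
    (e : IntermediateField.fixedField W →+* ℚ_[ℓ]) (ζ : ℤ_[ℓ]) (hζ : IsPrimitiveRoot ζ s)
    (η : Gam → ℤ_[ℓ]) (hη : IsChar U' η) (h0 : ∃ g ∈ U', η g ≠ 0) (heq : Equi U U' r ζ η) :
    {p : ℕ | ∃ B : ValuationSubring Qb, Over B p ∧
      ∀ d ∈ U, Stab B d → d ∈ U' ∧ η d = 0}.Finite := by
  classical
  by_contra hinf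
  have := Fact.mk hs
  have hU'o : IsOpen (U' : Set Gam) := Subgroup.isOpen_mono hle hW
  have hU'U : U' ≤ U := fun g hg => ((hU' g).1 hg).1
  have := finiteIndex_of_open U' hU'o
  have : Fintype (Gam ⧸ U') := Fintype.ofFinite _
  have hnorm : ∀ δ ∈ U, ∀ u ∈ U', δ * u * δ⁻¹ ∈ U' := fun δ hδ u hu =>
    (hU' _).2 ⟨U.mul_mem (U.mul_mem hδ (hU'U hu)) (U.inv_mem hδ), by
      rw [hr.conj hδ (hU'U hu), ((hU' u).1 hu).2]⟩
  have hnorm' : ∀ δ ∈ U, ∀ u ∈ U', δ⁻¹ * u * δ ∈ U' := fun δ hδ u hu => by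
    have := hnorm δ⁻¹ (U.inv_mem hδ) u hu
    rwa [inv_inv] at this
  have hζ0 : ζ ≠ 0 := hζ.ne_zero hs.ne_zero
  obtain ⟨δ₀, hδ₀, hrδ₀⟩ := hr0
  -- a section of `r`
  have hsec : ∀ t : ZMod s, ∃ σ ∈ U, r σ = t := fun t =>
    ⟨δ₀ ^ (t / r δ₀).val, U.pow_mem hδ₀ _, by
      rw [hr.pow hδ₀, nsmul_eq_mul, ZMod.natCast_zmod_val, div_mul_cancel₀ _ hrδ₀]⟩
  choose σ hσU hσ using hsec
  let ψ : AddChar (ZMod s) ℤ_[ℓ] := AddChar.zmodChar s ((IsPrimitiveRoot.iff_def ζ s).mp hζ).left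
  have hψ : ψ.IsPrimitive := AddChar.zmodChar_primitive_of_primitive_root s hζ
  have hψ1 : ∀ t, ψ t = 1 → t = 0 := fun t ht => (hψ.zmod_char_eq_one_iff s t).1 ht
  have hmk : ∀ γ : Gam, ∀ a ∈ U, ∀ b ∈ U, r a = r b →
      ((γ * a : Gam) : Gam ⧸ U') = ((γ * b : Gam) : Gam ⧸ U') := by
    intro γ a ha b hb hab
    refine QuotientGroup.eq.2 ?_
    rw [mul_inv_rev, mul_assoc, inv_mul_cancel_left]
    refine (hU' _).2 ⟨U.mul_mem (U.inv_mem ha) hb, ?_⟩
    rw [hr.1 _ (U.inv_mem ha) _ hb, hr.inv ha, hab, neg_add_cancel]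
  -- an eigenvector
  obtain ⟨lam, b, hlam0, hlam, heig⟩ : ∃ (lam : Gam ⧸ U' → ℤ_[ℓ]) (b : ZMod s), lam ≠ 0 ∧
      InLam ℓ U' W e η lam ∧ ∀ γ : Gam, ∀ δ ∈ U,
        lam ((γ * δ : Gam) : Gam ⧸ U') = ψ (b * r δ) * lam (γ : Gam ⧸ U') := by
    obtain ⟨lam, hlam0, hlam⟩ := lemmaH ℓ h2 U' W hW hn hle e η hη h0
    let μ : ZMod s → Gam ⧸ U' → ℤ_[ℓ] := fun a c => ∑ t, ψ (a * t) * lam (rmul U' (σ t) c)
    have hμ : ∀ a (γ : Gam), μ a (γ : Gam ⧸ U') =
        ∑ t, ψ (a * t) * lam ((γ * σ t : Gam) : Gam ⧸ U') := fun a γ =>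
      Finset.sum_congr rfl fun t _ => by rw [rmul_mk (hnorm' _ (hσU t))]
    have hne : ∃ a, μ a ≠ 0 := by
      by_contra hall
      push Not at hall
      apply hlam0
      funext c
      induction c using QuotientGroup.induction_on with
      | H γ =>
        have h1 : ∑ a, μ a (γ : Gam ⧸ U') = 0 := Finset.sum_eq_zero fun a _ => by
          rw [hall a]; rfl
        simp only [hμ] at h1
        rw [Finset.sum_comm] at h1
        simp only [← Finset.sum_mul, AddChar.sum_mulShift _ hψ] at h1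
        rw [Finset.sum_eq_single 0 (fun t _ ht => by simp [ht]) (by simp)] at h1
        rw [hmk γ _ (hσU 0) 1 U.one_mem (by rw [hσ, hr.one]), mul_one] at h1
        simp only [if_true, ZMod.card, mul_eq_zero, Nat.cast_eq_zero] at h1
        exact h1.resolve_left hs.ne_zero
    obtain ⟨a, ha⟩ := hne
    refine ⟨μ a, -a, ha, fun x hx => ?_, fun γ δ hδ => ?_⟩
    · simp only [μ, Finset.sum_mul]
      rw [Finset.sum_comm]
      refine Finset.sum_eq_zero fun t _ => ?_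
      have h1 := InLam.rmul hlam (hnorm' _ (hσU t)) (hnorm _ (hσU t)) (fun u hu h => by
        rw [heq _ (hσU t) u hu] at h
        exact (mul_eq_zero.1 h).resolve_left (pow_ne_zero _ hζ0)) x hx
      simp only [mul_assoc, ← Finset.mul_sum]
      rw [h1, mul_zero]
    · rw [hμ, hμ, Finset.mul_sum, ← Equiv.sum_comp (Equiv.addRight (r δ))
        (fun t => ψ (-a * r δ) * (ψ (a * t) * lam ((γ * σ t : Gam) : Gam ⧸ U')))]
      refine Finset.sum_congr rfl fun t _ => ?_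
      rw [Equiv.coe_addRight, ← mul_assoc (ψ _), ← AddChar.map_add_eq_mul, mul_assoc γ,
        hmk γ _ (U.mul_mem hδ (hσU t)) _ (hσU (t + r δ))
          (by rw [hr.1 _ hδ _ (hσU t), hσ, hσ, add_comm])]
      congr 2
      ring
  by_cases hb : b = 0
  · subst hb
    obtain ⟨q₀, hq₀⟩ := dec1 W hW
    obtain ⟨p, B, ⟨hp, -, φ, ho, hφ, hF, -⟩, hsum⟩ := core ℓ h2 U' W hW hn hle e η hη lam hlam
      (fun p B => q₀ ≤ p ∧ p ≠ ℓ ∧ ∃ φ : Gam, Over B p ∧ φ ∈ U ∧ Frob B φ p ∧ r φ ≠ 0)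
      (by
        refine Set.infinite_of_forall_exists_gt fun n => ?_
        obtain ⟨q, hq, A, φ, ho, hφ, hF, -, k, hk⟩ := fd U U' hU'o hU'U hnorm hδ₀
          (q₀ + ℓ + n + 1)
        refine ⟨q, ⟨A, by omega, by omega, φ, ho, hφ, hF, fun h => hrδ₀ ?_⟩, by omega⟩
        have h1 := ((hU' _).1 hk).2
        rwa [hr.1 _ (U.inv_mem hδ₀) _ (U.pow_mem hφ k), hr.inv hδ₀, hr.pow hφ, h, smul_zero,
          add_zero, neg_eq_zero] at h1)
      (by
        rintro p B ⟨-, hpl, φ, ho, hφ, hF, hz⟩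
        refine ⟨ho, hpl, fun d hd hs => ?_⟩
        have h1 := unr U' hU'o hη ho hpl (U'.mul_mem (hnorm φ hφ d hd) (U'.inv_mem hd))
          (dab ho hF.1 hs)
        rw [hη.1 _ (hnorm φ hφ d hd) _ (U'.inv_mem hd), hη.inv hd, heq φ hφ d hd] at h1
        have h3 : (ψ (r φ) - 1) * η d = 0 := by
          rw [← h1, AddChar.zmodChar_apply]; ring
        exact (mul_eq_zero.1 h3).resolve_left fun h => hz (hψ1 _ (sub_eq_zero.1 h)))
    apply hlam0
    funext c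
    induction c using QuotientGroup.induction_on with
    | H g₀ =>
      have h1 := hsum g₀
      rw [Finset.sum_congr rfl (g := fun _ => lam (g₀ : Gam ⧸ U')), Finset.sum_const,
        nsmul_eq_mul, mul_eq_zero, Nat.cast_eq_zero, Finset.card_eq_zero] at h1
      · refine h1.resolve_left (Finset.Nonempty.ne_empty ⟨((1 : Gam) : Gam ⧸ U'), ?_⟩)
        exact Finset.mem_filter.2 ⟨Finset.mem_univ _, 1, Stab.one B, rfl⟩
      · intro c hc
        obtain ⟨d, hd, rfl⟩ := (Finset.mem_filter.1 hc).2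
        obtain ⟨a, ha⟩ := (hq₀ p hp B ho).2 φ hF d hd
        have h4 : d ∈ U := by
          have := U.mul_mem (U.pow_mem hφ a) (hU'U (hle ha))
          rwa [mul_inv_cancel_left] at this
        rw [MulAction.Quotient.smul_mk, smul_eq_mul, heig g₀ d h4, zero_mul, AddChar.map_zero_eq_one,
          one_mul]
  · obtain ⟨p, B, ⟨-, ho, hD⟩, hsum⟩ := core ℓ h2 U' W hW hn hle e η hη lam hlam
      (fun p B => p ≠ ℓ ∧ Over B p ∧ ∀ d ∈ U, Stab B d → d ∈ U' ∧ η d = 0)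
      (by
        refine (Set.Infinite.sdiff hinf (Set.finite_singleton ℓ)).mono ?_
        rintro p ⟨⟨B, h⟩, hp⟩
        exact ⟨B, hp, h⟩)
      (by
        rintro p B ⟨hpl, ho, hD⟩
        exact ⟨ho, hpl, fun d hd hs => (hD d (hU'U hd) hs).2⟩)
    set T := Finset.univ.filter (fun c : Gam ⧸ U' => ∃ d : Gam, Stab B d ∧ c = (d : Gam ⧸ U')) with hT
    have hd : ∀ c : T, ∃ d : Gam, Stab B d ∧ (c : Gam ⧸ U') = (d : Gam ⧸ U') := fun c =>
      (Finset.mem_filter.1 c.2).2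
    choose d hdS hdc using hd
    have hcore : ∀ (γ : Gam) (ω : U.normalCore), γ⁻¹ * ω * γ ∈ U := fun γ ω => by
      have := ω.2 γ⁻¹
      rwa [inv_inv] at this
    obtain ⟨χ, hχa⟩ : ∃ χ : T → (U.normalCore →* ℤ_[ℓ]), ∀ c (ω : U.normalCore),
        χ c ω = ψ (b * r ((d c)⁻¹ * ω * d c)) :=
      ⟨fun c =>
        { toFun := fun ω => ψ (b * r ((d c)⁻¹ * ω * d c))
          map_one' := by simp [hr.one]
          map_mul' := fun ω ω' => by
            rw [← AddChar.map_add_eq_mul, ← mul_add, ← hr.1 _ (hcore _ ω) _ (hcore _ ω')]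
            congr 3
            push_cast
            group }, fun _ _ => rfl⟩
    have hχ : Function.Injective χ := by
      intro c c' h
      have h1 : (d c')⁻¹ * d c ∈ U := by
        by_contra hc
        obtain ⟨ω, hω, hne⟩ := hgen _ hc
        apply hne
        have h3 := DFunLike.congr_fun h ⟨d c * ω * (d c)⁻¹, U.normalCore_normal.conj_mem ω hω _⟩
        rw [hχa, hχa] at h3
        dsimp only at h3
        have h4 : (d c)⁻¹ * (d c * ω * (d c)⁻¹) * d c = ω := by group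
        have h5 : (d c')⁻¹ * (d c * ω * (d c)⁻¹) * d c' =
            (d c')⁻¹ * d c * ω * ((d c')⁻¹ * d c)⁻¹ := by group
        rw [h4, h5] at h3
        have h6 : ψ (b * r ω - b * r ((d c')⁻¹ * d c * ω * ((d c')⁻¹ * d c)⁻¹)) = 1 := by
          rw [sub_eq_add_neg, AddChar.map_add_eq_mul, h3, ← AddChar.map_add_eq_mul, add_neg_cancel,
            AddChar.map_zero_eq_one]
        exact (mul_left_cancel₀ hb (sub_eq_zero.1 (hψ1 _ h6))).symm
      have h3 := (hD _ h1 ((hdS c').inv.mul (hdS c))).1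
      apply Subtype.ext
      rw [hdc c, hdc c']
      exact (QuotientGroup.eq.2 h3).symm
    have hli := (linearIndependent_monoidHom U.normalCore ℤ_[ℓ]).comp χ hχ
    apply hlam0
    funext c
    induction c using QuotientGroup.induction_on with
    | H g₀ =>
      have h1 := Fintype.linearIndependent_iff.1 hli (fun c => lam (g₀ • (c : Gam ⧸ U'))) (by
        funext ω
        have h3 := hsum (g₀ * ω)
        rw [← Finset.sum_coe_sort] at h3
        rw [Finset.sum_apply, Pi.zero_apply, ← h3]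
        refine Finset.sum_congr rfl fun c _ => ?_
        have h4 : g₀ * ω * d c = g₀ * d c * ((d c)⁻¹ * ω * d c) := by group
        rw [hdc c, MulAction.Quotient.smul_mk, MulAction.Quotient.smul_mk, smul_eq_mul, smul_eq_mul,
          h4, heig _ _ (hcore _ ω), mul_comm, ← hχa]
        rfl)
        ⟨((1 : Gam) : Gam ⧸ U'), Finset.mem_filter.2 ⟨Finset.mem_univ _, 1, Stab.one B, rfl⟩⟩
      rw [MulAction.Quotient.smul_mk, smul_eq_mul, mul_one] at h1
      exact h1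

end Crest.Agent.R18
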