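import Crest.Agent.R18.FD
import Crest.Agent.R18.Kum
import Crest.Agent.R18.GEN.Loc

/-! Row 18 block GEN: slimness and generic characters. -/

set_option autoImplicit false
set_option linter.unusedSectionVars false
open scoped Pointwise NumberField
open IsDedekindDomain Crest.NumberTheoryR

namespace Crest.Agent.R18

variable {F E : Type*} [Field F] [NumberField F] [Field E] [Algebra F E] [IsGalois F E]

/-- conjugation by `δ ∉ U` moves infinitely many independent characters of `U`, even after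
restriction to the open subgroup `U'` -/
theorem kl (hE : IsSolvablyClosed E) {s : ℕ} (hs : s.Prime) (U U' : Subgroup (E ≃ₐ[F] E))
    (hn : U.Normal) (hU' : IsOpen (U' : Set (E ≃ₐ[F] E))) (hle : U' ≤ U)
    (hμ : ∀ ζ : E, ζ ^ s = 1 → Fix U ζ) (δ : E ≃ₐ[F] E) (hδ : δ ∉ U) (m : ℕ) :
    ∃ ρ : Fin m → (E ≃ₐ[F] E) → ZMod s, (∀ j, IsChar U (ρ j)) ∧ ∀ a : Fin m → ZMod s,
      (∀ g ∈ U', ∑ j, a j * ρ j (δ * g * δ⁻¹) = ∑ j, a j * ρ j g) → a = 0 := by
  have : Fact s.Prime := ⟨hs⟩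
  have hU : IsOpen (U : Set (E ≃ₐ[F] E)) := Subgroup.isOpen_mono hle hU'
  induction m with
  | zero => exact ⟨Fin.elim0, fun j => j.elim0, fun a _ => Subsingleton.elim _ _⟩
  | succ m ih =>
    obtain ⟨ρ, hρ, hind⟩ := ih
    choose K hK using fun j => (hρ j).exists_ker
    let W : Subgroup (E ≃ₐ[F] E) := (U' ⊓ ⨅ j, K j).normalCore
    have hWo : IsOpen (W : Set (E ≃ₐ[F] E)) := by
      refine open_normalCore _ ?_
      rw [Subgroup.coe_inf, Subgroup.coe_iInf]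
      exact hU'.inter (isOpen_iInter_of_finite fun j => (hρ j).ker_open hU (hK j))
    have hW1 : W ≤ U' := (Subgroup.normalCore_le _).trans inf_le_left
    have hW2 : ∀ j, ∀ g ∈ W, ρ j g = 0 := fun j g hg =>
      ((hK j g).1 (((Subgroup.normalCore_le _).trans (inf_le_right.trans (iInf_le K j))) hg)).2
    obtain ⟨ρ', hρ', g₀, hg₀, hne⟩ := GEN.kl1 hE hs U W hn hWo (hW1.trans hle) hμ δ hδ
    refine ⟨Fin.cons ρ' ρ, fun j => Fin.cases hρ' hρ j, fun a ha => ?_⟩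
    simp only [Fin.sum_univ_succ, Fin.cons_zero, Fin.cons_succ] at ha
    have h0 : a 0 = 0 := by
      have h1 := ha g₀ (hW1 hg₀)
      have hg₁ : δ * g₀ * δ⁻¹ ∈ W := (Subgroup.normalCore_normal _).conj_mem g₀ hg₀ δ
      simp only [hW2 _ g₀ hg₀, hW2 _ _ hg₁, mul_zero, Finset.sum_const_zero, add_zero] at h1
      by_contra h
      exact hne (mul_left_cancel₀ h h1)
    simp only [h0, zero_mul, zero_add] at ha
    have h2 := hind (fun j => a j.succ) ha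
    funext j
    exact Fin.cases h0 (fun j => congrFun h2 j) j

theorem slim (hE : IsSolvablyClosed E) (U : Subgroup (E ≃ₐ[F] E))
    (hU : IsOpen (U : Set (E ≃ₐ[F] E))) (δ : E ≃ₐ[F] E) (h : ∀ g ∈ U, δ * g = g * δ) :
    δ = 1 := by
  by_contra hδ
  obtain ⟨x, hx⟩ : ∃ x, δ x ≠ x := by
    by_contra! h1
    exact hδ (AlgEquiv.ext h1)
  obtain ⟨W, -, hWo, hW⟩ := exists_open_fix (F := F) {x} (Set.finite_singleton x)
  let U₀ : Subgroup (E ≃ₐ[F] E) := (U ⊓ W).normalCore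
  have hU₀ : IsOpen (U₀ : Set (E ≃ₐ[F] E)) := open_normalCore _ (hU.inter hWo)
  obtain ⟨ρ, -, g, hg, hne⟩ := GEN.kl1 hE Nat.prime_two U₀ U₀ (Subgroup.normalCore_normal _) hU₀
    le_rfl (fun ζ hζ g _ => by rcases sq_eq_one_iff.1 hζ with rfl | rfl <;> simp) δ
    (fun hδ' => hx (hW x rfl δ (Subgroup.normalCore_le _ hδ').2))
  exact hne (by rw [h g (Subgroup.normalCore_le _ hg).1, mul_inv_cancel_right])

/-- invariant characters have infinite index -/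
theorem GEN.not_fin (hE : IsSolvablyClosed E) {s : ℕ} (hs : s.Prime)
    (U U' : Subgroup (E ≃ₐ[F] E)) (hn : U.Normal) (hU' : IsOpen (U' : Set (E ≃ₐ[F] E)))
    (hle : U' ≤ U) (hμ : ∀ ζ : E, ζ ^ s = 1 → Fix U ζ) (δ : E ≃ₐ[F] E) (hδ : δ ∉ U)
    (K : AddSubgroup (GEN.chars U s)) [K.FiniteIndex]
    (hK : ∀ ρ ∈ K, ∀ g ∈ U', ρ.1 (δ * g * δ⁻¹) = ρ.1 g) : False := by
  have : NeZero s := ⟨hs.ne_zero⟩
  obtain ⟨ρ, hρ, hind⟩ := kl hE hs U U' hn hU' hle hμ δ hδ K.index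
  let f : (Fin K.index → ZMod s) → GEN.chars U s := fun a =>
    ⟨fun g => ∑ j, a j * ρ j g, GEN.isChar_sum ρ hρ a⟩
  have hinj : Function.Injective fun a => (QuotientAddGroup.mk (f a) : GEN.chars U s ⧸ K) := by
    intro a b hab
    have h1 := hK _ (QuotientAddGroup.eq.1 hab)
    have h2 := hind (b - a) fun g hg => by
      have := h1 g hg
      simp only [f, AddSubgroup.coe_add, AddSubgroup.coe_neg, Pi.add_apply, Pi.neg_apply] at this
      simp only [Pi.sub_apply, sub_mul, Finset.sum_sub_distrib]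
      linear_combination this
    exact (sub_eq_zero.1 h2).symm
  have h3 := Nat.card_le_card_of_injective _ hinj
  rw [← AddSubgroup.index_eq_card, Nat.card_fun, Nat.card_zmod, Nat.card_eq_fintype_card,
    Fintype.card_fin] at h3
  exact absurd h3 (not_le.2 (Nat.lt_pow_self hs.one_lt))

/-- maximality at a finite level -/
theorem GEN.level (S : Setup F E) :
    ∃ G₀ : Subgroup (E ≃ₐ[F] E), IsOpen (G₀ : Set (E ≃ₐ[F] E)) ∧ ∀ γ : Gam, γ ∉ S.H →
      ∃ ω ∈ S.H.normalCore, S.a (γ * ω * γ⁻¹) * (S.a ω)⁻¹ ∉ G₀ := by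
  by_contra! h
  have hN := Subgroup.normalCore_normal S.H
  obtain ⟨γ, hγ⟩ := compact_levels (F := F) (E := E) (X := Gam)
    (fun W => {γ | γ ∉ S.H ∧ ∀ ω ∈ S.H.normalCore, S.a (γ * ω * γ⁻¹) * (S.a ω)⁻¹ ∈ W})
    (fun W _ hW => by
      have h1 : {γ : Gam | γ ∉ S.H ∧ ∀ ω ∈ S.H.normalCore, S.a (γ * ω * γ⁻¹) * (S.a ω)⁻¹ ∈ W} =
          (S.H : Set Gam)ᶜ ∩ ⋂ ω ∈ S.H.normalCore,
            (fun γ => S.a (γ * ω * γ⁻¹) * (S.a ω)⁻¹) ⁻¹' (W : Set (E ≃ₐ[F] E)) := by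
        ext γ; simp
      rw [h1]
      refine S.hH.isClosed_compl.inter (isClosed_biInter fun ω hω =>
        (W.isClosed_of_isOpen hW).preimage (Continuous.mul ?_ continuous_const))
      exact S.cont.comp_continuous (by fun_prop) fun γ =>
        Subgroup.normalCore_le _ (hN.conj_mem ω hω γ))
    (fun W _ hW => h W hW)
    (fun W W' _ _ _ _ hle γ hγ => ⟨hγ.1, fun ω hω => hle (hγ.2 ω hω)⟩)
  refine (hγ ⊤ inferInstance isOpen_univ).1 (S.max γ fun ω hω => ?_)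
  rw [← mul_inv_eq_one]
  refine AlgEquiv.ext fun x => ?_
  obtain ⟨W, hWn, hWo, hW⟩ := exists_open_fix (F := F) {x} (Set.finite_singleton x)
  exact hW x rfl _ ((hγ W hWn hWo).2 ω hω)

theorem gen (hE : IsSolvablyClosed E) (S : Setup F E) :
    ∃ G₀ : Subgroup (E ≃ₐ[F] E), IsOpen (G₀ : Set (E ≃ₐ[F] E)) ∧
      ∀ G' : Subgroup (E ≃ₐ[F] E), G' ≤ G₀ → G'.Normal → IsOpen (G' : Set (E ≃ₐ[F] E)) →
      ∀ s : ℕ, s.Prime → (∀ ζ : E, ζ ^ s = 1 → Fix G' ζ) →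
      ∀ (A : ValuationSubring E) (q : ℕ), Over A q → q ≠ s →
        ∃ ρ : (E ≃ₐ[F] E) → ZMod s, IsChar G' ρ ∧ (∃ g ∈ G', ρ g ≠ 0) ∧
          Generic (S.pre G') (fun x => ρ (S.a x)) ∧ ∀ g ∈ G', Stab A g → ρ g = 0 := by
  classical
  obtain ⟨G₁, hG₁, hlev⟩ := GEN.level S
  obtain ⟨G₀, hle₀, -, hG₀, hidx, -⟩ := exists_level hE G₁ hG₁ ∅ Set.finite_empty 2
  refine ⟨G₀, hG₀, fun G' hle hn ho s hs hμ A q hA hq => ?_⟩
  have : NeZero s := ⟨hs.ne_zero⟩
  set H' := S.pre G' with hH'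
  have hH'o : IsOpen (H' : Set Gam) := S.pre_open G' ho
  have hN'o : IsOpen (H'.normalCore : Set Gam) := open_normalCore H' hH'o
  have hN' := Subgroup.normalCore_normal H'
  have hN'H' : H'.normalCore ≤ H' := Subgroup.normalCore_le _
  have hN'H : H'.normalCore ≤ S.H := hN'H'.trans (S.pre_le G')
  obtain ⟨U', hU'o, hU', -⟩ := S.exists_image H'.normalCore hN'H hN'o
  have hU'le : U' ≤ G' := fun g hg => by
    obtain ⟨h, hh, rfl⟩ := (hU' g).1 hg
    exact (hN'H' hh).2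
  have aconj : ∀ x ∈ S.H, ∀ y ∈ S.H, S.a (x * y * x⁻¹) = S.a x * S.a y * (S.a x)⁻¹ := by
    intro x hx y hy
    rw [S.mul _ (S.H.mul_mem hx hy) _ (S.H.inv_mem hx), S.mul x hx y hy, S.a_inv hx]
  let V : Gam → AddSubgroup (GEN.chars G' s) := fun γ => GEN.eqSub G' s
    fun x y => ∃ ω ∈ H'.normalCore, x = S.a (γ * ω * γ⁻¹) ∧ y = S.a ω
  have hV : ∀ γ ρ, ρ ∈ V γ ↔ ∀ ω ∈ H'.normalCore, ρ.1 (S.a (γ * ω * γ⁻¹)) = ρ.1 (S.a ω) :=
    fun γ ρ => ⟨fun h ω hω => h _ _ ⟨ω, hω, rfl, rfl⟩, fun h x y ⟨ω, hω, hx, hy⟩ => by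
      rw [hx, hy]; exact h ω hω⟩
  -- the subgroups `V γ` have infinite index
  have hinf : ∀ γ, γ ∉ H' → ¬ (V γ).FiniteIndex := by
    intro γ hγ hfin
    by_cases hγH : γ ∈ S.H
    · refine GEN.not_fin hE hs G' U' hn hU'o hU'le hμ (S.a γ) (fun h => hγ ⟨hγH, h⟩) (V γ)
        fun ρ hρ g hg => ?_
      obtain ⟨ω, hω, rfl⟩ := (hU' g).1 hg
      rw [← aconj γ hγH ω (hN'H hω)]
      exact (hV γ ρ).1 hρ ω hω
    · obtain ⟨ω, hω, hne⟩ := hlev γ hγH
      have hωH : ω ∈ S.H := Subgroup.normalCore_le _ hω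
      have hωH' : γ * ω * γ⁻¹ ∈ S.H :=
        Subgroup.normalCore_le _ ((Subgroup.normalCore_normal S.H).conj_mem ω hω γ)
      set b := S.a (γ * ω * γ⁻¹) with hb
      have : ((V γ).comap (GEN.conjC G' hn s b)).FiniteIndex := ⟨by
        rw [AddSubgroup.index_comap]
        exact fun h => hfin.index_ne_zero (AddSubgroup.index_eq_zero_of_relIndex_eq_zero h)⟩
      refine GEN.not_fin hE hs G' U' hn hU'o hU'le hμ (b * (S.a ω)⁻¹)
        (fun h => hne (hle₀ (hle h))) (V γ ⊓ (V γ).comap (GEN.conjC G' hn s b))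
        fun ρ hρ g hg => ?_
      obtain ⟨ω', hω', rfl⟩ := (hU' g).1 hg
      have hω'' : ω⁻¹ * ω' * ω⁻¹⁻¹ ∈ H'.normalCore := hN'.conj_mem ω' hω' ω⁻¹
      have e1 := (hV γ ρ).1 hρ.1 ω' hω'
      have e2 := (hV γ _).1 hρ.2 _ hω''
      simp only [GEN.conjC, AddMonoidHom.coe_mk, ZeroHom.coe_mk] at e2
      rw [← aconj _ hωH' _ (hN'H (hN'.conj_mem _ hω'' γ)),
        aconj _ (S.H.inv_mem hωH) _ (hN'H hω'), S.a_inv hωH] at e2
      rw [← e1]
      refine Eq.trans ?_ (e2.symm.trans ?_)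
      · exact congrArg ρ.1 (by group)
      · exact congrArg (fun t => ρ.1 (S.a t)) (by group)
  obtain ⟨σ, i₀, hloc⟩ := GEN.loc2 hE hs G' ho hμ hA hq
  let V₀ := (GEN.ev2 G' s σ i₀).ker
  have hV₀ : V₀.FiniteIndex := inferInstance
  have hfi : H'.normalCore.FiniteIndex := finiteIndex_of_open _ hN'o
  have : Fintype (Gam ⧸ H'.normalCore) := Fintype.ofFinite _
  have hex : ∃ ρ ∈ V₀, ∀ γ, γ ∉ H' → ρ ∉ V γ := by
    by_contra! hall
    obtain ⟨c, hc, hfin⟩ := AddSubgroup.exists_finiteIndex_of_leftCoset_cover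
      (s := Finset.univ.filter fun c : Gam ⧸ H'.normalCore => c.out ∉ H')
      (H := fun c => (V c.out).addSubgroupOf V₀) (g := fun _ => 0) (by
        refine Set.eq_univ_of_forall fun ρ => ?_
        obtain ⟨γ, hγ, hρ⟩ := hall ρ.1 ρ.2
        obtain ⟨n, hn'⟩ := QuotientGroup.mk_out_eq_mul H'.normalCore γ
        simp only [zero_vadd, Set.mem_iUnion, Finset.mem_filter, Finset.mem_univ, true_and]
        refine ⟨QuotientGroup.mk γ, ?_, ?_⟩
        · rw [hn']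
          exact fun h => hγ ((H'.mul_mem_cancel_right (hN'H' n.2)).1 h)
        · rw [SetLike.mem_coe, AddSubgroup.mem_addSubgroupOf, hn', hV]
          intro ω hω
          have e1 := (hV γ _).1 hρ _ (hN'.conj_mem ω hω n)
          have e2 := (S.isChar_comp ρ.1.2).conj (hN'H' n.2) (hN'H' hω)
          refine Eq.trans ?_ (e1.trans e2)
          exact congrArg (fun t => ρ.1.1 (S.a t)) (by group))
    refine hinf _ (Finset.mem_filter.1 hc).2 ⟨?_⟩
    rw [← AddSubgroup.relIndex_top_right]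
    exact AddSubgroup.relIndex_ne_zero_trans hfin.index_ne_zero
      (by rw [AddSubgroup.relIndex_top_right]; exact hV₀.index_ne_zero)
  obtain ⟨ρ, hρ₀, hρ⟩ := hex
  have hgen : Generic H' (fun x => ρ.1 (S.a x)) := fun γ hγ => by
    have := hρ γ hγ
    rw [hV] at this
    push Not at this
    exact this
  have h0 : (ρ.1 σ, ρ.1 i₀) = (0, 0) := hρ₀
  refine ⟨ρ.1, ρ.2, ?_, hgen, hloc ρ.1 ρ.2 (Prod.mk.inj h0).1 (Prod.mk.inj h0).2⟩
  obtain ⟨δ, hδ⟩ : ∃ δ, δ ∉ G₀ := by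
    by_contra! h
    rw [(Subgroup.eq_top_iff' G₀).2 h, Subgroup.index_top] at hidx
    omega
  obtain ⟨γ, -, rfl⟩ := S.surj δ
  obtain ⟨ω, hω, hne⟩ := hgen γ fun h => hδ (hle h.2)
  by_contra! h
  exact hne ((h _ (hN'H' (hN'.conj_mem ω hω γ)).2).trans (h _ (hN'H' hω).2).symm)

end Crest.Agent.R18
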