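import Crest.Agent.R18.SC

/-! Row 18 toolkit: open subgroups, levels, characters, setups. -/

set_option autoImplicit false
set_option linter.unusedSectionVars false
open scoped Pointwise NumberField
open IsDedekindDomain Crest.NumberTheoryR

namespace Crest.Agent.R18

variable {F E : Type*} [Field F] [NumberField F] [Field E] [Algebra F E] [IsGalois F E]

theorem finiteIndex_of_open (U : Subgroup (E ≃ₐ[F] E)) (hU : IsOpen (U : Set (E ≃ₐ[F] E))) :
    U.FiniteIndex := by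
  have := U.quotient_finite_of_isOpen hU
  exact U.finiteIndex_of_finite_quotient

theorem open_normalCore (U : Subgroup (E ≃ₐ[F] E)) (hU : IsOpen (U : Set (E ≃ₐ[F] E))) :
    IsOpen (U.normalCore : Set (E ≃ₐ[F] E)) := by
  have := finiteIndex_of_open U hU
  exact Subgroup.isOpen_of_isClosed_of_finiteIndex _
    (U.normalCore_isClosed (U.isClosed_of_isOpen hU))

/-- an open normal subgroup fixing finitely many elements -/
theorem exists_open_fix (T : Set E) (hT : T.Finite) :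
    ∃ W : Subgroup (E ≃ₐ[F] E), W.Normal ∧ IsOpen (W : Set (E ≃ₐ[F] E)) ∧ ∀ x ∈ T, Fix W x := by
  have : Finite T := hT
  have : FiniteDimensional F (IntermediateField.adjoin F T) :=
    IntermediateField.finiteDimensional_adjoin fun x _ => Algebra.IsIntegral.isIntegral x
  exact ⟨_, inferInstance, open_normalCore _ (IntermediateField.adjoin F T).fixingSubgroup_isOpen,
    fun x hx g hg => (IntermediateField.mem_fixingSubgroup_iff _ _).1
      (Subgroup.normalCore_le _ hg) x (IntermediateField.subset_adjoin F T hx)⟩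

/-- every neighbourhood of `1` contains an open normal subgroup -/
theorem exists_open_normal_subset (V : Set (E ≃ₐ[F] E)) (hV : V ∈ nhds (1 : E ≃ₐ[F] E)) :
    ∃ W : Subgroup (E ≃ₐ[F] E), W.Normal ∧ IsOpen (W : Set (E ≃ₐ[F] E)) ∧
      (W : Set (E ≃ₐ[F] E)) ⊆ V := by
  obtain ⟨L, hL, h⟩ := (krullTopology_mem_nhds_one_iff F E V).1 hV
  exact ⟨_, inferInstance, open_normalCore _ L.fixingSubgroup_isOpen,
    fun g hg => h (Subgroup.normalCore_le _ hg)⟩

theorem mem_of_fix (U : Subgroup (E ≃ₐ[F] E)) (hU : IsClosed (U : Set (E ≃ₐ[F] E)))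
    (g : E ≃ₐ[F] E) (h : ∀ x, Fix U x → g x = x) : g ∈ U := by
  have e : (IntermediateField.fixedField U).fixingSubgroup = U :=
    InfiniteGalois.fixingSubgroup_fixedField ⟨U, hU⟩
  rw [← e, IntermediateField.mem_fixingSubgroup_iff]
  exact fun x hx => h x ((IntermediateField.mem_fixedField_iff _ _).1 hx)

theorem fix_iff_mem (U : Subgroup (E ≃ₐ[F] E)) (x : E) :
    Fix U x ↔ x ∈ IntermediateField.fixedField U := by
  exact (IntermediateField.mem_fixedField_iff _ _).symm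

theorem numberField_fixedField (U : Subgroup (E ≃ₐ[F] E)) (hU : IsOpen (U : Set (E ≃ₐ[F] E))) :
    NumberField (IntermediateField.fixedField U) := by
  have e : (IntermediateField.fixedField U).fixingSubgroup = U :=
    InfiniteGalois.fixingSubgroup_fixedField ⟨U, U.isClosed_of_isOpen hU⟩
  have : FiniteDimensional F (IntermediateField.fixedField U) :=
    (InfiniteGalois.isOpen_iff_finite _).1 (by rw [e]; exact hU)
  exact NumberField.of_module_finite F _

theorem finrank_fixedField (U : Subgroup (E ≃ₐ[F] E)) (hU : IsOpen (U : Set (E ≃ₐ[F] E))) :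
    Module.finrank F (IntermediateField.fixedField U) = U.index := by
  have e : (IntermediateField.fixedField U).fixingSubgroup = U :=
    InfiniteGalois.fixingSubgroup_fixedField ⟨U, U.isClosed_of_isOpen hU⟩
  rw [IntermediateField.finrank_eq_fixingSubgroup_index, e]

/-- arbitrarily deep levels -/
theorem exists_level (hE : IsSolvablyClosed E) (U : Subgroup (E ≃ₐ[F] E))
    (hU : IsOpen (U : Set (E ≃ₐ[F] E))) (T : Set E) (hT : T.Finite) (m : ℕ) :
    ∃ W : Subgroup (E ≃ₐ[F] E), W ≤ U ∧ W.Normal ∧ IsOpen (W : Set (E ≃ₐ[F] E)) ∧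
      m ≤ W.index ∧ ∀ x ∈ T, Fix W x := by
  have := cz F E
  obtain ⟨p, hp, hp'⟩ := Nat.exists_infinite_primes (Module.finrank ℚ F * m + 1)
  obtain ⟨ζ, hζ⟩ := sc_prim hE hp'.pos
  obtain ⟨W, h1, h2, h3⟩ := exists_open_fix (F := F) (insert ζ T) (hT.insert ζ)
  have ho : IsOpen ((W ⊓ U.normalCore : Subgroup (E ≃ₐ[F] E)) : Set (E ≃ₐ[F] E)) :=
    h2.inter (open_normalCore U hU)
  have hf : ∀ x ∈ insert ζ T, Fix (W ⊓ U.normalCore) x := fun x hx g hg => h3 x hx g hg.1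
  refine ⟨W ⊓ U.normalCore, inf_le_right.trans U.normalCore_le, inferInstance, ho, ?_,
    fun x hx => hf x (Set.mem_insert_of_mem _ hx)⟩
  have := numberField_fixedField _ ho
  have hz : IsPrimitiveRoot (⟨ζ, (fix_iff_mem _ _).1 (hf ζ (Set.mem_insert _ _))⟩ :
      IntermediateField.fixedField (W ⊓ U.normalCore)) p :=
    IsPrimitiveRoot.of_map_of_injective (f := (IntermediateField.fixedField _).subtype) hζ
      Subtype.val_injective
  have h4 := hz.lcm_totient_le_finrank (K := ℚ) hz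
    (Polynomial.cyclotomic.irreducible_rat (Nat.lcm_pos hp'.pos hp'.pos))
  rw [Nat.lcm_self, Nat.totient_prime hp', ← Module.finrank_mul_finrank ℚ F,
    finrank_fixedField _ ho] at h4
  exact Nat.le_of_mul_le_mul_left (show _ ≤ Module.finrank ℚ F * _ by omega) Module.finrank_pos

/-- compactness over the directed set of open normal subgroups -/
theorem compact_levels {X : Type*} [TopologicalSpace X] [CompactSpace X]
    (C : Subgroup (E ≃ₐ[F] E) → Set X)
    (hc : ∀ W : Subgroup (E ≃ₐ[F] E), W.Normal → IsOpen (W : Set (E ≃ₐ[F] E)) → IsClosed (C W))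
    (hn : ∀ W : Subgroup (E ≃ₐ[F] E), W.Normal → IsOpen (W : Set (E ≃ₐ[F] E)) → (C W).Nonempty)
    (hm : ∀ W W' : Subgroup (E ≃ₐ[F] E), W.Normal → IsOpen (W : Set (E ≃ₐ[F] E)) → W'.Normal →
      IsOpen (W' : Set (E ≃ₐ[F] E)) → W ≤ W' → C W ⊆ C W') :
    ∃ x, ∀ W : Subgroup (E ≃ₐ[F] E), W.Normal → IsOpen (W : Set (E ≃ₐ[F] E)) → x ∈ C W := by
  have : Nonempty {W : Subgroup (E ≃ₐ[F] E) // W.Normal ∧ IsOpen (W : Set (E ≃ₐ[F] E))} :=
    ⟨⟨⊤, inferInstance, isOpen_univ⟩⟩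
  obtain ⟨x, hx⟩ := IsCompact.nonempty_iInter_of_directed_nonempty_isCompact_isClosed
    (fun W : {W : Subgroup (E ≃ₐ[F] E) // W.Normal ∧ IsOpen (W : Set (E ≃ₐ[F] E))} => C W.1)
    (fun W W' => by
      have := W.2.1
      have := W'.2.1
      have ho : IsOpen ((W.1 ⊓ W'.1 : Subgroup (E ≃ₐ[F] E)) : Set (E ≃ₐ[F] E)) :=
        W.2.2.inter W'.2.2
      exact ⟨⟨W.1 ⊓ W'.1, inferInstance, ho⟩, hm _ _ inferInstance ho W.2.1 W.2.2 inf_le_left,
        hm _ _ inferInstance ho W'.2.1 W'.2.2 inf_le_right⟩)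
    (fun W => hn W.1 W.2.1 W.2.2) (fun W => (hc W.1 W.2.1 W.2.2).isCompact)
    fun W => hc W.1 W.2.1 W.2.2
  exact ⟨x, fun W h h' => Set.mem_iInter.1 hx ⟨W, h, h'⟩⟩

theorem ProL.exists_pow_fix {ℓ : ℕ} {t : E ≃ₐ[F] E} (h : ProL ℓ t) (x : E) :
    ∃ n : ℕ, (t ^ (ℓ ^ n)) x = x := by
  exact h _ (stabilizer_isOpen_of_isIntegral x)

/-- a pro-`ℓ` element some prime-to-`ℓ` power of which lies in the open subgroup `U` lies in `U` -/
theorem ProL.mem_of_pow {ℓ : ℕ} {t : E ≃ₐ[F] E} (h : ProL ℓ t) (U : Subgroup (E ≃ₐ[F] E))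
    (hU : IsOpen (U : Set (E ≃ₐ[F] E))) (m : ℕ) (hm : Nat.Coprime m ℓ) (ht : t ^ m ∈ U) :
    t ∈ U := by
  obtain ⟨n, hn⟩ := h U hU
  have h1 := U.mul_mem (U.zpow_mem ht (Nat.gcdA m (ℓ ^ n))) (U.zpow_mem hn (Nat.gcdB m (ℓ ^ n)))
  rwa [← zpow_natCast, ← zpow_natCast, ← zpow_mul, ← zpow_mul, ← zpow_add, ← Nat.gcd_eq_gcd_ab,
    hm.pow_right n, Nat.cast_one, zpow_one] at h1

section chars
variable {G R : Type*} [Group G] [TopologicalSpace G] [IsTopologicalGroup G] [AddCommGroup R]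
  [TopologicalSpace R] {U : Subgroup G} {η : G → R}

theorem IsChar.one (h : IsChar U η) : η 1 = 0 := by
  have h1 := h.1 1 U.one_mem 1 U.one_mem
  rw [mul_one] at h1
  exact left_eq_add.1 h1

theorem IsChar.inv (h : IsChar U η) {x : G} (hx : x ∈ U) : η x⁻¹ = - η x := by
  have h1 := h.1 x hx x⁻¹ (U.inv_mem hx)
  rw [mul_inv_cancel, h.one] at h1
  exact eq_neg_of_add_eq_zero_right h1.symm

theorem IsChar.pow (h : IsChar U η) {x : G} (hx : x ∈ U) (n : ℕ) : η (x ^ n) = n • η x := by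
  induction n with
  | zero => rw [pow_zero, h.one, zero_smul]
  | succ n ih => rw [pow_succ, h.1 _ (U.pow_mem hx n) _ hx, ih, succ_nsmul]

theorem IsChar.zpow (h : IsChar U η) {x : G} (hx : x ∈ U) (n : ℤ) : η (x ^ n) = n • η x := by
  obtain ⟨m, rfl | rfl⟩ := n.eq_nat_or_neg
  · rw [zpow_natCast, h.pow hx, natCast_zsmul]
  · rw [zpow_neg, zpow_natCast, h.inv (U.pow_mem hx m), h.pow hx, neg_smul, natCast_zsmul]

theorem IsChar.conj (h : IsChar U η) {x y : G} (hx : x ∈ U) (hy : y ∈ U) :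
    η (x * y * x⁻¹) = η y := by
  rw [h.1 _ (U.mul_mem hx hy) _ (U.inv_mem hx), h.1 _ hx _ hy, h.inv hx]
  abel

theorem IsChar.mono (h : IsChar U η) {U' : Subgroup G} (hle : U' ≤ U) : IsChar U' η := by
  exact ⟨fun x hx y hy => h.1 x (hle hx) y (hle hy), h.2.mono hle⟩

theorem IsChar.exists_ker (h : IsChar U η) :
    ∃ K : Subgroup G, ∀ g, g ∈ K ↔ g ∈ U ∧ η g = 0 := by
  exact ⟨{ carrier := {g | g ∈ U ∧ η g = 0}
           one_mem' := ⟨U.one_mem, h.one⟩
           mul_mem' := fun {x y} hx hy =>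
             ⟨U.mul_mem hx.1 hy.1, by rw [h.1 x hx.1 y hy.1, hx.2, hy.2, add_zero]⟩
           inv_mem' := fun {x} hx => ⟨U.inv_mem hx.1, by rw [h.inv hx.1, hx.2, neg_zero]⟩ },
    fun _ => Iff.rfl⟩

theorem IsChar.ker_open [DiscreteTopology R] (h : IsChar U η) (hU : IsOpen (U : Set G))
    {K : Subgroup G} (hK : ∀ g, g ∈ K ↔ g ∈ U ∧ η g = 0) : IsOpen (K : Set G) := by
  have h1 : (K : Set G) = (U : Set G) ∩ η ⁻¹' {0} := Set.ext fun g => hK g
  rw [h1]
  exact h.2.isOpen_inter_preimage hU (isOpen_discrete _)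

theorem IsChar.ker_closed [T1Space R] (h : IsChar U η) (hU : IsClosed (U : Set G))
    {K : Subgroup G} (hK : ∀ g, g ∈ K ↔ g ∈ U ∧ η g = 0) : IsClosed (K : Set G) := by
  have h1 : (K : Set G) = (U : Set G) ∩ η ⁻¹' {0} := Set.ext fun g => hK g
  rw [h1]
  exact h.2.preimage_isClosed_of_isClosed hU isClosed_singleton

/-- restriction to a subgroup of index prime to `s` is injective on `ZMod s`-characters -/
theorem IsChar.eq_zero_of_relIndex {s : ℕ} {ρ : G → ZMod s} (h : IsChar U ρ) {U' : Subgroup G}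
    (hle : U' ≤ U) (hi : Nat.Coprime (U'.relIndex U) s) (h0 : ∀ g ∈ U', ρ g = 0) :
    ∀ g ∈ U, ρ g = 0 := by
  intro g hg
  obtain ⟨K, hK⟩ := h.exists_ker
  have hn : (K.subgroupOf U).Normal := ⟨fun x hx y => by
    rw [Subgroup.mem_subgroupOf] at hx ⊢
    refine (hK _).2 ⟨(y * x * y⁻¹).2, ?_⟩
    push_cast
    rw [h.conj y.2 x.2, ((hK _).1 hx).2]⟩
  have h1 : K.relIndex U ∣ U'.relIndex U :=
    Subgroup.relIndex_dvd_of_le_left U fun x hx => (hK x).2 ⟨hle hx, h0 x hx⟩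
  obtain ⟨m, hm⟩ := h1
  have h2 : (⟨g, hg⟩ : U) ^ K.relIndex U ∈ K.subgroupOf U := Subgroup.pow_index_mem _ _
  rw [Subgroup.mem_subgroupOf] at h2
  have h3 := ((hK _).1 (K.pow_mem h2 m)).2
  push_cast at h3
  rw [← pow_mul, ← hm, h.pow hg, nsmul_eq_mul] at h3
  exact (((ZMod.isUnit_iff_coprime _ _).2 hi).mul_right_eq_zero).1 h3

end chars

theorem grpb_galois : IsGalois ℚ Qb :=
  @IsAlgClosure.isGalois ℚ Qb _ _ (AlgebraicClosure.instAlgebra ℚ) _ _

/-- the homomorphism underlying a setup -/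
def PreSetup.grpbHom (S : PreSetup F E) : S.H →* (E ≃ₐ[F] E) where
  toFun h := S.a h
  map_one' := S.a_one
  map_mul' x y := S.mul x x.2 y y.2

theorem PreSetup.grpbHom_surj (S : PreSetup F E) : Function.Surjective S.grpbHom := fun g => by
  obtain ⟨h, hh, rfl⟩ := S.surj g
  exact ⟨⟨h, hh⟩, rfl⟩

theorem PreSetup.a_pow (S : PreSetup F E) {x : Gam} (hx : x ∈ S.H) (n : ℕ) :
    S.a (x ^ n) = S.a x ^ n := by
  exact map_pow S.grpbHom ⟨x, hx⟩ n

theorem PreSetup.pre_le (S : PreSetup F E) (G' : Subgroup (E ≃ₐ[F] E)) : S.pre G' ≤ S.H := by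
  exact fun _ hx => hx.1

theorem PreSetup.pre_open (S : PreSetup F E) (G' : Subgroup (E ≃ₐ[F] E))
    (h : IsOpen (G' : Set (E ≃ₐ[F] E))) : IsOpen (S.pre G' : Set Gam) := by
  exact S.cont.isOpen_inter_preimage S.hH h

theorem PreSetup.pre_relIndex (S : PreSetup F E) (G' : Subgroup (E ≃ₐ[F] E)) :
    (S.pre G').relIndex S.H = G'.index := by
  have h1 : (S.pre G').subgroupOf S.H = G'.comap S.grpbHom := by
    ext x
    exact ⟨fun hx => hx.2, fun hx => ⟨x.2, hx⟩⟩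
  rw [Subgroup.relIndex, h1, Subgroup.index_comap_of_surjective _ S.grpbHom_surj]

/-- the image of an open subgroup of `S.H` is an open subgroup of index dividing the index -/
theorem PreSetup.exists_image (S : PreSetup F E) (U : Subgroup Gam) (hle : U ≤ S.H)
    (hU : IsOpen (U : Set Gam)) :
    ∃ U' : Subgroup (E ≃ₐ[F] E), IsOpen (U' : Set (E ≃ₐ[F] E)) ∧
      (∀ g, g ∈ U' ↔ ∃ h ∈ U, S.a h = g) ∧ U'.index ∣ U.relIndex S.H := by
  have := grpb_galois
  have hmem : ∀ g, g ∈ (U.subgroupOf S.H).map S.grpbHom ↔ ∃ h ∈ U, S.a h = g := fun g =>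
    ⟨fun ⟨x, hx, h⟩ => ⟨x, hx, h⟩, fun ⟨x, hx, h⟩ => ⟨⟨x, hle hx⟩, hx, h⟩⟩
  have hdvd : ((U.subgroupOf S.H).map S.grpbHom).index ∣ U.relIndex S.H :=
    Subgroup.index_map_dvd _ S.grpbHom_surj
  refine ⟨_, ?_, hmem, hdvd⟩
  have := finiteIndex_of_open U hU
  have h0 : U.relIndex S.H ≠ 0 := Subgroup.FiniteIndex.index_ne_zero
  have : ((U.subgroupOf S.H).map S.grpbHom).FiniteIndex := ⟨ne_zero_of_dvd_ne_zero h0 hdvd⟩
  apply Subgroup.isOpen_of_isClosed_of_finiteIndex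
  have h1 : (((U.subgroupOf S.H).map S.grpbHom : Subgroup (E ≃ₐ[F] E)) : Set (E ≃ₐ[F] E)) =
      S.a '' (U : Set Gam) := Set.ext fun g => hmem g
  rw [h1]
  exact ((U.isClosed_of_isOpen hU).isCompact.image_of_continuousOn (S.cont.mono hle)).isClosed

theorem PreSetup.isChar_comp (S : PreSetup F E) {R : Type*} [AddCommGroup R] [TopologicalSpace R]
    {G' : Subgroup (E ≃ₐ[F] E)} {η : (E ≃ₐ[F] E) → R} (h : IsChar G' η) :
    IsChar (S.pre G') (fun x => η (S.a x)) := by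
  refine ⟨fun x hx y hy => ?_, h.2.comp (S.cont.mono (S.pre_le G')) fun x hx => hx.2⟩
  beta_reduce
  rw [S.mul x hx.1 y hy.1, h.1 _ hx.2 _ hy.2]

theorem PreSetup.proL (S : PreSetup F E) {ℓ : ℕ} {τ : Gam} (hτ : τ ∈ S.H) (h : ProL ℓ τ) :
    ProL ℓ (S.a τ) := by
  intro W hW
  obtain ⟨n, hn⟩ := h (S.pre W) (S.pre_open W hW)
  exact ⟨n, S.a_pow hτ _ ▸ hn.2⟩

end Crest.Agent.R18
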