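import Crest.Agent.R18.Tower
import Crest.Agent.R18.Dec
import Crest.Agent.R18.Kum
import Crest.Agent.R18.LOC.Ram

/-! Row 18 block LOC: tame inertia. -/

set_option autoImplicit false
set_option linter.unusedSectionVars false
open scoped Pointwise NumberField
open IsDedekindDomain Crest.NumberTheoryR

namespace Crest.Agent.R18

variable {F E : Type*} [Field F] [NumberField F] [Field E] [Algebra F E] [IsGalois F E]

namespace LOC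

variable {A : ValuationSubring E} {p : ℕ}

theorem sylow_conj {Q : Type*} [Group Q] [Finite Q] {ℓ : ℕ} (hℓ : ℓ.Prime) {a b : Q} {k : ℕ}
    (ha : a ^ ℓ ^ k = 1) (hb : b ^ ℓ ^ k = 1) (N : ℕ) :
    ∃ (h : Q) (m : ℕ), (h * a * h⁻¹ * (b ^ N)⁻¹) ^ ℓ ^ m = 1 := by
  have : Fact ℓ.Prime := ⟨hℓ⟩
  have hp : ∀ {x : Q}, x ^ ℓ ^ k = 1 → IsPGroup ℓ (Subgroup.zpowers x) := fun hx =>
    IsPGroup.of_card_dvd_pow (by rw [Nat.card_zpowers]; exact orderOf_dvd_of_pow_eq_one hx)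
  obtain ⟨S, hS⟩ := (hp ha).exists_le_sylow
  obtain ⟨T, hT⟩ := (hp hb).exists_le_sylow
  obtain ⟨h, hh⟩ := MulAction.exists_smul_eq Q S T
  have h1 : h * a * h⁻¹ ∈ (T : Subgroup Q) := by
    rw [← hh, Sylow.coe_subgroup_smul]
    exact Subgroup.smul_mem_pointwise_smul a (MulAut.conj h) _ (hS (Subgroup.mem_zpowers a))
  obtain ⟨m, hm⟩ := T.isPGroup' ⟨_, (T : Subgroup Q).mul_mem h1
    (Subgroup.inv_mem _ (Subgroup.pow_mem _ (hT (Subgroup.mem_zpowers b)) N))⟩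
  exact ⟨h, m, congrArg Subtype.val hm⟩

theorem level (U : Subgroup (E ≃ₐ[F] E)) {ℓ : ℕ} (hℓ : ℓ.Prime) (hA : Over A p) (hp : p ≠ ℓ)
    {σ₀ τ₀ : E ≃ₐ[F] E} (h₀ : σ₀ ∈ U) {N : ℕ} (hσ₀ : Frob A σ₀ N) (hτU : τ₀ ∈ U)
    (hτ : Inert A τ₀) {z : E} (hz : τ₀ (z ^ ℓ) = z ^ ℓ) (hne : τ₀ z ≠ z)
    (W : Subgroup (E ≃ₐ[F] E)) (hn : W.Normal) (hW : IsOpen (W : Set (E ≃ₐ[F] E))) :
    ∃ σ ∈ U, ∃ τ ∈ U, Frob A σ N ∧ Inert A τ ∧ τ z ≠ z ∧ (∃ n : ℕ, τ ^ ℓ ^ n ∈ W) ∧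
      σ * τ * σ⁻¹ * (τ ^ N)⁻¹ ∈ W := by
  have := finiteIndex_of_open W hW
  obtain ⟨k, m, hm, hkm⟩ := Nat.exists_eq_pow_mul_and_not_dvd
    (Subgroup.FiniteIndex.index_ne_zero (H := W)) ℓ hℓ.ne_one
  have hz0 : z ≠ 0 := by rintro rfl; simp at hne
  have hpl : ¬ p ∣ ℓ := fun h => hp ((Nat.prime_dvd_prime_iff_eq hA.1 hℓ).1 h)
  obtain ⟨ζ, hζ⟩ : ∃ ζ, τ₀ z = ζ * z := ⟨τ₀ z / z, by field_simp⟩
  have hζℓ : ζ ^ ℓ = 1 := by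
    rw [map_pow, hζ, mul_pow] at hz
    exact (mul_eq_right₀ (pow_ne_zero _ hz0)).1 hz
  have hζv : A.valuation ζ = 1 := by
    refine (pow_eq_one_iff_of_nonneg zero_le hℓ.ne_zero).1 ?_
    rw [← map_pow, hζℓ, map_one]
  have hζf : τ₀ ζ = ζ := hτ.fix_root hA hpl hζv (by rw [hζℓ, map_one])
  have hpow : ∀ j : ℕ, (τ₀ ^ j) z = ζ ^ j * z := fun j => by
    induction j with
    | zero => simp
    | succ j ih => rw [pow_succ', AlgEquiv.mul_apply, ih, map_mul, map_pow, hζf, hζ]; ring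
  have hτz : (τ₀ ^ m) z ≠ z := by
    rw [hpow, Ne, mul_eq_right₀ hz0]
    intro h
    have : Fact ℓ.Prime := ⟨hℓ⟩
    have h1 : ζ ≠ 1 := fun h => hne (by rw [hζ, h, one_mul])
    exact hm (orderOf_eq_prime hζℓ h1 ▸ orderOf_dvd_of_pow_eq_one h)
  set τ := τ₀ ^ m
  have hτk : τ ^ ℓ ^ k ∈ W := by
    rw [← pow_mul, mul_comm, ← hkm]
    exact W.pow_index_mem τ₀
  have hτU' : τ ∈ U := U.pow_mem hτU m
  have hτ' : Inert A τ := hτ.pow m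
  set J := U ⊓ IG F A
  let a : J := ⟨σ₀ * τ * σ₀⁻¹, U.mul_mem (U.mul_mem h₀ hτU') (U.inv_mem h₀), hτ'.conj_stab hσ₀.1⟩
  let b : J := ⟨τ, hτU', hτ'⟩
  have hq : ∀ (x : J) (n : ℕ), (x : J ⧸ W.subgroupOf J) ^ n = 1 ↔ x.1 ^ n ∈ W := fun x n => by
    rw [← QuotientGroup.mk_pow, QuotientGroup.eq_one_iff, Subgroup.mem_subgroupOf]
    rfl
  obtain ⟨h, j, hj⟩ := sylow_conj hℓ ((hq a (ℓ ^ k)).2 (by
    rw [conj_pow]; exact hn.conj_mem _ hτk _)) ((hq b (ℓ ^ k)).2 hτk) N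
  obtain ⟨h, rfl⟩ := QuotientGroup.mk_surjective h
  have h1 := (hq (h * a * h⁻¹ * (b ^ N)⁻¹) (ℓ ^ j)).1 hj
  obtain ⟨n, h2⟩ := (wild_conj hσ₀ hτ' h.2.2).exists_pow hA W hn hW
  have h3 : h.1 * (σ₀ * τ * σ₀⁻¹) * h.1⁻¹ * (τ ^ N)⁻¹ ∈ W := by
    have hc : Nat.Coprime (ℓ ^ j) (p ^ n) :=
      Nat.Coprime.pow _ _ ((Nat.coprime_primes hℓ hA.1).2 hp.symm)
    rw [← QuotientGroup.eq_one_iff] at h1 h2 ⊢
    rw [QuotientGroup.mk_pow] at h1 h2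
    exact (pow_eq_one_iff_of_coprime hc).1 ⟨h1, h2⟩
  refine ⟨h.1 * σ₀, U.mul_mem h.2.1 h₀, τ, hτU', ?_, hτ', hτz, ⟨k, hτk⟩, ?_⟩
  · have := hσ₀.mul_inert (Inert.conj_stab h.2.2 hσ₀.1.inv)
    rwa [show σ₀ * (σ₀⁻¹ * h.1 * σ₀⁻¹⁻¹) = h.1 * σ₀ by group] at this
  · rwa [show h.1 * σ₀ * τ * (h.1 * σ₀)⁻¹ = h.1 * (σ₀ * τ * σ₀⁻¹) * h.1⁻¹ by group]

theorem fix_quot {τ : E ≃ₐ[F] E} (hτ : Inert A τ) (hA : Over A p) {n : ℕ} (hn : ¬ p ∣ n) {a b : E}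
    (hb : b ≠ 0) (hv : A.valuation (a ^ n) = A.valuation (b ^ n)) (ha' : τ (a ^ n) = a ^ n)
    (hb' : τ (b ^ n) = b ^ n) : τ (a / b) = a / b := by
  refine hτ.fix_root hA hn ?_ (by rw [div_pow, map_div₀, ha', hb'])
  refine (pow_eq_one_iff_of_nonneg zero_le (n := n) (by rintro rfl; simp at hn)).1 ?_
  rw [← map_pow, div_pow, map_div₀, hv, div_self ((Valuation.ne_zero_iff _).2 (pow_ne_zero _ hb))]

theorem tame (hE : IsSolvablyClosed E) {U : Subgroup (E ≃ₐ[F] E)} {ℓ : ℕ} (hℓ : ℓ.Prime)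
    (hA : Over A p) (hp : p ≠ ℓ) {π : E} (hπ : Unif U A π) {z : E} (hz : z ^ ℓ = π)
    {τ : E ≃ₐ[F] E} (hτ : Inert A τ) (hne : τ z ≠ z) : Tame ℓ U A τ := by
  intro U' hle hU' hτU y k hy0 hy hτy
  rcases k with _ | k
  · exact ⟨y, by simpa using hy, rfl⟩
  have : Fact ℓ.Prime := ⟨hℓ⟩
  have hpl : ∀ k, ¬ p ∣ ℓ ^ k := fun k h =>
    hp ((Nat.prime_dvd_prime_iff_eq hA.1 hℓ).1 (hA.1.dvd_of_dvd_pow h))
  obtain ⟨π', hπ'⟩ := exists_unif U' hU' hA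
  have := cz F E
  obtain ⟨w, hw⟩ := sc_root hE (pow_pos hℓ.pos (k + 1)) π'
  have hw0 : w ≠ 0 := by
    rintro rfl
    exact hπ'.ne (by rw [← hw, zero_pow (pow_pos hℓ.pos _).ne'])
  have hfz : ∀ m : ℤ, τ (π' ^ m) = π' ^ m := fun m => by rw [map_zpow₀, hπ'.fix τ hτU]
  have hcomm : ∀ (x : E) (m : ℤ) (n : ℕ), (x ^ m) ^ n = (x ^ n) ^ m := fun x m n => by
    rw [← zpow_natCast, ← zpow_natCast, ← zpow_mul, ← zpow_mul, mul_comm]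
  obtain ⟨ξ, hξ⟩ : ∃ ξ : Eˣ, τ w = ξ * w :=
    ⟨Units.mk0 (τ w / w) (div_ne_zero (by simpa using hw0) hw0), by simp [hw0]⟩
  have h1 : ξ ^ ℓ ^ (k + 1) = 1 := by
    have h := hπ'.fix τ hτU
    rw [← hw, map_pow, hξ, mul_pow, mul_eq_right₀ (pow_ne_zero _ hw0)] at h
    exact Units.ext h
  have h2 : ¬ ξ ^ ℓ ^ k = 1 := by
    intro h
    obtain ⟨e, he⟩ := hπ'.val π hπ.ne fun g hg => hπ.fix g (hle hg)
    have h3 : τ (w ^ ℓ ^ k) = w ^ ℓ ^ k := by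
      rw [map_pow, hξ, mul_pow, ← Units.val_pow_eq_pow_val, h, Units.val_one, one_mul]
    have h4 : ((w ^ ℓ ^ k) ^ e) ^ ℓ ^ 1 = π' ^ e := by rw [hcomm, ← pow_mul, ← pow_add, hw]
    have h5 := zpow_ne_zero e (pow_ne_zero (ℓ ^ k) hw0)
    have h6 := fix_quot hτ hA (hpl 1) (a := z) h5 (by rw [h4, pow_one, hz, he, map_zpow₀])
      (by rw [pow_one, hz, hπ.fix τ (hle hτU)]) (by rw [h4, hfz])
    rw [map_div₀, map_zpow₀, h3, div_left_inj' h5] at h6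
    exact hne h6
  obtain ⟨m, hm⟩ := hπ'.val _ (pow_ne_zero _ hy0) hy
  have h3 : (w ^ m) ^ ℓ ^ (k + 1) = π' ^ m := by rw [hcomm, hw]
  have h4 := fix_quot hτ hA (hpl (k + 1)) (a := y) (zpow_ne_zero m hw0)
    (by rw [h3, hm, map_zpow₀]) (hy τ hτU) (by rw [h3, hfz])
  rw [map_div₀, hτy, div_eq_mul_inv, div_eq_mul_inv, mul_right_inj' hy0, inv_inj, map_zpow₀, hξ, mul_zpow,
    mul_eq_right₀ (zpow_ne_zero m hw0), ← Units.val_zpow_eq_zpow_val, Units.val_eq_one,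
    ← orderOf_dvd_iff_zpow_eq_one, orderOf_eq_prime_pow h2 h1] at h4
  obtain ⟨c, rfl⟩ := h4
  refine ⟨π' ^ c, fun g hg => by rw [map_zpow₀, hπ'.fix g hg], ?_⟩
  refine (pow_left_inj₀ zero_le zero_le (pow_pos hℓ.pos (k + 1)).ne').1 ?_
  rw [← map_pow, hm, map_zpow₀, ← zpow_natCast, ← zpow_mul, mul_comm]

end LOC

theorem loc (hE : IsSolvablyClosed E) (U : Subgroup (E ≃ₐ[F] E))
    (hU : IsOpen (U : Set (E ≃ₐ[F] E))) {ℓ p : ℕ} (hℓ : ℓ.Prime) {A : ValuationSubring E}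
    (hA : Over A p) (hp : p ≠ ℓ) {σ₀ : E ≃ₐ[F] E} (h₀ : σ₀ ∈ U) {N : ℕ} (hσ₀ : Frob A σ₀ N) :
    ∃ σ ∈ U, ∃ τ ∈ U, Frob A σ N ∧ Inert A τ ∧ ProL ℓ τ ∧ σ * τ * σ⁻¹ = τ ^ N ∧
      Tame ℓ U A τ := by
  obtain ⟨π, hπ⟩ := LOC.exists_unif U hU hA
  have := cz F E
  obtain ⟨z, hz⟩ := sc_root hE hℓ.pos π
  obtain ⟨τ₀, hτU, hτ, hne⟩ := LOC.exists_inert_move U hU hA hπ hℓ.one_lt hz
  have hUc := U.isClosed_of_isOpen hU
  obtain ⟨⟨σ, τ⟩, h⟩ := compact_levels (F := F) (E := E) (X := (E ≃ₐ[F] E) × (E ≃ₐ[F] E))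
    (fun W => {x | x.1 ∈ U ∧ x.2 ∈ U ∧ Frob A x.1 N ∧ Inert A x.2 ∧ x.2 z ≠ z ∧
      (∃ n : ℕ, x.2 ^ ℓ ^ n ∈ W) ∧ x.1 * x.2 * x.1⁻¹ * (x.2 ^ N)⁻¹ ∈ W})
    (fun W hn hW => by
      have := QuotientGroup.discreteTopology hW
      refine (hUc.preimage continuous_fst).inter ((hUc.preimage continuous_snd).inter
        (((isClosed_frob A N).preimage continuous_fst).inter
        (((isClosed_inert A).preimage continuous_snd).inter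
        (((stabilizer_isOpen_of_isIntegral z).isClosed_compl.preimage continuous_snd).inter
        (IsClosed.inter ?_ ((W.isClosed_of_isOpen hW).preimage
          (f := fun x : (E ≃ₐ[F] E) × (E ≃ₐ[F] E) => x.1 * x.2 * x.1⁻¹ * (x.2 ^ N)⁻¹)
          (by fun_prop)))))))
      have h1 := ((isClosed_discrete {q : (E ≃ₐ[F] E) ⧸ W | ∃ n : ℕ, q ^ ℓ ^ n = 1}).preimage
        QuotientGroup.continuous_mk).preimage
        (continuous_snd (X := E ≃ₐ[F] E) (Y := E ≃ₐ[F] E))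
      simp only [Set.preimage_ofPred_eq, ← QuotientGroup.mk_pow, QuotientGroup.eq_one_iff] at h1
      exact h1)
    (fun W hn hW => by
      obtain ⟨σ, h1, τ, h2, h3⟩ := LOC.level U hℓ hA hp h₀ hσ₀ hτU hτ
        (by rw [hz, hπ.fix _ hτU]) hne W hn hW
      exact ⟨(σ, τ), h1, h2, h3⟩)
    (fun W W' _ _ _ _ hle x ⟨h1, h2, h3, h4, h5, ⟨n, h6⟩, h7⟩ =>
      ⟨h1, h2, h3, h4, h5, ⟨n, hle h6⟩, hle h7⟩)
  obtain ⟨h1, h2, h3, h4, h5, -⟩ := h ⊤ inferInstance isOpen_univ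
  refine ⟨σ, h1, τ, h2, h3, h4, fun W hW => ?_, ?_, LOC.tame hE hℓ hA hp hπ hz h4 h5⟩
  · obtain ⟨n, hn⟩ := (h W.normalCore inferInstance (open_normalCore W hW)).2.2.2.2.2.1
    exact ⟨n, W.normalCore_le hn⟩
  · rw [← mul_inv_eq_one]
    ext x
    obtain ⟨W, hn, hW, hx⟩ := exists_open_fix (F := F) {x} (Set.finite_singleton x)
    exact hx x rfl _ (h W hn hW).2.2.2.2.2.2

/-- `ℤ_[ℓ]`-characters are unramified outside `ℓ` -/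
theorem unr (U : Subgroup (E ≃ₐ[F] E)) (hU : IsOpen (U : Set (E ≃ₐ[F] E))) {ℓ p : ℕ}
    [Fact ℓ.Prime] {η : (E ≃ₐ[F] E) → ℤ_[ℓ]} (hη : IsChar U η) {A : ValuationSubring E}
    (hA : Over A p) (hp : p ≠ ℓ) {i : E ≃ₐ[F] E} (hi : i ∈ U) (hI : Inert A i) : η i = 0 := by
  obtain ⟨σ, f, hσU, hf, hσ, -⟩ := exists_minFrob U hU hA
  have hw := LOC.wild_conj hσ hI (Inert.one A)
  rw [one_mul, inv_one, mul_one] at hw
  have h1 : σ * i * σ⁻¹ ∈ U := U.mul_mem (U.mul_mem hσU hi) (U.inv_mem hσU)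
  have h2 : (i ^ p ^ f)⁻¹ ∈ U := U.inv_mem (U.pow_mem hi _)
  have h3 : η (σ * i * σ⁻¹ * (i ^ p ^ f)⁻¹) = 0 := by
    refine norm_le_zero_iff.1 (le_of_forall_pos_le_add fun ε hε => ?_)
    have hc := (hη.2.continuousAt (hU.mem_nhds U.one_mem)).norm.eventually_lt
      (continuousAt_const (y := ε)) (by rwa [hη.one, norm_zero])
    obtain ⟨W, hn, hW, hsub⟩ := exists_open_normal_subset _ hc
    obtain ⟨n, hn⟩ := hw.exists_pow hA W hn hW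
    have h4 : ‖η _‖ < ε := hsub hn
    have h5 : ‖(p : ℤ_[ℓ])‖ = 1 :=
      PadicInt.norm_natCast_eq_one_iff.2 ((Nat.coprime_primes Fact.out hA.1).2 hp.symm)
    rw [hη.pow (U.mul_mem h1 h2), nsmul_eq_mul, norm_mul, Nat.cast_pow, norm_pow, h5, one_pow,
      one_mul] at h4
    linarith
  rw [hη.1 _ h1 _ h2, hη.conj hσU hi, hη.inv (U.pow_mem hi _), hη.pow hi, nsmul_eq_mul,
    ← sub_eq_add_neg, ← one_sub_mul, mul_eq_zero, sub_eq_zero] at h3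
  refine h3.resolve_left fun h => ?_
  exact (Nat.one_lt_pow hf.ne' hA.1.one_lt).ne (by exact_mod_cast h)

end Crest.Agent.R18
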