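import Crest.Agent.R18.Tower
import Crest.Agent.R18.FI
import Crest.Agent.R18.Loc
import Crest.Agent.R18.PL
import Crest.Agent.R18.H.A
import Crest.Agent.R18.H.C

/-! Row 18 block H: logarithms of split units do not span. -/

set_option autoImplicit false
set_option linter.unusedSectionVars false
open scoped Pointwise NumberField
open IsDedekindDomain Crest.NumberTheoryR

namespace Crest.Agent.R18

variable {F E : Type*} [Field F] [NumberField F] [Field E] [Algebra F E] [IsGalois F E]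

theorem H.fix_conj {U W : Subgroup Gam} (hn : W.Normal) (hle : W ≤ U) (γ : Gam) {x : Qb}
    (hx : Fix U x) : Fix W (γ x) := by
  intro w hw
  have h := hx _ (hle (hn.conj_mem' w hw γ))
  rw [AlgEquiv.mul_apply, AlgEquiv.mul_apply] at h
  have h2 := congrArg γ h
  rwa [← AlgEquiv.mul_apply, mul_inv_cancel, AlgEquiv.one_apply] at h2

theorem H.exists_phi {ℓ : ℕ} [Fact ℓ.Prime] {U W : Subgroup Gam} (hn : W.Normal) (hle : W ≤ U)
    (e : IntermediateField.fixedField W →+* ℚ_[ℓ]) (γ : Gam) :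
    ∃ φ : IntermediateField.fixedField U →+* ℚ_[ℓ], ∀ x, φ x = ev e (γ (x : Qb)) := by
  have hm : ∀ x : IntermediateField.fixedField U,
      ((γ : Qb →+* Qb).comp (algebraMap (IntermediateField.fixedField U) Qb)) x ∈
        IntermediateField.fixedField W := fun x =>
    (fix_iff_mem W _).1 (H.fix_conj hn hle γ ((fix_iff_mem U _).2 x.2))
  exact ⟨e.comp (RingHom.codRestrict _ _ hm), fun x => (ev_coe e ⟨_, hm x⟩).symm⟩

/-- `PUnit`s as a subgroup -/
def H.punits (ℓ : ℕ) [Fact ℓ.Prime] (U : Subgroup Gam) (η : Gam → ℤ_[ℓ]) :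
    Subgroup (IntermediateField.fixedField U)ˣ where
  carrier := {u | PUnit ℓ U η ((u : IntermediateField.fixedField U) : Qb)}
  one_mem' := ⟨by simp, fun g _ => by simp, fun B _ h => absurd (by simp) h⟩
  mul_mem' := by
    intro u v hu hv
    refine ⟨by simp, (fix_iff_mem U _).2 (Subtype.prop _), fun B hB h => ?_⟩
    by_cases h1 : B.valuation ((u : IntermediateField.fixedField U) : Qb) = 1
    · refine hv.2.2 B hB fun h2 => h ?_
      simp [h1, h2]
    · exact hu.2.2 B hB h1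
  inv_mem' := by
    intro u hu
    refine ⟨by simp, (fix_iff_mem U _).2 (Subtype.prop _), fun B hB h => ?_⟩
    refine hu.2.2 B hB fun h2 => h ?_
    simp [h2]

theorem lemmaH (ℓ : ℕ) [Fact ℓ.Prime] (h2 : ℓ ≠ 2) (U W : Subgroup Gam) [Fintype (Gam ⧸ U)]
    (hW : IsOpen (W : Set Gam)) (hn : W.Normal) (hle : W ≤ U)
    (e : IntermediateField.fixedField W →+* ℚ_[ℓ]) (η : Gam → ℤ_[ℓ]) (hη : IsChar U η)
    (h0 : ∃ g ∈ U, η g ≠ 0) :
    ∃ lam : Gam ⧸ U → ℤ_[ℓ], lam ≠ 0 ∧ ∀ x, PUnit ℓ U η x →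
      ∑ c : Gam ⧸ U, lam c * plog ℓ (ev e ((Quotient.out c : Gam) x)) = 0 := by
  classical
  have hp : ℓ.Prime := Fact.out
  by_contra hcon
  have hU : IsOpen (U : Set Gam) := Subgroup.isOpen_mono hle hW
  have := numberField_fixedField U hU
  choose φ hφ using fun c : Gam ⧸ U => H.exists_phi hn hle e (Quotient.out c : Gam)
  obtain ⟨B, hB, hBv⟩ := exists_val_of_emb e
  have hfix : ∀ x : IntermediateField.fixedField U, Fix U (x : Qb) := fun x =>
    (fix_iff_mem U _).2 x.2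
  have hφ1 : ∀ 𝔩 : HeightOneSpectrum (𝓞 (IntermediateField.fixedField U)),
      (ℓ : 𝓞 (IntermediateField.fixedField U)) ∈ 𝔩.asIdeal → ∃ c, ∀ x y,
      ‖φ c x‖ ≤ ‖φ c y‖ → 𝔩.valuation (IntermediateField.fixedField U) x ≤
        𝔩.valuation (IntermediateField.fixedField U) y := by
    intro 𝔩 h𝔩
    obtain ⟨A, p, -, -, hv⟩ := exists_val_above (algebraMap (IntermediateField.fixedField U) Qb) 𝔩
    have hA : Over A ℓ := by
      refine ⟨hp, not_le.1 fun h => ?_⟩
      have h1 := (hv 1 ℓ).1 (by simpa using h)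
      have h3 := (𝔩.valuation_lt_one_iff_mem (K := IntermediateField.fixedField U) _).2 h𝔩
      rw [map_one] at h1
      exact absurd h1 (not_le.2 (by simpa using h3))
    obtain ⟨γ, hγ⟩ := conj_rat hA hB
    obtain ⟨u, hu⟩ := QuotientGroup.mk_out_eq_mul U γ
    refine ⟨QuotientGroup.mk γ, fun x y hxy => ?_⟩
    rw [hφ, hφ, hu, AlgEquiv.mul_apply, AlgEquiv.mul_apply, hfix x _ u.2, hfix y _ u.2,
      ← hBv _ _ (H.fix_conj hn hle γ (hfix x)) (H.fix_conj hn hle γ (hfix y)), ← hγ,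
      val_smul_le] at hxy
    exact (hv x y).1 hxy
  have hφ2 : ∀ c, ∃ 𝔩 : HeightOneSpectrum (𝓞 (IntermediateField.fixedField U)),
      (ℓ : 𝓞 (IntermediateField.fixedField U)) ∈ 𝔩.asIdeal ∧
      ∀ x, 𝔩.valuation (IntermediateField.fixedField U) x = 1 → ‖φ c x‖ = 1 := by
    intro c
    obtain ⟨𝔩, h𝔩, hv⟩ := exists_prime_below (algebraMap (IntermediateField.fixedField U) Qb)
      ((Quotient.out c : Gam)⁻¹ • B) (hB.smul _)
    have key : ∀ x y, 𝔩.valuation (IntermediateField.fixedField U) x ≤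
        𝔩.valuation (IntermediateField.fixedField U) y → ‖φ c x‖ ≤ ‖φ c y‖ := by
      intro x y hxy
      have h1 := (val_smul_le (Quotient.out c : Gam) _ _ _).2 ((hv x y).2 hxy)
      rw [smul_inv_smul] at h1
      rw [hφ, hφ]
      exact (hBv _ _ (H.fix_conj hn hle _ (hfix x)) (H.fix_conj hn hle _ (hfix y))).1 h1
    refine ⟨𝔩, h𝔩, fun x hx => le_antisymm ?_ ?_⟩
    · simpa using key x 1 (by simp [hx])
    · simpa using key 1 x (by simp [hx])
  have hP : ∀ u ∈ H.punits ℓ U η, ∀ c, ‖φ c (u : IntermediateField.fixedField U)‖ = 1 := by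
    intro u hu c
    rw [hφ]
    refine norm_ev_eq_one e (H.fix_conj hn hle _ (hfix _)) fun B' hB' => ?_
    have hA := hB'.smul (F := ℚ) (Quotient.out c : Gam)⁻¹
    rw [← smul_inv_smul (Quotient.out c : Gam) B', val_smul_eq_one]
    by_contra h
    exact hA.2.ne (hu.2.2 _ hA.ne_top h).1
  obtain ⟨C, hC⟩ := H.index_bound h2 φ hφ1 hφ2 (H.punits ℓ U η) hP (by
    intro lam hlam
    by_contra hne
    refine hcon ⟨lam, hne, fun x hx => ?_⟩
    have hx0 : (⟨x, (fix_iff_mem U x).1 hx.2.1⟩ : IntermediateField.fixedField U) ≠ 0 :=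
      fun h => hx.1 (congrArg Subtype.val h)
    have := hlam (Units.mk0 _ hx0) hx
    simpa only [hφ, Units.val_mk0] using this)
  obtain ⟨g₀, hg₀, hη0⟩ := h0
  have hall : ∀ m, PadicInt.toZModPow m (η (g₀ ^ C.factorial)) = 0 := by
    intro m
    obtain ⟨U', hU', hmem, ψ, hψ⟩ := H.exists_layer hU hη m
    have hle' : U' ≤ U := fun g hg => ((hmem g).1 hg).1
    have hn' : ∀ u ∈ U, ∀ w ∈ U', u * w * u⁻¹ ∈ U' := by
      intro u hu w hw
      refine (hmem _).2 ⟨U.mul_mem (U.mul_mem hu (hle' hw)) (U.inv_mem hu), ?_⟩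
      rw [hη.conj hu (hle' hw)]
      exact ((hmem w).1 hw).2
    let _ := towerAlg hle'
    have := numberField_fixedField U' hU'
    obtain ⟨hG, -, res, hs, hres, hk⟩ := tower hU' hle' hn'
    have : NeZero (ℓ ^ m) := ⟨pow_ne_zero _ hp.ne_zero⟩
    obtain ⟨hcyc, hdvd⟩ := H.cyc_of res hs ψ fun g => (hk g).trans (hψ g).symm
    have hj : ∀ x, Fix U' x ↔ ∃ y, algebraMap (IntermediateField.fixedField U') Qb y = x :=
      fun x => ⟨fun h => ⟨⟨x, (fix_iff_mem U' x).1 h⟩, rfl⟩, by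
        rintro ⟨y, rfl⟩; exact (fix_iff_mem U' _).2 y.2⟩
    have hker : ∀ g : U, ∀ w ∈ U', η (w⁻¹ * g) = 0 → res g = 1 := by
      intro g w hw h
      rw [hη.1 _ (U.inv_mem (hle' hw)) _ g.2, hη.inv (hle' hw), neg_add_eq_zero] at h
      rw [hk, hmem, ← h]
      exact ⟨g.2, ((hmem w).1 hw).2⟩
    have hcard := IsGalois.card_aut_eq_finrank (IntermediateField.fixedField U)
      (IntermediateField.fixedField U')
    obtain ⟨N, hN⟩ := fi (IntermediateField.fixedField U) (IntermediateField.fixedField U') hcyc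
      (by rw [← hcard]; exact ((hp.odd_of_ne_two h2).pow).of_dvd_nat hdvd) hp
      (H.layer_unr hU hU' hle' _ hj res hs hres hη hker)
    have hle2 := hN.trans (hC N _
      (fun x hx h => AddSubgroup.subset_closure (Or.inl (Or.inl ⟨x, hx, h, rfl⟩)))
      (fun u hu => H.layer_punit hU' hle' _ hj res hs hres hker hu N)
      (fun 𝔩 h => AddSubgroup.subset_closure (Or.inr ⟨𝔩, h, rfl⟩)))
    rw [← hcard] at hle2
    obtain ⟨k, hk'⟩ := Nat.dvd_factorial Nat.card_pos hle2
    have h1 : res (⟨g₀, hg₀⟩ ^ C.factorial) = 1 := by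
      rw [map_pow, hk', pow_mul, pow_card_eq_one', one_pow]
    exact ((hmem _).1 ((hk _).1 h1)).2
  have h3 : η (g₀ ^ C.factorial) = 0 :=
    PadicInt.ext_of_toZModPow.1 fun n => by rw [hall, map_zero]
  rw [hη.pow hg₀, nsmul_eq_mul, mul_eq_zero] at h3
  rcases h3 with h3 | h3
  · exact (Nat.cast_ne_zero.2 C.factorial_ne_zero) h3
  · exact hη0 h3

end Crest.Agent.R18
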