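import Crest.Agent.R18.Tower
import Crest.Agent.R18.Dec
import Crest.Agent.R18.Kum
import Crest.Agent.R18.MU
import Crest.Agent.R18.KP.PB

/-! Row 18 block KP: almost all primes are hit. -/

set_option autoImplicit false
set_option linter.unusedSectionVars false
open scoped Pointwise NumberField
open IsDedekindDomain Crest.NumberTheoryR

namespace Crest.Agent.R18

variable {F E : Type*} [Field F] [NumberField F] [Field E] [Algebra F E] [IsGalois F E]

namespace KP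

theorem dv_div {K : Type*} [Field K] [NumberField K] {x y : K} (hx : x ≠ 0) (hy : y ≠ 0) :
    dv (x / y) = dv x - dv y := by
  rw [eq_sub_iff_add_eq, ← dv_mul (div_ne_zero hx hy) hy, div_mul_cancel₀ _ hy]

theorem dv_pow {K : Type*} [Field K] [NumberField K] (x : K) (n : ℕ) : dv (x ^ n) = n • dv x := by
  rw [← zpow_natCast, dv_zpow, natCast_zsmul]

theorem unit_of_hit {S : PreSetup F E} {ℓ : ℕ} (Y : HitSys S ℓ) {y : F} (hy : y ≠ 0)
    (h : ∀ 𝔭, dv y 𝔭 ≠ 0 → ∃ A, Ab (algebraMap F E) A 𝔭 ∧ ∀ p, ¬ Y.Hit p A) (p : ℕ) (A : ValuationSubring E)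
    (hA : A ≠ ⊤) (hp : Y.Hit p A) : A.valuation (algebraMap F E y) = 1 := by
  obtain ⟨r, hr⟩ := exists_over F A hA
  obtain ⟨𝔭, -, hval⟩ := exists_prime_below (algebraMap F E) A hr
  refine (Ab.unit hval hy).2 (by_contra fun hne => ?_)
  obtain ⟨A', h1, h2⟩ := h 𝔭 (dv_apply y 𝔭 ▸ hne)
  obtain ⟨g, -, rfl⟩ := conj_of_agree (F := F) ⊤ isOpen_univ hr (B := A') fun x hx => by
    obtain ⟨x, rfl⟩ := (InfiniteGalois.mem_range_algebraMap_iff_fixed (k := F) x).2 fun g => hx g trivial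
    exact (Ab.mem hval x).trans (h1.mem x).symm
  exact h2 p (Y.smul p A g hp)

theorem exists_below {ι : Type*} (q : ι → ℕ) (hq : Function.Injective q) (A : ι → ValuationSubring E)
    (hA : ∀ i, Over (A i) (q i)) : ∃ 𝔮 : ι → HeightOneSpectrum (𝓞 F), Function.Injective 𝔮 ∧
      ∀ i, Ab (algebraMap F E) (A i) (𝔮 i) := by
  choose 𝔮 h1 h2 using fun i => exists_prime_below (algebraMap F E) (A i) (hA i)
  exact ⟨𝔮, fun i j e => hq ((hA i).unique ((Ab.over (h2 i) (hA j).1).2 (e ▸ h1 j))), h2⟩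

end KP

open KP

theorem kp (hE : IsSolvablyClosed E) (S : PreSetup F E) (ℓ : ℕ) [Fact ℓ.Prime] (h2 : ℓ ≠ 2)
    (Y : HitSys S ℓ) :
    {q : ℕ | ∃ A : ValuationSubring E, Over A q ∧ ∀ p, ¬ Y.Hit p A}.Finite := by
  classical
  have hℓ : ℓ.Prime := Fact.out
  by_contra hinf
  haveI := Set.infinite_coe_iff.2 hinf
  obtain ⟨U', hg, -⟩ := exists_good hE S ℓ
  obtain ⟨X, hX, hX'⟩ := core hE hg Y
  obtain ⟨T, hT⟩ := exists_class_reps F
  obtain ⟨T', hT0, hT'⟩ := sel U' hg.op (NeZero.pos (ℓ ^ 1)) hℓ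
  choose A hA hnot using fun q : {q : ℕ | ∃ A : ValuationSubring E, Over A q ∧ ∀ p, ¬ Y.Hit p A} => q.2
  obtain ⟨𝔮, hinj, hab⟩ := exists_below (F := F) _ Subtype.val_injective A hA
  choose D hD x hx hdv using fun q => hT (Finsupp.single (𝔮 q) 1)
  obtain ⟨D₀, hfib⟩ := Finite.exists_infinite_fiber fun q => (⟨D q, hD q⟩ : T)
  set J := (fun q => (⟨D q, hD q⟩ : T)) ⁻¹' {D₀}
  have h1 : ∀ q q' : J, dv (x q / x q') = Finsupp.single (𝔮 q) 1 - Finsupp.single (𝔮 q') 1 := fun q q' => by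
    rw [dv_div (hx q) (hx q'), hdv q, hdv q', show D q = D q' from congrArg Subtype.val (q.2.trans q'.2.symm),
      add_sub_add_left_eq_sub]
  obtain ⟨q₀⟩ : Nonempty J := inferInstance
  have h0 : ∀ q : J, x q / x q₀ ≠ 0 := fun q => div_ne_zero (hx q) (hx q₀)
  have h3 := fun q : J => hX _ (h0 q) (unit_of_hit Y (h0 q) fun 𝔭 h => by
    by_cases e : 𝔭 = 𝔮 q
    · exact ⟨_, e ▸ hab q, hnot q⟩
    by_cases e' : 𝔭 = 𝔮 q₀
    · exact ⟨_, e' ▸ hab q₀, hnot q₀⟩
    simp [h1, Finsupp.single_eq_of_ne e, Finsupp.single_eq_of_ne e'] at h)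
  choose t ht u hu e using fun q : J => hT' _ (h3 q).1 (h3 q).2.1 (h3 q).2.2.1
  obtain ⟨q, q', hne, he⟩ := Finite.exists_ne_map_eq_of_infinite fun q : J => (⟨t q, ht q⟩ : T')
  obtain ⟨v, hv⟩ := hX' _ _ (h0 q) (h0 q') 1 (u q / u q') (fun g h => by rw [map_div₀, hu q g h, hu q' g h]) (by
    rw [pow_one, e q, e q', show t q = t q' from congrArg Subtype.val he, mul_div_mul_left _ _ (hT0 _ (ht q')).1,
      div_pow])
  have h4 := congrArg (fun y => dv y (𝔮 q)) hv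
  have h5 : 𝔮 q ≠ 𝔮 q' := fun e => hne (Subtype.ext (hinj e))
  simp only [pow_one, div_div_div_cancel_right₀ (hx q₀), h1, dv_pow, Finsupp.sub_apply, Finsupp.single_eq_same,
    Finsupp.single_eq_of_ne h5, sub_zero, Finsupp.smul_apply, nsmul_eq_mul] at h4
  exact hℓ.one_lt.ne' (Nat.dvd_one.1 (Int.natCast_dvd_natCast.1 ⟨_, h4⟩))

theorem ub (hE : IsSolvablyClosed E) (S : PreSetup F E) (ℓ : ℕ) [Fact ℓ.Prime] (h2 : ℓ ≠ 2)
    (Y : HitSys S ℓ) (hA : CaseA S ℓ) (Q : Finset ℕ) (A : ℕ → ValuationSubring E)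
    (hQ : ∀ q ∈ Q, Over (A q) q ∧ ∀ p, ¬ Y.Hit p (A q)) : Q.card ≤ 2 * S.H.index := by
  classical
  have hℓ : ℓ.Prime := Fact.out
  obtain ⟨U', -, hg⟩ := exists_good hE S ℓ
  replace hg := hg hA
  obtain ⟨c, hc, hb⟩ := bound (hg 0).op (hg 0).le (hg 0).nm hℓ
  obtain ⟨n, hn, hcl⟩ := exists_class_exp F
  obtain ⟨𝔮, hinj, hab⟩ := exists_below (F := F) _ Subtype.val_injective (fun q : Q => A q) fun q => (hQ q q.2).1
  have key : ∀ j : ℕ, (ℓ ^ j) ^ Q.card ≤ (ℓ ^ (j + c * n)) ^ (2 * S.H.index) := fun j => by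
    obtain ⟨X, hX, hX'⟩ := core hE (hg (j + c * n)) Y
    choose y hy hdv using fun a : Q → Fin (ℓ ^ j) => hcl (∑ q, Finsupp.single (𝔮 q) ((a q : ℕ) : ℤ))
    have h1 : ∀ a q, dv (y a) (𝔮 q) = n * (a q : ℕ) := fun a q => by
      rw [hdv, Finsupp.smul_apply, Finsupp.finsetSum_apply, Finset.sum_eq_single q, Finsupp.single_eq_same,
        nsmul_eq_mul]
      · exact fun q' _ h => Finsupp.single_eq_of_ne (hinj.ne h.symm)
      · simp
    simpa using hb (ℓ ^ (j + c * n)) (fun h => cm ℓ _ (S.a h)) (cm ℓ _)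
      (fun g h1 h h2 => by rw [S.mul g h1 h h2, cm_mul]) (fun g _ h _ => cm_mul g h) (hg _).eq (Q → Fin (ℓ ^ j))
      (fun a => X (y a)) (fun a => hX _ (hy a) (unit_of_hit Y (hy a) fun 𝔭 h => by
        by_contra h'
        refine h ?_
        rw [hdv, Finsupp.smul_apply, Finsupp.finsetSum_apply, Finset.sum_eq_zero, smul_zero]
        exact fun q _ => Finsupp.single_eq_of_ne fun e => h' ⟨_, e ▸ hab q, (hQ q q.2).2⟩))
      fun a b u hu e => funext fun q => by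
        obtain ⟨v, hv⟩ := hX' _ _ (hy a) (hy b) c u hu e
        have h3 := congrArg (fun y => dv y (𝔮 q)) hv
        simp only [dv_pow, dv_div (hy a) (hy b), Finsupp.smul_apply, Finsupp.sub_apply, h1, nsmul_eq_mul,
          ← mul_sub, ← mul_assoc] at h3
        have h4 : |((a q : ℕ) : ℤ) - (b q : ℕ)| < (ℓ ^ j : ℕ) := by
          have := (a q).2
          have := (b q).2
          rw [abs_lt]
          omega
        have h5 : (c : ℤ) * n < (ℓ ^ (c * n) : ℕ) := by exact_mod_cast Nat.lt_pow_self hℓ.one_lt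
        have h6 := Int.eq_zero_of_abs_lt_dvd ⟨_, h3⟩ (by
          rw [abs_mul, abs_of_nonneg (by positivity), pow_add, mul_comm (ℓ ^ j), Nat.cast_mul]
          exact mul_lt_mul'' h5 h4 (by positivity) (abs_nonneg _))
        exact Fin.ext (by exact_mod_cast sub_eq_zero.1 ((mul_eq_zero.1 h6).resolve_left (by positivity)))
  have h3 := key (c * n * (2 * S.H.index) + 1)
  rw [← pow_mul, ← pow_mul, Nat.pow_le_pow_iff_right hℓ.one_lt] at h3
  by_contra h4
  nlinarith [Nat.mul_le_mul_left (c * n * (2 * S.H.index) + 1) (not_le.1 h4)]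

end Crest.Agent.R18
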