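import Crest.Agent.R18.Loc
import Crest.Agent.R18.F1

/-! Row 18 block SYS: choice of local data. -/

set_option autoImplicit false
set_option linter.unusedSectionVars false
open scoped Pointwise NumberField
open IsDedekindDomain Crest.NumberTheoryR

namespace Crest.Agent.R18

variable {F E : Type*} [Field F] [NumberField F] [Field E] [Algebra F E] [IsGalois F E]

/-- local data at one prime of `Qb` -/
theorem sys_data (hE : IsSolvablyClosed E) (S : PreSetup F E) {ℓ : ℕ} (hℓ : ℓ.Prime) (h2 : ℓ ≠ 2)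
    (B : ValuationSubring Qb) (p : ℕ) :
    ∃ (σ τ : Gam) (f : ℕ) (A : ValuationSubring E), Over B p → p ≠ ℓ →
      MinFrob S.H B p σ f ∧ τ ∈ S.H ∧ ProL ℓ τ ∧ Inert B τ ∧ Tame ℓ S.H B τ ∧
        (S.a τ = 1 ∨ (A ≠ ⊤ ∧ Stab A (S.a σ) ∧ FixRoots ℓ A (S.a τ) ∧
          ∀ (n : ℕ) (ζ : E), ζ ^ (ℓ ^ n) = 1 → S.a σ ζ = ζ ^ (p ^ f))) := by
  by_cases h : Over B p ∧ p ≠ ℓ
  swap
  · exact ⟨1, 1, 0, ⊤, fun h1 h2 => absurd ⟨h1, h2⟩ h⟩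
  obtain ⟨hB, hp⟩ := h
  obtain ⟨σ₀, f, hσ₀⟩ := exists_minFrob S.H S.hH hB
  obtain ⟨σ, hσ, τ, hτ, hF, hI, hP, hc, hT⟩ := loc sc_qb S.H S.hH hℓ hB hp hσ₀.1 hσ₀.2.2.1
  have hM : MinFrob S.H B p σ f := ⟨hσ, hσ₀.2.1, hF, hσ₀.2.2.2⟩
  by_cases h1 : S.a τ = 1
  · exact ⟨σ, τ, f, ⊤, fun _ _ => ⟨hM, hτ, hP, hI, hT, Or.inl h1⟩⟩
  have hu : 2 ≤ p ^ f := by
    have h3 : 1 < p ^ f := Nat.one_lt_pow hσ₀.2.1.ne' hB.1.one_lt
    omega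
  have hlu : ¬ ℓ ∣ p ^ f := fun hd =>
    hp ((Nat.prime_dvd_prime_iff_eq hℓ hB.1).mp (hℓ.dvd_of_dvd_pow hd)).symm
  have hc' : S.a σ * S.a τ * (S.a σ)⁻¹ = S.a τ ^ (p ^ f) := by
    rw [← S.a_pow hτ, ← hc, S.mul _ (S.H.mul_mem hσ hτ) _ (S.H.inv_mem hσ), S.mul _ hσ _ hτ,
      S.a_inv hσ]
  obtain ⟨A, hA, hS, hR, hζ⟩ := f1 hE hℓ h2 h1 (S.proL hτ hP) hu hlu hc'
  exact ⟨σ, τ, f, A, fun _ _ => ⟨hM, hτ, hP, hI, hT, Or.inr ⟨hA, hS, hR, hζ⟩⟩⟩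

/-- finitely many representatives of the `H`-orbits of primes over `p` -/
theorem sys_reps (H : Subgroup Gam) (hH : IsOpen (H : Set Gam)) (p : ℕ) :
    ∃ R : Set (ValuationSubring Qb), R.Finite ∧
      ∀ B : ValuationSubring Qb, Over B p → ∃ h ∈ H, ∃ B₀ ∈ R, B = h • B₀ := by
  by_cases h : ∃ B₁ : ValuationSubring Qb, Over B₁ p
  swap
  · exact ⟨∅, Set.finite_empty, fun B hB => absurd ⟨B, hB⟩ h⟩
  obtain ⟨B₁, hB₁⟩ := h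
  have : H.FiniteIndex := finiteIndex_of_open H hH
  have : Finite (Gam ⧸ H) := Subgroup.finite_quotient_of_finiteIndex
  refine ⟨Set.range fun c : Gam ⧸ H => (c.out)⁻¹ • B₁, Set.finite_range _, fun B hB => ?_⟩
  obtain ⟨γ, hγ⟩ := conj_rat hB₁ hB
  obtain ⟨k, hk⟩ := QuotientGroup.mk_out_eq_mul H γ⁻¹
  refine ⟨k, k.2, _, ⟨QuotientGroup.mk γ⁻¹, rfl⟩, ?_⟩
  simp only [hk, mul_inv_rev, inv_inv, smul_smul, mul_inv_cancel_left, hγ]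

theorem sys_conj (S : PreSetup F E) {h x : Gam} (hh : h ∈ S.H) (hx : x ∈ S.H) :
    S.a (h * x * h⁻¹) = S.a h * S.a x * (S.a h)⁻¹ := by
  rw [S.mul _ (S.H.mul_mem hh hx) _ (S.H.inv_mem hh), S.mul _ hh _ hx, S.a_inv hh]

theorem sys_smul_ne_top (g : E ≃ₐ[F] E) {A : ValuationSubring E} (hA : A ≠ ⊤) : g • A ≠ ⊤ := by
  intro h
  apply hA
  ext x
  rw [← mem_smul_val g A x, h]
  simp

theorem sys (hE : IsSolvablyClosed E) (S : PreSetup F E) {ℓ : ℕ} (hℓ : ℓ.Prime) (h2 : ℓ ≠ 2) :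
    Nonempty (HitSys S ℓ) := by
  choose σ τ f A₀ hD using sys_data hE S hℓ h2
  choose R hRf hR using sys_reps S.H S.hH
  refine ⟨⟨fun p A => ∃ B₀ ∈ R p, Over B₀ p ∧ p ≠ ℓ ∧ S.a (τ B₀ p) ≠ 1 ∧
    ∃ g : E ≃ₐ[F] E, A = g • A₀ B₀ p, ?_, ?_, ?_, ?_⟩⟩
  · rintro p A g ⟨B₀, hB₀, ho, hp, h1, g', rfl⟩
    exact ⟨B₀, hB₀, ho, hp, h1, g * g', by rw [mul_smul]⟩
  · intro p
    refine ((hRf p).biUnion (t := fun B₀ => {q | Over (A₀ B₀ p) q}) fun B₀ _ => ?_).subset ?_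
    · exact Set.Subsingleton.finite fun q hq q' hq' => Over.unique hq hq'
    · rintro q ⟨A, hq, B₀, hB₀, -, -, -, g, rfl⟩
      refine Set.mem_biUnion hB₀ ?_
      have h3 := hq.smul g⁻¹
      rwa [inv_smul_smul] at h3
  · rintro p A ⟨B₀, hB₀, ho, hp, h1, g, rfl⟩
    obtain ⟨hM, hτ, -, -, -, h4⟩ := hD B₀ p ho hp
    obtain ⟨-, hS, -, hζ⟩ := h4.resolve_left h1
    obtain ⟨h, hh, rfl⟩ := S.surj g
    refine ⟨h • B₀, h * σ B₀ p * h⁻¹, f B₀ p, ho.smul h, hp, hM.conj hh, ?_, ?_⟩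
    · rw [sys_conj S hh hM.1]
      exact hS.conj _
    · intro n ζ hn
      rw [sys_conj S hh hM.1, AlgEquiv.mul_apply, AlgEquiv.mul_apply,
        hζ n ((S.a h)⁻¹ ζ) (by rw [← map_pow, hn, map_one]), map_pow, ← AlgEquiv.mul_apply,
        mul_inv_cancel, AlgEquiv.one_apply]
  · intro B p hB hp
    obtain ⟨h, hh, B₀, hB₀, rfl⟩ := hR p B hB
    have ho : Over B₀ p := by
      have h3 := hB.smul h⁻¹
      rwa [inv_smul_smul] at h3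
    obtain ⟨-, hτ, hP, hI, hT, h4⟩ := hD B₀ p ho hp
    refine ⟨h * τ B₀ p * h⁻¹, S.H.mul_mem (S.H.mul_mem hh hτ) (S.H.inv_mem hh), hP.conj h,
      hI.conj h, hT.conj hh, ?_⟩
    rw [sys_conj S hh hτ]
    by_cases h1 : S.a (τ B₀ p) = 1
    · left
      rw [h1, mul_one, mul_inv_cancel]
    · obtain ⟨hA, -, hF, -⟩ := h4.resolve_left h1
      exact Or.inr ⟨S.a h • A₀ B₀ p, sys_smul_ne_top _ hA, ⟨B₀, hB₀, ho, hp, h1, _, rfl⟩,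
        hF.conj _⟩

end Crest.Agent.R18
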