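import Crest.Agent.R18.UC
import Crest.Agent.R18.Sys
import Crest.Agent.R18.KP
import Crest.Agent.R18.FD

/-! Row 18 block R: almost every prime is hit from the right residue characteristic. -/

set_option autoImplicit false
set_option linter.unusedSectionVars false
open scoped Pointwise NumberField
open IsDedekindDomain Crest.NumberTheoryR

namespace Crest.Agent.R18

namespace RR

/-- the subgroup fixing the `t`-th roots of unity -/
theorem exists_mu {t : ℕ} (ht : t.Prime) : ∃ M : Subgroup Gam, M.Normal ∧ IsOpen (M : Set Gam) ∧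
    M.index ∣ t - 1 ∧ ∀ ξ : Qb, ξ ^ t = 1 → Fix M ξ := by
  have : NeZero t := ⟨ht.ne_zero⟩
  obtain ⟨ζ, hζ⟩ := sc_prim sc_qb ht.pos
  have h1 : ∀ g ∈ (hζ.autToPow ℚ).ker, g ζ = ζ := fun g hg => by
    have : Fact (1 < t) := ⟨ht.one_lt⟩
    rw [← hζ.autToPow_spec ℚ g, (MonoidHom.mem_ker.1 hg : hζ.autToPow ℚ g = 1), Units.val_one,
      ZMod.val_one, pow_one]
  refine ⟨(hζ.autToPow ℚ).ker, inferInstance, ?_, ?_, fun ξ hξ g hg => ?_⟩
  · refine Subgroup.isOpen_mono (H₁ := MulAction.stabilizer Gam ζ) (fun g hg => ?_)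
      (stabilizer_isOpen_of_isIntegral ζ)
    have : Fact (1 < t) := ⟨ht.one_lt⟩
    have h2 := hζ.autToPow_spec ℚ g
    rw [show g ζ = ζ ^ 1 by rw [pow_one]; exact hg] at h2
    refine MonoidHom.mem_ker.2 (Units.ext (ZMod.val_injective t ?_))
    rw [hζ.pow_inj (ZMod.val_lt _) ht.one_lt h2, Units.val_one, ZMod.val_one]
  · rw [Subgroup.index_ker, ← Nat.totient_prime ht, ← ZMod.card_units_eq_totient,
      ← Nat.card_eq_fintype_card]
    exact Subgroup.card_subgroup_dvd_card _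
  · obtain ⟨i, -, rfl⟩ := hζ.eq_pow_of_pow_eq_one hξ
    rw [map_pow, h1 g hg]

/-- the choice of the auxiliary primes -/
theorem exists_primes (W : Subgroup Gam) (hW : IsOpen (W : Set Gam)) (n : ℕ) (Q : Finset ℕ) :
    ∃ (s : ℕ → ℕ) (U : Subgroup Gam), U ≤ W ∧ IsOpen (U : Set Gam) ∧ Set.InjOn s Q ∧
      ∀ q ∈ Q, (s q).Prime ∧ n + 2 < s q ∧ ¬ s q ∣ U.index ∧ ∀ ξ : Qb, ξ ^ s q = 1 → Fix U ξ := by
  induction Q using Finset.induction_on with
  | empty => exact ⟨id, W, le_rfl, hW, by simp, by simp⟩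
  | insert q Q hq ih =>
    obtain ⟨s, U, h1, h2, h3, h4⟩ := ih
    obtain ⟨t, t1, t2, t3⟩ := Nat.forall_exists_prime_gt_and_modEq
      (n + 2 + U.index + ∑ q ∈ Q, s q) (q := ∏ q ∈ Q, s q) (a := 2)
      (Finset.prod_ne_zero_iff.2 fun q hq => (h4 q hq).1.ne_zero)
      (Nat.Coprime.prod_right fun q hq => (Nat.coprime_primes Nat.prime_two (h4 q hq).1).2
        (by have := (h4 q hq).2.1; omega))
    obtain ⟨M, m1, m2, m3, m4⟩ := exists_mu t2
    have i0 : U.index ≠ 0 := (finiteIndex_of_open U h2).index_ne_zero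
    have i1 : (U ⊓ M).index ∣ (t - 1) * U.index := by
      rw [← Subgroup.relIndex_mul_index (inf_le_left : U ⊓ M ≤ U), Subgroup.inf_relIndex_left]
      exact Nat.mul_dvd_mul_right ((Subgroup.relIndex_dvd_index_of_normal M U).trans m3) _
    have hlt : ∀ q' ∈ Q, s q' < t := fun q' hq' => by
      have := Finset.single_le_sum (f := s) (fun _ _ => Nat.zero_le _) hq'
      omega
    have hne : ∀ q' ∈ Q, q' ≠ q := fun q' hq' h => hq (h ▸ hq')
    refine ⟨Function.update s q t, U ⊓ M, inf_le_left.trans h1, h2.inter m2, ?_, fun q' hq' => ?_⟩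
    · rw [Finset.coe_insert, Set.injOn_insert (by exact_mod_cast hq)]
      refine ⟨fun a ha b hb h => h3 ha hb ?_, ?_⟩
      · rwa [Function.update_of_ne (hne a ha), Function.update_of_ne (hne b hb)] at h
      · rintro ⟨a, ha, h⟩
        rw [Function.update_of_ne (hne a ha), Function.update_self] at h
        exact (hlt a ha).ne h
    · rcases Finset.mem_insert.1 hq' with rfl | hq'
      · rw [Function.update_self]
        refine ⟨t2, by omega, fun h => ?_, fun ξ hξ g hg => m4 ξ hξ g hg.2⟩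
        rcases (Nat.Prime.dvd_mul t2).1 (h.trans i1) with h | h
        · have := Nat.le_of_dvd (by omega) h
          omega
        · have := Nat.le_of_dvd (Nat.pos_of_ne_zero i0) h
          omega
      · rw [Function.update_of_ne (hne q' hq')]
        obtain ⟨a1, a2, a3, a4⟩ := h4 q' hq'
        refine ⟨a1, a2, fun h => ?_, fun ξ hξ g hg => a4 ξ hξ g hg.1⟩
        rcases (Nat.Prime.dvd_mul a1).1 (h.trans i1) with h | h
        · have b1 : 2 ≡ t [MOD s q'] := (t3.of_dvd (Finset.dvd_prod_of_mem s hq')).symm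
          have b2 : 1 ≡ t [MOD s q'] := (Nat.modEq_iff_dvd' (by omega)).2 h
          have := Nat.le_of_dvd one_pos ((Nat.modEq_iff_dvd' one_le_two).1 (b2.trans b1.symm))
          omega
        · exact a3 h

section roots
variable {U : Subgroup Gam} {s : ℕ} {z : Qb} {g : Gam}

theorem act (hz : z ≠ 0) (hf : Fix U (z ^ s)) (hμ : ∀ ξ : Qb, ξ ^ s = 1 → Fix U ξ) (hg : g ∈ U) :
    ∃ ξ : Qb, ξ ^ s = 1 ∧ ∀ n : ℕ, (g ^ n) z = ξ ^ n * z := by
  have h1 : (g z / z) ^ s = 1 := by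
    rw [div_pow, ← map_pow, hf g hg, div_self (pow_ne_zero _ hz)]
  refine ⟨_, h1, fun n => ?_⟩
  induction n with
  | zero => simp
  | succ n ih =>
    rw [pow_succ', AlgEquiv.mul_apply, ih, map_mul, map_pow, hμ _ h1 g hg, pow_succ, mul_assoc,
      div_mul_cancel₀ _ hz]

theorem act_dvd (hz : z ≠ 0) (hf : Fix U (z ^ s)) (hμ : ∀ ξ : Qb, ξ ^ s = 1 → Fix U ξ) (hg : g ∈ U)
    {n : ℕ} (hn : s ∣ n) : (g ^ n) z = z := by
  obtain ⟨ξ, h1, h2⟩ := act hz hf hμ hg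
  obtain ⟨k, rfl⟩ := hn
  rw [h2, pow_mul, h1, one_pow, one_mul]

theorem act_cop (hz : z ≠ 0) (hf : Fix U (z ^ s)) (hμ : ∀ ξ : Qb, ξ ^ s = 1 → Fix U ξ) (hg : g ∈ U)
    {n : ℕ} (hn : n.Coprime s) : (g ^ n) z = z ↔ g z = z := by
  obtain ⟨ξ, h1, h2⟩ := act hz hf hμ hg
  have h3 := h2 1
  rw [pow_one, pow_one] at h3
  rw [h2, h3, mul_eq_right₀ hz, mul_eq_right₀ hz]
  exact ⟨fun h => (pow_eq_one_iff_of_coprime hn).1 ⟨h, h1⟩, fun h => by rw [h, one_pow]⟩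

end roots

/-- Chinese remainder theorem for the actions on roots of different prime degrees -/
theorem comb (U : Subgroup Gam) (s : ℕ → ℕ) (Z : ℕ → Set Qb) (G : ℕ → Gam) (Q : Finset ℕ)
    (hs : Set.InjOn s Q) (h1 : ∀ q ∈ Q, (s q).Prime ∧ (∀ ξ : Qb, ξ ^ s q = 1 → Fix U ξ) ∧ G q ∈ U ∧
      ∀ z ∈ Z q, z ≠ 0 ∧ Fix U (z ^ s q)) :
    ∃ g ∈ U, ∀ q ∈ Q, ∀ z ∈ Z q, (g z = z ↔ G q z = z) := by
  induction Q using Finset.induction_on with
  | empty => exact ⟨1, U.one_mem, by simp⟩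
  | insert q Q hq ih =>
    obtain ⟨g, g1, g2⟩ := ih (hs.mono (by simp)) fun q' hq' => h1 q' (Finset.mem_insert_of_mem hq')
    obtain ⟨a1, a2, a3, a4⟩ := h1 q (Finset.mem_insert_self _ _)
    have hc : ∀ q' ∈ Q, (s q).Coprime (s q') := fun q' hq' =>
      (Nat.coprime_primes a1 (h1 q' (Finset.mem_insert_of_mem hq')).1).2 fun h =>
        hq (hs (by simp) (by simp [hq']) h ▸ hq')
    refine ⟨g ^ s q * G q ^ ∏ q' ∈ Q, s q', U.mul_mem (U.pow_mem g1 _) (U.pow_mem a3 _),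
      fun q' hq' z hz => ?_⟩
    rw [AlgEquiv.mul_apply]
    rcases Finset.mem_insert.1 hq' with rfl | hq'
    · rw [← act_cop (a4 z hz).1 (a4 z hz).2 a2 a3 (Nat.Coprime.prod_left fun q hq => (hc q hq).symm)]
      have e := act_dvd (a4 z hz).1 (a4 z hz).2 a2 g1 dvd_rfl
      exact ⟨fun h => (g ^ s q').injective (h.trans e.symm), fun h => by rw [h, e]⟩
    · obtain ⟨b1, b2, -, b4⟩ := h1 q' (Finset.mem_insert_of_mem hq')
      rw [act_dvd (b4 z hz).1 (b4 z hz).2 b2 a3 (Finset.dvd_prod_of_mem s hq'),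
        act_cop (b4 z hz).1 (b4 z hz).2 b2 g1 (hc q' hq'), g2 q' hq' z hz]

/-- distinct primes are independent modulo `s`-th powers -/
theorem indep (U : Subgroup Gam) (hU : IsOpen (U : Set Gam)) {s : ℕ} (hs : s.Prime)
    (hi : ¬ s ∣ U.index) (hμ : ∀ ξ : Qb, ξ ^ s = 1 → Fix U ξ) (R : Finset ℕ) (hR : ∀ r ∈ R, r.Prime)
    (z : ℕ → Qb) (hz : ∀ r, z r ^ s = r) (q : ℕ) :
    ∃ g ∈ U, ∀ r ∈ R, (g (z r) = z r ↔ r = q) := by
  have : Fact s.Prime := ⟨hs⟩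
  obtain ⟨ζ, hζ⟩ := sc_prim sc_qb hs.pos
  have z0 : ∀ r : R, z r ≠ 0 := fun r h => by
    have := hz r
    rw [h, zero_pow hs.ne_zero] at this
    exact (hR r r.2).ne_zero (by exact_mod_cast this.symm)
  choose ρ h1 h2 using fun r : R => kummer_char U ζ hζ (hμ ζ hζ.pow_eq_one) (z r) (z0 r)
    fun g _ => by rw [hz, map_natCast]
  have key := chars_surj U ρ h1 (fun a ha => ?_) fun r => if r.1 = q then 0 else 1
  · obtain ⟨g, g1, g2⟩ := key
    refine ⟨g, g1, fun r hr => ?_⟩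
    rw [h2 ⟨r, hr⟩ g g1, g2, mul_eq_right₀ (z0 ⟨r, hr⟩), hζ.pow_eq_one_iff_dvd]
    by_cases h : r = q
    · simp [h]
    · simp only [ZMod.val_one, h, iff_false, if_false]
      exact hs.not_dvd_one
  have y1 : Fix U (∏ r : R, z r ^ (a r).val) := fun g hg => by
    simp only [map_prod, map_pow, fun r => h2 r g hg, mul_pow, ← pow_mul, Finset.prod_mul_distrib,
      Finset.prod_pow_eq_pow_sum]
    rw [(hζ.pow_eq_one_iff_dvd _).2, one_mul]
    rw [← ZMod.natCast_eq_zero_iff, ← ha g hg]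
    simp [mul_comm]
  have y2 : ((∏ r : R, r.1 ^ (a r).val : ℕ) : Qb) = (∏ r : R, z r ^ (a r).val) ^ s := by
    simp only [← Finset.prod_pow, ← pow_mul, mul_comm _ s]
    simp only [pow_mul, hz]
    push_cast
    rfl
  have x0 : ∏ r : R, r.1 ^ (a r).val ≠ 0 :=
    Finset.prod_ne_zero_iff.2 fun r _ => pow_ne_zero _ (hR r r.2).ne_zero
  obtain ⟨y, y3, -, y4⟩ := pow_descend (U := ⊤) hU le_top (m := s)
    (by rw [Subgroup.relIndex_top_right]; exact ((Nat.Prime.coprime_iff_not_dvd hs).2 hi).symm)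
    (x := ((∏ r : R, r.1 ^ (a r).val : ℕ) : Qb)) (by exact_mod_cast x0)
    (fun g _ => map_natCast g _) y1
    (by rw [← y2, div_self (by exact_mod_cast x0)]; exact IsOfFinOrder.one)
  obtain ⟨t, rfl⟩ := (InfiniteGalois.mem_range_algebraMap_iff_fixed (k := ℚ) y).2
    fun g => y3 g trivial
  have y5 : ((∏ r : R, r.1 ^ (a r).val : ℕ) : ℚ) = t ^ s := by
    apply (algebraMap ℚ Qb).injective
    rw [map_natCast, map_pow]
    exact y4 y2
  funext r
  have : Fact r.1.Prime := ⟨hR r r.2⟩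
  have y6 := congrArg (padicValRat r) y5
  have y7 : padicValNat r (∏ r : R, r.1 ^ (a r).val) = (a r).val := by
    rw [← Nat.factorization_def _ (hR r r.2),
      Nat.factorization_prod fun (r : R) _ => pow_ne_zero _ (hR r r.2).ne_zero, Finset.sum_apply',
      Finset.sum_eq_single r (fun r' _ h => ?_) (by simp)]
    · simp [(hR r r.2).factorization]
    · rw [(hR r' r'.2).factorization_pow, Finsupp.single_eq_of_ne fun h' => h (Subtype.ext h'.symm)]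
  rw [padicValRat.of_nat, y7, padicValRat.pow] at y6
  rw [Pi.zero_apply, ← ZMod.natCast_zmod_val (a r), ZMod.natCast_eq_zero_iff,
    ← Int.natCast_dvd_natCast]
  exact ⟨_, y6⟩

/-- Euler's criterion -/
theorem euler {B : ValuationSubring Qb} {ℓ s m r : ℕ} {φ : Gam} (hB : Over B ℓ) (hφ : Frob B φ ℓ)
    (hm : ℓ = s * m + 1) (hs : s ≠ 0) (hr : ¬ ℓ ∣ r) {z : Qb} (hz : z ^ s = r) :
    φ z = z ↔ 1 ≡ r ^ m [MOD ℓ] := by
  have v1 : B.valuation z = 1 := by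
    have := hB.val_nat hr
    rw [← hz, map_pow] at this
    exact (pow_eq_one_iff_of_nonneg zero_le hs).1 this
  have z0 : z ≠ 0 := fun h => by simp [h] at v1
  have h1 := hφ.2 z ((B.valuation_le_one_iff z).1 v1.le)
  have h2 : B.valuation (z ^ ℓ - z) < 1 ↔ 1 ≡ r ^ m [MOD ℓ] := by
    have : z ^ ℓ - z = (((r ^ m : ℕ) - (1 : ℕ) : ℤ) : Qb) * z := by
      conv_lhs => rw [hm, pow_succ, pow_mul, hz]
      push_cast
      ring
    rw [this, map_mul, v1, mul_one, hB.val_int, Nat.modEq_iff_dvd]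
  refine ⟨fun h => h2.1 (by rwa [h, Valuation.map_sub_swap] at h1), fun h => ?_⟩
  have h3 := B.valuation.map_add_lt h1 (h2.2 h)
  have h4 : (φ z / z) ^ s = 1 := by
    rw [div_pow, ← map_pow, hz, map_natCast, ← hz, div_self (pow_ne_zero _ z0)]
  refine (div_eq_one_iff_eq z0).1 (hB.eq_one_of_root (m := s) (fun h5 => ?_) h4 ?_)
  · exact hB.1.not_dvd_one ((Nat.dvd_add_right (h5.mul_right m)).1 (hm ▸ dvd_rfl))
  · rw [div_sub_one z0, map_div₀, v1, div_one]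
    simpa using h3

/-- the auxiliary prime `ℓ` -/
theorem exists_ell (W : Subgroup Gam) (hW : IsOpen (W : Set Gam)) (n ℓ₀ : ℕ) (Q : Finset ℕ)
    (P : ℕ → Finset ℕ) (hQ : ∀ q ∈ Q, q.Prime ∧ q ∉ P q ∧ ∀ p ∈ P q, p.Prime) :
    ∃ (ℓ : ℕ) (_ : Fact ℓ.Prime), ℓ₀ ≤ ℓ ∧ Nonempty (IntermediateField.fixedField W →+* ℚ_[ℓ]) ∧
      ∀ q ∈ Q, q < ℓ ∧ ∀ p ∈ P q, ∀ f a : ℕ, 0 < f → f ≤ n → ¬ p ^ f ≡ q ^ a [MOD ℓ] := by
  classical
  obtain ⟨s, U, h1, h2, h3, h4⟩ := exists_primes W hW n Q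
  choose! z hz using fun (s : ℕ) (hs : 0 < s) (r : ℕ) => sc_root sc_qb hs (r : Qb)
  choose! G g1 g2 using fun q (hq : q ∈ Q) => indep U h2 (h4 q hq).1 (h4 q hq).2.2.1 (h4 q hq).2.2.2
    (insert q (P q)) (fun r hr => (Finset.mem_insert.1 hr).elim (fun h => h ▸ (hQ q hq).1)
      ((hQ q hq).2.2 r)) (z (s q)) (hz _ (h4 q hq).1.pos) q
  have hp : ∀ q ∈ Q, ∀ r ∈ insert q (P q), r.Prime := fun q hq r hr =>
    (Finset.mem_insert.1 hr).elim (fun h => h ▸ (hQ q hq).1) ((hQ q hq).2.2 r)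
  obtain ⟨g, g3, g4⟩ := comb U s (fun q => z (s q) '' (insert q (P q) : Finset ℕ)) G Q h3
    fun q hq => ⟨(h4 q hq).1, (h4 q hq).2.2.2, g1 q hq, by
      rintro _ ⟨r, hr, rfl⟩
      have a1 := hz _ (h4 q hq).1.pos r
      refine ⟨fun h => ?_, fun g _ => by rw [a1, map_natCast]⟩
      rw [h, zero_pow (h4 q hq).1.ne_zero] at a1
      exact (hp q hq r hr).ne_zero (by exact_mod_cast a1.symm)⟩
  obtain ⟨N, n1, n2, n3⟩ := exists_open_fix (F := ℚ)
    (⋃ q ∈ Q, z (s q) '' (insert q (P q) : Finset ℕ))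
    (Q.finite_toSet.biUnion fun q _ => (Finset.finite_toSet _).image _)
  obtain ⟨q₀, hq₀⟩ := emb W hW
  obtain ⟨ℓ, l1, B, φ, l2, l3, l4, ⟨k, l5⟩, k', l6⟩ := fd U (U ⊓ N) (h2.inter n2) inf_le_left
    (fun u hu w hw => ⟨U.mul_mem (U.mul_mem hu hw.1) (U.inv_mem hu), n1.conj_mem w hw.2 u⟩) g3
    (ℓ₀ + q₀ + ∑ q ∈ Q, s q + ∑ q ∈ Q, ∑ r ∈ insert q (P q), r + 1)
  have : Fact ℓ.Prime := ⟨l2.1⟩
  have hlt : ∀ q ∈ Q, ∀ r ∈ insert q (P q), r < ℓ := fun q hq r hr => by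
    have a1 := Finset.single_le_sum (f := fun q => ∑ r ∈ insert q (P q), r) (fun _ _ => Nat.zero_le _) hq
    have a2 := Finset.single_le_sum (f := fun r => r) (fun _ _ => Nat.zero_le _) hr
    omega
  refine ⟨ℓ, this, by omega, hq₀ ℓ (by omega) B φ l2 (h1 l3) l4, fun q hq =>
    ⟨hlt q hq q (Finset.mem_insert_self _ _), fun p hp' f a hf hfn hcon => ?_⟩⟩
  obtain ⟨a1, a2, -, a4⟩ := h4 q hq
  have hfix : ∀ r ∈ insert q (P q), (φ (z (s q) r) = z (s q) r ↔ r = q) := fun r hr => by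
    have b1 := n3 (z (s q) r) (Set.mem_biUnion hq ⟨r, hr, rfl⟩)
    rw [← g2 q hq r hr, ← g4 q hq _ ⟨r, hr, rfl⟩]
    have b2 : ∀ (x y : Gam) (k : ℕ), x⁻¹ * y ^ k ∈ U ⊓ N → y (z (s q) r) = z (s q) r →
        x (z (s q) r) = z (s q) r := fun x y k c1 c2 => by
      have c3 := b1 _ c1.2
      rw [AlgEquiv.mul_apply, show (y ^ k) (z (s q) r) = z (s q) r from
        (MulAction.stabilizer Gam (z (s q) r)).pow_mem c2 k] at c3
      exact (MulAction.stabilizer Gam (z (s q) r)).inv_mem_iff.1 c3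
    exact ⟨b2 g φ k' l6, b2 φ g k l5⟩
  have hnd : ∀ r ∈ insert q (P q), ¬ ℓ ∣ r := fun r hr =>
    Nat.not_dvd_of_pos_of_lt (hp q hq r hr).pos (hlt q hq r hr)
  obtain ⟨ζ, hζ⟩ := sc_prim sc_qb a1.pos
  have hsl : ¬ ℓ ∣ s q := Nat.not_dvd_of_pos_of_lt a1.pos (by
    have := Finset.single_le_sum (f := s) (fun _ _ => Nat.zero_le _) hq
    omega)
  obtain ⟨m, hm⟩ : s q ∣ ℓ - 1 := by
    have b1 := l4.root l2 hsl hζ.pow_eq_one
    rw [a4 ζ hζ.pow_eq_one φ l3] at b1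
    rw [← hζ.pow_eq_one_iff_dvd]
    refine mul_right_cancel₀ (hζ.ne_zero a1.ne_zero) ?_
    rw [← pow_succ, Nat.sub_add_cancel l2.1.pos, one_mul, ← b1]
  have hm' : ℓ = s q * m + 1 := by have := l2.1.pos; omega
  have e1 := (euler l2 l4 hm' a1.ne_zero (hnd q (Finset.mem_insert_self _ _)) (hz _ a1.pos q)).1
    ((hfix q (Finset.mem_insert_self _ _)).2 rfl)
  have e2 : 1 ≡ (p ^ m) ^ f [MOD ℓ] := by
    have b1 := e1.pow a
    rw [one_pow, ← pow_mul, mul_comm, pow_mul] at b1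
    rw [← pow_mul, mul_comm, pow_mul]
    exact b1.trans (hcon.pow m).symm
  have e3 : 1 ≡ (p ^ m) ^ s q [MOD ℓ] := by
    rw [← pow_mul, mul_comm, ← hm, ← Nat.totient_prime l2.1]
    exact (Nat.ModEq.pow_totient ((Nat.Prime.coprime_iff_not_dvd l2.1).2
      (hnd p (Finset.mem_insert_of_mem hp'))).symm).symm
  have e4 : 1 ≡ p ^ m [MOD ℓ] := by
    rw [← ZMod.natCast_eq_natCast_iff] at e2 e3 ⊢
    push_cast at e2 e3 ⊢
    exact ((pow_eq_one_iff_of_coprime ((Nat.coprime_of_lt_prime hf.ne' (by omega) a1).symm)).1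
      ⟨e2.symm, e3.symm⟩).symm
  exact (hQ q hq).2.1 ((hfix p (Finset.mem_insert_of_mem hp')).1 ((euler l2 l4 hm' a1.ne_zero
    (hnd p (Finset.mem_insert_of_mem hp')) (hz _ a1.pos p)).2 e4) ▸ hp')

end RR

variable {F E : Type*} [Field F] [NumberField F] [Field E] [Algebra F E] [IsGalois F E]

theorem right (hE : IsSolvablyClosed E) (S : Setup F E) :
    {q : ℕ | ∃ A : ValuationSubring E, Over A q ∧ ¬ Near S.toPreSetup q A}.Finite := by
  have := cz F E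
  by_contra hinf
  obtain ⟨Q, hQ, hc⟩ := Set.Infinite.exists_subset_card_eq hinf (2 * S.H.index + 1)
  choose! A a1 a2 using fun q (hq : q ∈ Q) => hQ hq
  choose! P hP using fun q (hq : q ∈ Q) => (u2 hE S (a1 q hq)).exists_finset_coe
  have hP' : ∀ q ∈ Q, ∀ p, p ∈ P q ↔ Near S.toPreSetup p (A q) := fun q hq p => by
    rw [← Finset.mem_coe, hP q hq, Set.mem_ofPred_eq]
  obtain ⟨W, hW, ℓ₀, hA⟩ := caseA hE S
  obtain ⟨ℓ, hℓ, l1, l2, l3⟩ := RR.exists_ell W hW S.H.index (ℓ₀ + 3) Q P fun q hq =>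
    ⟨(a1 q hq).1, fun h => a2 q hq ((hP' q hq q).1 h), fun p hp => by
      obtain ⟨B, -, -, h, -⟩ := (hP' q hq p).1 hp
      exact h.1⟩
  obtain ⟨Y⟩ := sys hE S.toPreSetup hℓ.out (by omega)
  have key := ub hE S.toPreSetup ℓ (by omega) Y (hA ℓ (by omega) l2 ⟨Y⟩) Q A fun q hq =>
    ⟨a1 q hq, fun p hp => ?_⟩
  · omega
  obtain ⟨B, σ, f, b1, -, b3, b4, b5⟩ := Y.near p _ hp
  obtain ⟨ζ, hζ⟩ := sc_prim hE hℓ.out.pos
  have hql : ¬ q ∣ ℓ := fun h =>
    (l3 q hq).1.ne ((Nat.prime_dvd_prime_iff_eq (a1 q hq).1 hℓ.out).1 h)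
  have v1 : (A q).valuation ζ = 1 := by
    have := congrArg (A q).valuation hζ.pow_eq_one
    rw [map_pow, map_one] at this
    exact (pow_eq_one_iff_of_nonneg zero_le hℓ.out.ne_zero).1 this
  obtain ⟨a, ha⟩ := dec (a1 q hq) b4 {ζ} (by
    simpa using ((A q).valuation_le_one_iff ζ).1 v1.le)
  have c1 := ha ζ (Finset.mem_singleton_self _)
  rw [b5 1 ζ (by rw [pow_one, hζ.pow_eq_one])] at c1
  have z0 : ζ ^ q ^ a ≠ 0 := pow_ne_zero _ (hζ.ne_zero hℓ.out.ne_zero)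
  have c2 : ζ ^ p ^ f / ζ ^ q ^ a = 1 := (a1 q hq).eq_one_of_root hql
    (by rw [div_pow, ← pow_mul, ← pow_mul, mul_comm, pow_mul, mul_comm, pow_mul, hζ.pow_eq_one]; simp)
    (by rw [div_sub_one z0, map_div₀, map_pow, v1, one_pow, div_one]; exact c1)
  refine (l3 q hq).2 p ((hP' q hq p).2 ⟨B, σ, f, b1, b3, b4⟩) f a b3.2.1 (b3.le_index S.hH b1) ?_
  rw [hζ.eq_orderOf]
  exact (hζ.isOfFinOrder hℓ.out.ne_zero).pow_eq_pow_iff_modEq.1 ((div_eq_one_iff_eq z0).1 c2)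

end Crest.Agent.R18
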