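import Crest.Agent.R18.Defs

/-! Row 18 toolkit: solvably closed fields, roots, cyclotomic character. -/

set_option autoImplicit false
set_option linter.unusedSectionVars false
open scoped Pointwise NumberField
open IsDedekindDomain Crest.NumberTheoryR

namespace Crest.Agent.R18

variable {F E : Type*} [Field F] [NumberField F] [Field E] [Algebra F E] [IsGalois F E]

/-- use `haveI := cz F E` -/
theorem cz (F E : Type*) [Field F] [NumberField F] [Field E] [Algebra F E] : CharZero E :=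
  charZero_of_injective_algebraMap (algebraMap F E).injective

theorem sc_qb : IsSolvablyClosed Qb := by
  intro p _
  exact IsAlgClosed.splits p

theorem sc_aux_comm1 {K : Type*} [Field K] [Algebra E K] {n : ℕ} (hn' : 0 < n)
    (σ τ : K ≃ₐ[E] K) (a : K) (ha : a ^ n = 1) : σ (τ a) = τ (σ a) := by
  have key : ∀ σ : K ≃ₐ[E] K, ∃ m : ℕ, σ a = a ^ m := by
    intro σ
    lift n to ℕ+ using hn'
    exact map_rootsOfUnity_eq_pow_self σ.toAlgHom (rootsOfUnity.mkOfPowEq a ha)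
  obtain ⟨c, hc⟩ := key σ
  obtain ⟨d, hd⟩ := key τ
  rw [hc, hd, map_pow, map_pow, hc, hd, ← pow_mul, ← pow_mul, mul_comm]

open Polynomial in
theorem sc_aux_one (hE : IsSolvablyClosed E) {n : ℕ} (hn' : 0 < n) :
    (X ^ n - 1 : E[X]).Splits := by
  apply hE
  have hn'' : (X ^ n - 1 : E[X]) ≠ 0 := X_pow_sub_C_ne_zero hn' 1
  intro σ τ
  ext a ha
  simp only [mem_rootSet_of_ne hn'', map_sub, aeval_X_pow, aeval_one, sub_eq_zero] at ha
  exact sc_aux_comm1 hn' σ τ a ha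

open Polynomial in
theorem sc_aux_comm2 {K : Type*} [Field K] [Algebra E K] [Algebra.IsAlgebraic E K] {n : ℕ}
    (hn' : 0 < n) (h : (X ^ n - 1 : E[X]).Splits) {a : E} (ha : a ≠ 0)
    (σ τ : K ≃ₐ[E] K) (b : K) (hb : b ^ n = algebraMap E K a) : σ (τ b) = τ (σ b) := by
  have ha' : algebraMap E K a ≠ 0 :=
    mt ((injective_iff_map_eq_zero _).mp (RingHom.injective _) a) ha
  have hn3 : (X ^ n - 1 : E[X]) ≠ 0 := X_pow_sub_C_ne_zero hn' 1
  have mem_range : ∀ {c : K}, (c ^ n = 1 → (∃ d, algebraMap E K d = c)) := fun {c} hc =>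
    RingHom.mem_range.mp (minpoly.mem_range_of_degree_eq_one E c
      (Splits.degree_eq_one_of_irreducible (h.of_dvd hn3
        (minpoly.dvd E c (by rwa [map_sub, sub_eq_zero, aeval_X_pow, aeval_one])))
          (minpoly.irreducible (Algebra.IsAlgebraic.isAlgebraic c).isIntegral)))
  have hb' : b ≠ 0 := by
    intro hb'
    rw [hb', zero_pow hn'.ne'] at hb
    exact ha' hb.symm
  have key : ∀ σ : K ≃ₐ[E] K, ∃ c, σ b = b * algebraMap E K c := by
    intro σ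
    have key : (σ b / b) ^ n = 1 := by rw [div_pow, ← map_pow, hb, σ.commutes, div_self ha']
    obtain ⟨c, hc⟩ := mem_range key
    use c
    rw [hc, mul_div_cancel₀ (σ b) hb']
  obtain ⟨c, hc⟩ := key σ
  obtain ⟨d, hd⟩ := key τ
  rw [hc, hd, map_mul, map_mul, σ.commutes, τ.commutes, hc, hd]
  ring

open Polynomial in
theorem sc_aux_C (hE : IsSolvablyClosed E) {n : ℕ} (hn' : 0 < n) {a : E} (ha : a ≠ 0) :
    (X ^ n - C a : E[X]).Splits := by
  have h := sc_aux_one hE hn'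
  apply hE
  have hn'' : X ^ n - C a ≠ 0 := X_pow_sub_C_ne_zero hn' a
  intro σ τ
  ext b hb
  rw [mem_rootSet_of_ne hn'', map_sub, aeval_X_pow, aeval_C, sub_eq_zero] at hb
  exact sc_aux_comm2 hn' h ha σ τ b hb

theorem sc_prim [CharZero E] (hE : IsSolvablyClosed E) {n : ℕ} (hn : 0 < n) :
    ∃ ζ : E, IsPrimitiveRoot ζ n := by
  have h := sc_aux_one hE hn
  have h1 : (Polynomial.cyclotomic n E).Splits :=
    h.of_dvd (Polynomial.X_pow_sub_C_ne_zero hn 1) (Polynomial.cyclotomic.dvd_X_pow_sub_one n E)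
  obtain ⟨ζ, hζ⟩ := h1.exists_eval_eq_zero (Polynomial.degree_cyclotomic_pos n E hn).ne'
  exact ⟨ζ, (Polynomial.isRoot_cyclotomic_iff_charZero hn).1 hζ⟩

theorem sc_root [CharZero E] (hE : IsSolvablyClosed E) {n : ℕ} (hn : 0 < n) (x : E) :
    ∃ z : E, z ^ n = x := by
  by_cases hx : x = 0
  · exact ⟨0, by rw [hx, zero_pow hn.ne']⟩
  obtain ⟨z, hz⟩ := (sc_aux_C hE hn hx).exists_eval_eq_zero
    (by rw [Polynomial.degree_X_pow_sub_C hn]; exact_mod_cast hn.ne')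
  refine ⟨z, ?_⟩
  simpa [sub_eq_zero] using hz

theorem sc_enough [CharZero E] (hE : IsSolvablyClosed E) (n : ℕ) [NeZero n] :
    HasEnoughRootsOfUnity E n := by
  exact ⟨sc_prim hE (NeZero.pos n), rootsOfUnity.isCyclic _ _⟩

theorem chi_mul (ℓ : ℕ) [Fact ℓ.Prime] (g h : E ≃ₐ[F] E) : chi ℓ (g * h) = chi ℓ g * chi ℓ h := by
  unfold chi
  rw [← map_mul]
  rfl

theorem chi_spec (hE : IsSolvablyClosed E) (ℓ : ℕ) [Fact ℓ.Prime] (g : E ≃ₐ[F] E) (n : ℕ) (ζ : E)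
    (hζ : ζ ^ (ℓ ^ n) = 1) :
    g ζ = ζ ^ (PadicInt.toZModPow n (chi ℓ g : ℤ_[ℓ])).val := by
  have := cz F E
  have : ∀ i, HasEnoughRootsOfUnity E (ℓ ^ i) := fun i => sc_enough hE _
  exact cyclotomicCharacter.spec ℓ (g : E ≃+* E) ζ hζ

theorem chi_eq_nat (hE : IsSolvablyClosed E) (ℓ : ℕ) [Fact ℓ.Prime] (g : E ≃ₐ[F] E) (u : ℕ)
    (h : ∀ (n : ℕ) (ζ : E), ζ ^ (ℓ ^ n) = 1 → g ζ = ζ ^ u) : (chi ℓ g : ℤ_[ℓ]) = u := by
  have := cz F E
  refine PadicInt.ext_of_toZModPow.mp fun n => ?_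
  obtain ⟨ζ, hζ⟩ := sc_prim hE (n := ℓ ^ n) (NeZero.pos _)
  have h1 := chi_spec hE ℓ g n ζ hζ.pow_eq_one
  rw [h n ζ hζ.pow_eq_one] at h1
  have h2 : u ≡ (PadicInt.toZModPow n (chi ℓ g : ℤ_[ℓ])).val [MOD ℓ ^ n] := by
    have hfin : IsOfFinOrder ζ := isOfFinOrder_iff_pow_eq_one.2 ⟨ℓ ^ n, NeZero.pos _, hζ.pow_eq_one⟩
    have h3 := hfin.pow_eq_pow_iff_modEq.1 h1
    rwa [← hζ.eq_orderOf] at h3
  rw [map_natCast, (ZMod.natCast_eq_natCast_iff _ _ _).2 h2, ZMod.natCast_zmod_val]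

theorem chi_cont (ℓ : ℕ) [Fact ℓ.Prime] :
    Continuous fun g : E ≃ₐ[F] E => (chi ℓ g : ℤ_[ℓ]) := by
  exact Units.continuous_val.comp (cyclotomicCharacter.continuous ℓ F E)

end Crest.Agent.R18
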