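import Crest.Agent.R18.Grp

/-! Row 18 toolkit: the finite Galois extension attached to `U' ⊴ U`. -/

set_option autoImplicit false
set_option linter.unusedSectionVars false
open scoped Pointwise NumberField
open IsDedekindDomain Crest.NumberTheoryR

namespace Crest.Agent.R18

variable {F E : Type*} [Field F] [NumberField F] [Field E] [Algebra F E] [IsGalois F E]

open IntermediateField

/-- `fixedField U'` as an algebra over `fixedField U` -/
@[reducible] noncomputable def towerAlg {U U' : Subgroup (E ≃ₐ[F] E)} (hle : U' ≤ U) :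
    Algebra (fixedField U) (fixedField U') :=
  (IntermediateField.inclusion (fixedField_antitone hle)).toRingHom.toAlgebra

theorem tower_coe {U U' : Subgroup (E ≃ₐ[F] E)} (hle : U' ≤ U) (x : fixedField U) :
    letI := towerAlg hle
    ((algebraMap (fixedField U) (fixedField U') x : fixedField U') : E) = x := rfl

theorem tower_finrank {U U' : Subgroup (E ≃ₐ[F] E)} (hU' : IsOpen (U' : Set (E ≃ₐ[F] E))) (hle : U' ≤ U) :
    letI := towerAlg hle
    FiniteDimensional (fixedField U) (fixedField U') ∧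
      Module.finrank (fixedField U) (fixedField U') = U'.relIndex U := by
  let := towerAlg hle
  have : IsScalarTower F (fixedField U) (fixedField U') := IsScalarTower.of_algebraMap_eq fun _ => rfl
  have hU := Subgroup.isOpen_mono hle hU'
  have h := Module.finrank_mul_finrank F (fixedField U) (fixedField U')
  rw [finrank_fixedField U hU, finrank_fixedField U' hU', ← Subgroup.relIndex_mul_index hle, mul_comm] at h
  have e := Nat.eq_of_mul_eq_mul_right (Nat.pos_of_ne_zero (finiteIndex_of_open U hU).1) h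
  refine ⟨Module.finite_of_finrank_pos (Nat.pos_of_ne_zero fun h0 => (finiteIndex_of_open U' hU').1 ?_), e⟩
  rw [← Subgroup.relIndex_mul_index hle, ← e, h0, zero_mul]

theorem tower {U U' : Subgroup (E ≃ₐ[F] E)} (hU' : IsOpen (U' : Set (E ≃ₐ[F] E))) (hle : U' ≤ U)
    (hn : ∀ u ∈ U, ∀ w ∈ U', u * w * u⁻¹ ∈ U') :
    letI := towerAlg hle
    IsGalois (fixedField U) (fixedField U') ∧
      Module.finrank (fixedField U) (fixedField U') = U'.relIndex U ∧
      ∃ res : U →* (fixedField U' ≃ₐ[fixedField U] fixedField U'), Function.Surjective res ∧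
        (∀ (g : U) (x : fixedField U'), ((res g x : fixedField U') : E) = (g : E ≃ₐ[F] E) x) ∧
        ∀ g : U, res g = 1 ↔ (g : E ≃ₐ[F] E) ∈ U' := by
  let := towerAlg hle
  obtain ⟨hfd, hr⟩ := tower_finrank hU' hle
  have hm : ∀ (g : U) (x : fixedField U'), (g : E ≃ₐ[F] E) x ∈ fixedField U' := fun g x =>
    (mem_fixedField_iff _ _).2 fun w hw => by
      have h1 := (mem_fixedField_iff _ _).1 x.2 _ (hn _ g⁻¹.2 w hw)
      simp only [InvMemClass.coe_inv, inv_inv, AlgEquiv.mul_apply] at h1
      rw [← AlgEquiv.mul_apply] at h1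
      conv_rhs => rw [← h1]
      simp
  let res : U →* (fixedField U' ≃ₐ[fixedField U] fixedField U') :=
    { toFun := fun g =>
        { toFun := fun x => ⟨_, hm g x⟩
          invFun := fun x => ⟨_, hm g⁻¹ x⟩
          left_inv := fun x => Subtype.ext (by simp)
          right_inv := fun x => Subtype.ext (by simp)
          map_mul' := fun x y => Subtype.ext (map_mul (g : E ≃ₐ[F] E) _ _)
          map_add' := fun x y => Subtype.ext (map_add (g : E ≃ₐ[F] E) _ _)
          commutes' := fun x => Subtype.ext ((mem_fixedField_iff _ _).1 x.2 _ g.2) }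
      map_one' := rfl
      map_mul' := fun _ _ => rfl }
  have hk : ∀ g : U, res g = 1 ↔ (g : E ≃ₐ[F] E) ∈ U' := fun g =>
    ⟨fun h => mem_of_fix U' (U'.isClosed_of_isOpen hU') _ fun x hx =>
      congrArg Subtype.val (AlgEquiv.congr_fun h ⟨x, (fix_iff_mem _ _).1 hx⟩),
     fun h => AlgEquiv.ext fun x => Subtype.ext ((mem_fixedField_iff _ _).1 x.2 _ h)⟩
  have hc : Nat.card res.range = Module.finrank (fixedField U) (fixedField U') := by
    rw [← Subgroup.index_ker, hr, Subgroup.relIndex]
    congr 1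
    exact Subgroup.ext hk
  have hle' : Nat.card (fixedField U' ≃ₐ[fixedField U] fixedField U') ≤ Nat.card res.range := by
    rw [hc, Nat.card_eq_fintype_card]
    exact AlgEquiv.card_le
  have ht : res.range = ⊤ := Subgroup.eq_top_of_le_card _ hle'
  refine ⟨IsGalois.of_card_aut_eq_finrank _ _ ?_, hr, res, MonoidHom.range_eq_top.1 ht, fun _ _ => rfl, hk⟩
  rw [← hc, ht, Subgroup.card_top]

/-- norm from `fixedField U'` down to `fixedField U`: an `m`-th power up to elements of a
`U`-stable multiplicative set descends when the index is prime to `m` -/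
theorem pow_descend {U U' : Subgroup (E ≃ₐ[F] E)} (hU' : IsOpen (U' : Set (E ≃ₐ[F] E)))
    (hle : U' ≤ U) {m : ℕ} (hm : Nat.Coprime (U'.relIndex U) m) {x y : E} (hx0 : x ≠ 0)
    (hx : Fix U x) (hy : Fix U' y) (h : IsOfFinOrder (x / y ^ m)) :
    ∃ y', Fix U y' ∧ IsOfFinOrder (x / y' ^ m) ∧ (x = y ^ m → x = y' ^ m) := by
  let := towerAlg hle
  obtain ⟨hfd, hr⟩ := tower_finrank hU' hle
  obtain ⟨x, rfl⟩ : ∃ x' : fixedField U, (x' : E) = x := ⟨⟨x, (fix_iff_mem _ _).1 hx⟩, rfl⟩
  obtain ⟨y, rfl⟩ : ∃ y' : fixedField U', (y' : E) = y := ⟨⟨y, (fix_iff_mem _ _).1 hy⟩, rfl⟩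
  set ζ : fixedField U' := algebraMap (fixedField U) _ x / y ^ m with hζ
  have hζ' : (ζ : E) = x / y ^ m := rfl
  have h1 : IsOfFinOrder ζ := by
    rw [← hζ'] at h
    exact (Function.Injective.isOfFinOrder_iff (f := (fixedField U').val.toMonoidHom)
      Subtype.val_injective).1 h
  have hy0 : y ^ m ≠ 0 := fun e => h1.isUnit.ne_zero (by rw [hζ, e, div_zero])
  have h2 := congrArg (Algebra.norm (fixedField U)) (div_mul_cancel₀ (algebraMap (fixedField U) _ x) hy0)
  rw [← hζ, map_mul, map_pow, Algebra.norm_algebraMap, hr] at h2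
  have h3 : IsOfFinOrder ((Algebra.norm (fixedField U) ζ : fixedField U) : E) :=
    ((fixedField U).val.toMonoidHom.comp (Algebra.norm _)).isOfFinOrder h1
  have h4 : (x : E) = y ^ m → ((Algebra.norm (fixedField U) ζ : fixedField U) : E) = 1 := fun e => by
    have : ζ = 1 := Subtype.ext (by rw [hζ', ← e, div_self hx0]; rfl)
    rw [this, map_one]; rfl
  replace h2 := congrArg Subtype.val h2
  simp only [MulMemClass.coe_mul, SubmonoidClass.coe_pow] at h2
  obtain ⟨u, v, huv⟩ := Nat.isCoprime_iff_coprime.2 hm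
  have h5 := h3.isUnit.ne_zero
  have hN := (fix_iff_mem _ _).2 (Algebra.norm (fixedField U) y).2
  generalize ((Algebra.norm (fixedField U) ζ : fixedField U) : E) = z at *
  generalize ((Algebra.norm (fixedField U) y : fixedField U) : E) = N at *
  have e : (x : E) = z ^ u * (N ^ u * x ^ v) ^ m := by
    rw [mul_pow, ← zpow_natCast, ← zpow_natCast, ← zpow_mul, ← zpow_mul, mul_comm u, zpow_mul, ← mul_assoc,
      ← mul_zpow, zpow_natCast, h2, ← zpow_natCast, ← zpow_mul, ← zpow_add₀ hx0, mul_comm _ u, huv, zpow_one]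
  have h6 : (N ^ u * x ^ v) ^ m ≠ 0 := fun e' => hx0 (by rw [e, e', mul_zero])
  refine ⟨N ^ u * x ^ v, fun g hg => by rw [map_mul, map_zpow₀, map_zpow₀, hN g hg, hx g hg], ?_,
    fun e' => by rw [h4 e', one_zpow, one_mul] at e; exact e⟩
  rw [(div_eq_iff h6).2 e]
  obtain ⟨n, hn, e1⟩ := isOfFinOrder_iff_pow_eq_one.1 h3
  exact isOfFinOrder_iff_pow_eq_one.2 ⟨n, hn, by
    rw [← zpow_natCast, ← zpow_mul, mul_comm, zpow_mul, zpow_natCast, e1, one_zpow]⟩

end Crest.Agent.R18
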