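import Crest.Agent.R18.Loc
import Crest.Agent.R18.MU
import Crest.Agent.R18.W1.Main
import Crest.Agent.R18.W2.Lim
import Crest.Agent.R18.W2.Fin

/-! Row 18 block W: existence of equivariant `ℤ_[ℓ]`-characters. -/

set_option autoImplicit false
set_option linter.unusedSectionVars false
open scoped Pointwise NumberField
open IsDedekindDomain Crest.NumberTheoryR

namespace Crest.Agent.R18

variable {F E : Type*} [Field F] [NumberField F] [Field E] [Algebra F E] [IsGalois F E]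

/-- equivariant characters modulo `ℓ ^ k` that are unramified outside `ℓ` -/
def WSet (ℓ k : ℕ) [Fact ℓ.Prime] {s : ℕ} (U U' : Subgroup (E ≃ₐ[F] E))
    (ρ : (E ≃ₐ[F] E) → ZMod s) (ζ : ℤ_[ℓ]) : Set ((E ≃ₐ[F] E) → ZMod (ℓ ^ k)) :=
  {η | IsChar U' η ∧ Equi U U' ρ (PadicInt.toZModPow k ζ) η ∧ (∀ g, g ∉ U' → η g = 0) ∧
    ∀ (A : ValuationSubring E) (p : ℕ), Over A p → p ≠ ℓ → ∀ i ∈ U', Inert A i → η i = 0}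

/-- block W1: many equivariant characters at each finite level -/
theorem w1 (hE : IsSolvablyClosed E) {s : ℕ} (hs : s.Prime) (U U' : Subgroup (E ≃ₐ[F] E))
    (hU : IsOpen (U : Set (E ≃ₐ[F] E))) (h6 : 6 ≤ U.index) (i : E) (hi : i ^ 2 = -1)
    (hfi : Fix U i) (ρ : (E ≃ₐ[F] E) → ZMod s) (hρ : IsChar U ρ) (hρ0 : ∃ g ∈ U, ρ g ≠ 0)
    (hU' : ∀ g, g ∈ U' ↔ g ∈ U ∧ ρ g = 0) (ℓ : ℕ) [Fact ℓ.Prime] (h2 : ℓ ≠ 2) (hsl : s ≠ ℓ)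
    (ζ : ℤ_[ℓ]) (hζ : IsPrimitiveRoot ζ s) (k : ℕ) :
    ∃ T : Finset ((E ≃ₐ[F] E) → ZMod (ℓ ^ k)), (T : Set _) ⊆ WSet ℓ k U U' ρ ζ ∧
      ℓ ^ (2 * k) ≤ T.card :=
  w1m hE hs U U' hU h6 i hi hfi ρ hρ hρ0 hU' ℓ h2 hsl ζ hζ k

theorem lemmaW (hE : IsSolvablyClosed E) {s : ℕ} (hs : s.Prime) (U U' : Subgroup (E ≃ₐ[F] E))
    (hU : IsOpen (U : Set (E ≃ₐ[F] E))) (h6 : 6 ≤ U.index) (i : E) (hi : i ^ 2 = -1)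
    (hfi : Fix U i) (ρ : (E ≃ₐ[F] E) → ZMod s) (hρ : IsChar U ρ) (hρ0 : ∃ g ∈ U, ρ g ≠ 0)
    (hU' : ∀ g, g ∈ U' ↔ g ∈ U ∧ ρ g = 0) (ℓ : ℕ) [Fact ℓ.Prime] (h2 : ℓ ≠ 2) (hsl : s ≠ ℓ)
    (ζ : ℤ_[ℓ]) (hζ : IsPrimitiveRoot ζ s) (φ₀ : E ≃ₐ[F] E) (hφ₀ : φ₀ ∈ U') :
    ∃ η : (E ≃ₐ[F] E) → ℤ_[ℓ], IsChar U' η ∧ (∃ g ∈ U', η g ≠ 0) ∧ Equi U U' ρ ζ η ∧
      η φ₀ = 0 := by
  have _ := hφ₀
  refine W2.lim (I := fun g => ∃ (A : ValuationSubring E) (p : ℕ), Over A p ∧ p ≠ ℓ ∧ g ∈ U' ∧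
    Inert A g) ζ φ₀ ((W2.finite_unr hE U' (hρ.ker_open hU hU') (Fact.out : ℓ.Prime) 1).subset
      fun η h => ⟨h.1, h.2.2.1, fun A p hA hp g hg hI => h.2.2.2 g ⟨A, p, hA, hp, hg, hI⟩⟩)
    fun k => ?_
  obtain ⟨T, hT, hc⟩ := w1 hE hs U U' hU h6 i hi hfi ρ hρ hρ0 hU' ℓ h2 hsl ζ hζ k
  refine ⟨T, fun η hη => ?_, hc⟩
  obtain ⟨h1, h2, h3, h4⟩ := hT hη
  exact ⟨h1, h2, h3, fun g ⟨A, p, hA, hp, hg, hI⟩ => h4 A p hA hp g hg hI⟩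

end Crest.Agent.R18
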