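import Crest.Agent.R18.G
import Crest.Agent.R18.W
import Crest.Agent.R18.Gen
import Crest.Agent.R18.KP
import Crest.Agent.R18.UC.Lem

/-! Row 18 block UC: finite fibres, and the cyclotomic characters agree up to finite order. -/

set_option autoImplicit false
set_option linter.unusedSectionVars false
open scoped Pointwise NumberField
open IsDedekindDomain Crest.NumberTheoryR

namespace Crest.Agent.R18

variable {F E : Type*} [Field F] [NumberField F] [Field E] [Algebra F E] [IsGalois F E]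

/-- `lemmaW` and `lemmaG` combined, with the choice of the auxiliary prime -/
theorem gw (hE : IsSolvablyClosed E) (S : PreSetup F E) {s : ℕ} (hs : s.Prime)
    (G' G'' : Subgroup (E ≃ₐ[F] E)) (hG' : IsOpen (G' : Set (E ≃ₐ[F] E))) (h6 : 6 ≤ G'.index)
    (i : E) (hi : i ^ 2 = -1) (hfi : Fix G' i) (ρ : (E ≃ₐ[F] E) → ZMod s) (hρ : IsChar G' ρ)
    (hρ0 : ∃ g ∈ G', ρ g ≠ 0) (hgen : Generic (S.pre G') (fun x => ρ (S.a x)))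
    (hG'' : ∀ g, g ∈ G'' ↔ g ∈ G' ∧ ρ g = 0) (φ₀ : E ≃ₐ[F] E) (hφ₀ : φ₀ ∈ G'') (q₀ : ℕ) :
    ∃ (ℓ : ℕ) (_ : Fact ℓ.Prime), q₀ ≤ ℓ ∧ ∃ (ζ : ℤ_[ℓ]) (η : (E ≃ₐ[F] E) → ℤ_[ℓ]),
      IsPrimitiveRoot ζ s ∧ IsChar G'' η ∧ Equi G' G'' ρ ζ η ∧ η φ₀ = 0 ∧
      {p : ℕ | ∃ (B : ValuationSubring Qb) (σ : Gam) (f : ℕ), Over B p ∧ MinFrob S.H B p σ f ∧
        ∀ a : ℕ, S.a σ ^ a ∈ G' → S.a σ ^ a ∈ G'' ∧ η (S.a σ ^ a) = 0}.Finite := by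
  have hH' := S.pre_open G' hG'
  have hG''o := hρ.ker_open hG' hG''
  have hH'' := S.pre_open G'' hG''o
  obtain ⟨ξ, hξ⟩ := sc_prim sc_qb hs.pos
  obtain ⟨W₁, hn₁, ho₁, hf₁⟩ := exists_open_fix (F := ℚ) {ξ} (Set.finite_singleton ξ)
  let W := (S.pre G'').normalCore ⊓ W₁
  have hW : IsOpen (W : Set Gam) := (open_normalCore _ hH'').inter ho₁
  have hWn : W.Normal := Subgroup.normal_inf_normal _ _
  obtain ⟨q₁, hq₁⟩ := emb W hW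
  obtain ⟨ℓ, hℓ, A, φ, hA, hφ, hfr, -⟩ := fd W W hW le_rfl (fun u _ w hw => hWn.conj_mem w hw u) W.one_mem
    (q₀ + q₁ + s + 3)
  have := Fact.mk hA.1
  obtain ⟨e⟩ := hq₁ ℓ (by omega) A φ hA hφ hfr
  obtain ⟨⟨ζ, hζ⟩, -⟩ := exists_prim_padic e hs (by omega) hξ fun g hg => hf₁ ξ rfl g hg.2
  obtain ⟨η, hη, ⟨g₀, hg₀, hη0⟩, heq, hφ0⟩ := lemmaW hE hs G' G'' hG' h6 i hi hfi ρ hρ hρ0 hG'' ℓ (by omega)
    (by omega) ζ hζ φ₀ hφ₀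
  refine ⟨ℓ, this, by omega, ζ, η, hζ, hη, heq, hφ0, ?_⟩
  have hη' := S.isChar_comp hη
  have fin := lemmaG hs (S.pre G') (S.pre G'') W _ (S.isChar_comp hρ) (by
      obtain ⟨g, hg, h0⟩ := hρ0
      obtain ⟨h, hh, rfl⟩ := S.surj g
      exact ⟨h, ⟨hh, hg⟩, h0⟩) hgen (fun g => by simp only [S.mem_pre, hG'', and_assoc]) hW hWn
    (inf_le_left.trans (Subgroup.normalCore_le _)) ℓ (by omega) e ζ hζ _ hη' (by
      obtain ⟨h, hh, rfl⟩ := S.surj g₀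
      exact ⟨h, ⟨hh, hg₀⟩, hη0⟩) (fun δ hδ g hg => by
      rw [S.mul _ (S.H.mul_mem hδ.1 hg.1) _ (S.H.inv_mem hδ.1), S.mul _ hδ.1 _ hg.1, S.a_inv hδ.1]
      exact heq _ hδ.2 _ hg.2)
  obtain ⟨q₂, hq₂⟩ := dec1 _ hH''
  obtain ⟨K, hK⟩ := hη'.exists_ker
  refine (fin.union (Set.finite_lt_nat (q₂ + ℓ + 1))).subset ?_
  rintro p ⟨B, σ, f, hB, hσ, h⟩
  refine (lt_or_ge p _).symm.imp (fun hp => ⟨B, hB, fun d hd hs => (hK d).1 ?_⟩) id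
  refine UC.dec_mem S.hH hH' (hη'.ker_closed (Subgroup.isClosed_of_isOpen _ hH'') hK)
    (fun g hg => ⟨((hK g).1 hg).1.1, ((hG'' _).1 ((hK g).1 hg).1.2).1⟩) hB hσ hd.1 hd hs (fun i _ hI => ?_)
    fun a ha => ?_
  · have hi := (hq₂ p (by omega) B hB).1 i hI
    exact (hK i).2 ⟨hi, unr _ hH'' hη' hB (by omega) hi hI⟩
  · have := h a (S.a_pow hσ.1 a ▸ ha.2)
    rw [← S.a_pow hσ.1] at this
    exact (hK _).2 ⟨⟨ha.1, this.1⟩, this.2⟩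

theorem u2 (hE : IsSolvablyClosed E) (S : Setup F E) {A : ValuationSubring E} {q : ℕ}
    (hA : Over A q) : {p : ℕ | Near S.toPreSetup p A}.Finite := by
  have := cz F E
  obtain ⟨s, hqs, hs⟩ := Nat.exists_infinite_primes (q + 1)
  obtain ⟨G₀, hG₀, hgen⟩ := gen hE S
  obtain ⟨i, hi⟩ := sc_root hE two_pos (-1 : E)
  obtain ⟨G', hle, hn, hG', h6, hT⟩ := exists_level hE G₀ hG₀ (insert i {ζ | ζ ^ s = 1})
    ((UC.finite_roots hs.pos).insert i) 6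
  obtain ⟨ρ, hρ, hρ0, hg, hD⟩ := hgen G' hle hn hG' s hs (fun ζ hζ => hT ζ (Or.inr hζ)) A q hA (by omega)
  obtain ⟨G'', hG''⟩ := hρ.exists_ker
  have hG''o := hρ.ker_open hG' hG''
  obtain ⟨φ₀, f₀, hφ₀⟩ := exists_minFrob G' hG' hA
  have m0 : φ₀ ∈ G'' := (hG'' _).2 ⟨hφ₀.1, hD _ hφ₀.1 hφ₀.2.2.1.1⟩
  obtain ⟨ℓ, _, hℓ, ζ, η, -, hη, -, h0, fin⟩ := gw hE S.toPreSetup hs G' G'' hG' h6 i hi (hT i (Or.inl rfl)) ρ hρ hρ0
    hg hG'' φ₀ m0 (q + 1)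
  obtain ⟨K, hK⟩ := hη.exists_ker
  refine fin.subset ?_
  rintro p ⟨B, σ, f, hB, hσ, hst⟩
  refine ⟨B, σ, f, hB, hσ, fun a ha => (hK _).1 ?_⟩
  refine UC.dec_mem hG' hG' (hη.ker_closed (Subgroup.isClosed_of_isOpen _ hG''o) hK)
    (fun g hg => ((hG'' _).1 ((hK g).1 hg).1).1) hA hφ₀ ha ha (hst.pow a) (fun j hj hI => ?_)
    fun a _ => K.pow_mem ((hK _).2 ⟨m0, h0⟩) a
  have hj' := (hG'' _).2 ⟨hj, hD j hj hI.1⟩
  exact (hK j).2 ⟨hj', unr _ hG''o hη hA (by omega) hj' hI⟩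

theorem caseA (hE : IsSolvablyClosed E) (S : Setup F E) :
    ∃ W : Subgroup Gam, IsOpen (W : Set Gam) ∧ ∃ ℓ₀ : ℕ, ∀ (ℓ : ℕ) [Fact ℓ.Prime], ℓ₀ ≤ ℓ →
      Nonempty (IntermediateField.fixedField W →+* ℚ_[ℓ]) →
      Nonempty (HitSys S.toPreSetup ℓ) → CaseA S.toPreSetup ℓ := by
  classical
  have := cz F E
  obtain ⟨G₀, hG₀, hgen⟩ := gen hE S
  obtain ⟨i, hi⟩ := sc_root hE two_pos (-1 : E)
  let P := (Finset.range (S.H.index + 1)).filter Nat.Prime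
  have hP : ∀ s ∈ P, s.Prime := fun s hs => (Finset.mem_filter.1 hs).2
  have hPle : ∀ s ∈ P, s ≤ S.H.index := fun s hs => by simpa using (Finset.mem_filter.1 hs).1
  obtain ⟨G', hle, hn, hG', h6, hT⟩ := exists_level hE G₀ hG₀ (insert i (⋃ s ∈ P, {ζ | ζ ^ s = 1}))
    ((P.finite_toSet.biUnion fun s hs => UC.finite_roots (hP s hs).pos).insert i) 6
  have hμ : ∀ s ∈ P, ∀ ζ : E, ζ ^ s = 1 → Fix G' ζ := fun s hs ζ hζ =>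
    hT ζ (Or.inr (Set.mem_biUnion (Finset.mem_coe.2 hs) hζ))
  -- the data attached to each small prime
  have key : ∀ s : ℕ, ∃ (N : Subgroup (E ≃ₐ[F] E)) (Z : Set ℕ) (q₁ : ℕ), s ∈ P → IsOpen (N : Set (E ≃ₐ[F] E)) ∧
      (∀ u ∈ G', ∀ w ∈ N, u * w * u⁻¹ ∈ N) ∧ (∀ g ∈ G', g ^ s ∈ N) ∧ (∃ g ∈ G', g ∉ N) ∧ Z.Finite ∧
      ∀ (p q f : ℕ) (A : ValuationSubring E) (B : ValuationSubring Qb) (σ : Gam) (φ : E ≃ₐ[F] E), q₁ ≤ q →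
        Over A q → Over B p → MinFrob S.H B p σ f → φ ∈ G' → φ ∉ N → Stab A φ → Stab A (S.a σ) → S.a σ ∈ N →
        p ∈ Z := by
    intro s
    by_cases hsP : s ∈ P
    swap
    · exact ⟨⊥, ∅, 0, fun h => absurd h hsP⟩
    have hs := hP s hsP
    obtain ⟨q, hq, hq'⟩ := Nat.exists_infinite_primes (s + 1)
    obtain ⟨A₀, hA₀⟩ := exists_val (L := E) hq'
    obtain ⟨ρ, hρ, hρ0, hg, -⟩ := hgen G' hle hn hG' s hs (hμ s hsP) A₀ q hA₀ (by omega)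
    obtain ⟨N, hN⟩ := hρ.exists_ker
    have hNo := hρ.ker_open hG' hN
    obtain ⟨ℓ, _, -, ζ, η, hζ, hη, heq, -, fin⟩ := gw hE S.toPreSetup hs G' N hG' h6 i hi (hT i (Or.inl rfl)) ρ hρ
      hρ0 hg hN 1 N.one_mem 0
    have hc : ∀ u ∈ G', ∀ w ∈ N, u * w * u⁻¹ ∈ N := fun u hu w hw => (hN _).2
      ⟨hn.conj_mem w ((hN w).1 hw).1 u, by rw [hρ.conj hu ((hN w).1 hw).1, ((hN w).1 hw).2]⟩
    refine ⟨N, _, ℓ + 1, fun _ => ⟨hNo, hc, fun g hg => (hN _).2 ⟨G'.pow_mem hg s, by rw [hρ.pow hg]; simp⟩,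
      hρ0.imp fun g hg => ⟨hg.1, fun h => hg.2 ((hN g).1 h).2⟩, fin,
      fun p q f A B σ φ hq hA hB hσ hφ hφN hs1 hs2 hm => ⟨B, σ, f, hB, hσ, fun a _ => ⟨N.pow_mem hm a, ?_⟩⟩⟩⟩
    have hd := N.pow_mem hm a
    have h1 := unr N hNo hη hA (by omega) (N.mul_mem (hc φ hφ _ hd) (N.inv_mem hd)) (dab hA hs1 (hs2.pow a))
    rw [hη.1 _ (hc φ hφ _ hd) _ (N.inv_mem hd), hη.inv hd, heq φ hφ _ hd, ← sub_eq_add_neg, ← sub_one_mul,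
      mul_eq_zero, sub_eq_zero] at h1
    have : NeZero s := ⟨hs.ne_zero⟩
    exact h1.resolve_left (hζ.pow_ne_one_of_pos_of_lt
      (fun h => hφN ((hN φ).2 ⟨hφ, (ZMod.val_eq_zero _).1 h⟩)) (ZMod.val_lt _))
  choose N Z q₁ key using key
  obtain ⟨V, hV, hVe⟩ := UC.exists_transfer G' hG'
  have hW := open_normalCore (S.H ⊓ V) (S.hH.inter hV)
  refine ⟨_, hW, S.H.index + 3, fun ℓ _ hℓ ⟨e⟩ ⟨Y⟩ => ?_⟩
  have hl : ℓ.Prime := Fact.out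
  have h2 : ℓ ≠ 2 := by omega
  obtain ⟨j⟩ := hVe _ ((Subgroup.normalCore_le _).trans inf_le_right)
  by_contra hc
  obtain ⟨η, hη, hη0, hη1⟩ := UC.exists_eta hE S.toPreSetup h2 hc
  have fin1 := g1 ℓ h2 S.H _ hW inferInstance ((Subgroup.normalCore_le _).trans inf_le_left) e η hη hη0
  obtain ⟨ζ, hζ⟩ := sc_prim hE hl.pos
  let κ := hζ.autToPow F
  let N' : ℕ → Subgroup (E ≃ₐ[F] E) := fun s => (powMonoidHom s : (ZMod ℓ)ˣ →* (ZMod ℓ)ˣ).range.comap κ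
  have hN' : ∀ s g, g ^ s ∈ N' s := fun s g => ⟨κ g, (map_pow κ g s).symm⟩
  obtain ⟨g, hg, hgN⟩ := UC.comb G' N N' P hP (fun s hs g hg => ⟨(key s hs).2.2.1 g hg, hN' s g⟩)
    (fun s hs => (key s hs).2.2.2.1) fun s hs => by
      obtain ⟨ξ, hξ⟩ := sc_prim hE (hP s hs).pos
      obtain ⟨u, hu⟩ := UC.exists_not_pow (hP s hs) (exists_prim_padic (e.comp j) (hP s hs)
        (by have := hPle s hs; omega) hξ (hμ s hs ξ hξ.pow_eq_one)).2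
      obtain ⟨g, hg, rfl⟩ : u ∈ G'.map κ := by rw [UC.kappa_surj G' (e.comp j) hζ]; trivial
      exact ⟨g, hg, hu⟩
  obtain ⟨W₁, hn₁, ho₁, hf₁⟩ := exists_open_fix (F := F) {ζ} (Set.finite_singleton ζ)
  let W := (G' ⊓ W₁) ⊓ ⨅ s ∈ P, N s
  have hWo : IsOpen (W : Set (E ≃ₐ[F] E)) := by
    simpa only [W, Subgroup.coe_iInf, Subgroup.coe_inf] using
      (hG'.inter ho₁).inter (isOpen_biInter_finset fun s hs => (key s hs).1)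
  have hWN : ∀ s ∈ P, W ≤ N s := fun s hs => inf_le_right.trans (iInf₂_le s hs)
  have hWN' : ∀ s, W ≤ N' s := fun s w hw => ⟨1, by
    rw [map_one, eq_comm, Units.ext_iff, UC.kappa_eq hζ (n := 1) (by rw [pow_one, hf₁ ζ rfl w hw.1.2])]; simp⟩
  obtain ⟨q₂, hq₂⟩ := dec1 W hWo
  obtain ⟨q₃, hq₃⟩ := ((kp hE S.toPreSetup ℓ h2 Y).union ((fin1.union
    (P.finite_toSet.biUnion fun s hs => (key s hs).2.2.2.2.1)).biUnion fun p _ => Y.fin p)).bddAbove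
  obtain ⟨q, hq, A, φ, hA, hφ, hfr, -, k, hk⟩ := fd G' W hWo (inf_le_left.trans inf_le_left) (fun u hu w hw =>
    ⟨⟨hn.conj_mem w hw.1.1 u, hn₁.conj_mem w hw.1.2 u⟩, Subgroup.mem_iInf.2 fun s => Subgroup.mem_iInf.2 fun hs =>
      (key s hs).2.1 u hu w (hWN s hs hw)⟩) hg (q₂ + q₃ + 1 + P.sup q₁)
  have hφN : ∀ M : Subgroup (E ≃ₐ[F] E), W ≤ M → g ∉ M → φ ∉ M := fun M hM hg h =>
    hg (M.inv_mem_iff.1 ((Subgroup.mul_mem_cancel_right _ (M.pow_mem h k)).1 (hM hk)))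
  obtain ⟨p, hp⟩ : ∃ p, Y.Hit p A := by
    by_contra h
    have := hq₃ (Or.inl ⟨A, hA, not_exists.1 h⟩)
    omega
  have hpZ := fun h => (by omega : ¬ q ≤ q₃) (hq₃ (Or.inr (Set.mem_biUnion h ⟨A, hA, hp⟩)))
  obtain ⟨B, σ, f, hB, hpl, hσ, hst, hroot⟩ := Y.near p A hp
  by_cases hf : f = 1
  · subst hf
    exact hpZ (Or.inl ⟨B, σ, hB, hσ.1, pow_one p ▸ hσ.2.2.1, hη1 B σ p _ hB hpl hσ.2.2.1 hroot⟩)
  obtain ⟨s, hs, m, rfl⟩ := Nat.exists_prime_and_dvd hf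
  have hsP : s ∈ P := Finset.mem_filter.2 ⟨Finset.mem_range.2 (Nat.lt_succ_of_le
    ((Nat.le_of_dvd hσ.2.1 (Dvd.intro _ rfl)).trans (hσ.le_index S.hH hB))), hs⟩
  obtain ⟨a, ha⟩ := (hq₂ q (by omega) A hA).2 φ hfr _ hst
  have h1 : S.a σ ∈ N' s := ⟨ZMod.unitOfCoprime p ((Nat.coprime_primes hB.1 hl).2 hpl) ^ m, by
    rw [eq_comm, Units.ext_iff, UC.kappa_eq hζ (hroot 1 ζ (by rw [pow_one, hζ.pow_eq_one]))]
    simp [← pow_mul, mul_comm]⟩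
  have h3 : s ∣ a := by
    by_contra h
    exact hφN _ (hWN' s) (hgN s hsP).2 (UC.mem_of_coprime ((Nat.Prime.coprime_iff_not_dvd hs).2 h) (hN' s φ)
      ((N' s).inv_mem_iff.1 ((Subgroup.mul_mem_cancel_right _ h1).1 (hWN' s ha))))
  obtain ⟨b, rfl⟩ := h3
  refine hpZ (Or.inr (Set.mem_biUnion (Finset.mem_coe.2 hsP) ((key s hsP).2.2.2.2.2 p q _ A B σ φ
    ((Finset.le_sup hsP).trans (by omega)) hA hB hσ hφ (hφN _ (hWN s hsP) (hgN s hsP).1) hfr.1 hst ?_)))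
  exact (Subgroup.mul_mem_cancel_left _ ((N s).inv_mem
    (pow_mul φ s b ▸ (N s).pow_mem ((key s hsP).2.2.1 φ hφ) b))).1 (hWN s hsP ha)

end Crest.Agent.R18
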