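import Crest.Agent.R18.Defs
import Crest.Agent.R18.ZE.Elim

/-! Row 18 block ZE: zero estimate on a torus. -/

set_option autoImplicit false
set_option linter.unusedSectionVars false
open scoped Pointwise NumberField
open IsDedekindDomain Crest.NumberTheoryR

namespace Crest.Agent.R18

variable {F E : Type*} [Field F] [NumberField F] [Field E] [Algebra F E] [IsGalois F E]

theorem ze_aux (K : Type*) [Field K] (d : ℕ) : ∀ κ : ℕ,
    ∃ J A₀ : ℕ, κ < J ∧ ∀ y : Fin J → Fin d → Kˣ,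
      (∀ m : Fin d → ℤ, m ≠ 0 → ∀ a : Fin J → ℤ, ∏ j, ∏ i, y j i ^ (a j * m i) = 1 → a = 0) →
      ∀ A : ℕ, A₀ ≤ A → ∀ P : MvPolynomial (Fin d) K, P ≠ 0 → P.totalDegree ≤ A ^ κ →
        ∃ a : Fin J → ℕ, (∀ j, a j < A) ∧
          MvPolynomial.eval (fun i => ∏ j, (y j i : K) ^ a j) P ≠ 0 := by
  induction d with
  | zero =>
    refine fun κ => ⟨κ + 1, 1, κ.lt_succ_self, fun y _ A hA P hP _ => ⟨0, fun _ => hA, ?_⟩⟩
    rw [P.eq_C_of_isEmpty] at hP ⊢
    simpa using hP
  | succ d ih =>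
    intro κ
    obtain ⟨J, A₀, hJ, h⟩ := ih (2 * κ + 1)
    refine ⟨J, 2 * (A₀ + 3 * 9 ^ κ + 1), by omega, fun y hy A hA P hP hD => ?_⟩
    have : Infinite K := by
      by_contra hK
      have := not_infinite_iff_finite.1 hK
      have h1 := congrFun (hy 1 one_ne_zero (fun _ => Nat.card Kˣ) (by simp)) ⟨0, by omega⟩
      exact (Nat.card_pos (α := Kˣ)).ne' (by simpa using h1)
    by_contra! hz
    obtain ⟨B, h1, h2, h3⟩ : ∃ B, 2 * B ≤ A ∧ A ≤ 3 * B ∧ A₀ + 3 * 9 ^ κ + 1 ≤ B := ⟨A / 2, by omega⟩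
    have h4 : A ^ κ ≤ 3 ^ κ * B ^ κ := by rw [← mul_pow]; gcongr
    have h5 : 9 ^ κ = 3 ^ κ * 3 ^ κ := by rw [← mul_pow]; rfl
    have h6 : 0 < B ^ κ := pow_pos (by omega) _
    have h7 : 0 < 3 ^ κ := by positivity
    let t : (Fin J → ℕ) → Fin (d + 1) → Kˣ := fun a i => ∏ j, y j i ^ a j
    have ht (a : Fin J → ℕ) (ha : ∀ j, a j < A) : MvPolynomial.eval (fun i => (t a i : K)) P = 0 := by
      simpa [t] using hz a ha
    refine (ZE.step (D := 3 ^ κ * B ^ κ) (Fintype.piFinset fun _ => Finset.range B) t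
      (fun a _ b _ m hm e => ?_) ?_ (t '' {a | ∀ j, a j < B}) hP (hD.trans h4) ?_ ?_).elim fun R ⟨h8, h9, h10⟩ => ?_
    rotate_right
    · refine (h (fun j i => y j i.succ) (fun m hm a e => hy (Fin.cons 0 m) (fun e' => hm ?_) a ?_) B
        (by omega) R h8 (h9.trans ?_)).elim fun a ⟨ha, h11⟩ => ?_
      rotate_right
      · exact h11 (by simpa [t] using h10 _ ⟨a, ha, rfl⟩)
      · exact funext fun i => congrFun e' i.succ
      · simpa [Fin.prod_univ_succ] using e
      · calc _ ≤ (3 * (3 ^ κ * B ^ κ)) * (3 ^ κ * B ^ κ) := by gcongr; nlinarith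
          _ = B ^ (2 * κ) * (3 * 9 ^ κ) := by rw [h5]; ring
          _ ≤ _ := by rw [pow_succ]; gcongr; omega
    · have := hy m hm (fun j => (a j : ℤ) - b j) (by
        rw [Finset.prod_comm, ← e]
        refine Finset.prod_congr rfl fun i _ => ?_
        rw [← Finset.prod_div_distrib, ← Finset.prod_zpow]
        refine Finset.prod_congr rfl fun j _ => ?_
        rw [zpow_mul, zpow_sub, zpow_natCast, zpow_natCast, div_eq_mul_inv])
      funext j
      have := congrFun this j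
      simp only [Pi.zero_apply] at this
      omega
    · rw [Fintype.card_piFinset, Finset.prod_const, Finset.card_range, Finset.card_univ, Fintype.card_fin]
      calc _ < B * B ^ κ := by gcongr; nlinarith
        _ ≤ _ := by rw [← pow_succ']; exact Nat.pow_le_pow_right (by omega) (by omega)
    · rintro _ ⟨a, ha, rfl⟩
      exact ht a fun j => by have := ha j; omega
    · rintro a ha _ ⟨b, hb, rfl⟩
      have e : t a * t b = t (a + b) := funext fun i => by simp [t, pow_add, Finset.prod_mul_distrib]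
      rw [e]
      refine ht _ fun j => ?_
      have := Finset.mem_range.1 (Fintype.mem_piFinset.1 ha j)
      have := hb j
      simp only [Pi.add_apply]
      omega

theorem ze (K : Type*) [Field K] (d κ : ℕ) :
    ∃ J A₀ : ℕ, ∀ y : Fin J → Fin d → Kˣ,
      (∀ m : Fin d → ℤ, m ≠ 0 → ∀ a : Fin J → ℤ, ∏ j, ∏ i, y j i ^ (a j * m i) = 1 → a = 0) →
      ∀ A : ℕ, A₀ ≤ A → ∀ P : MvPolynomial (Fin d) K, P ≠ 0 → P.totalDegree ≤ A ^ κ →
        ∃ a : Fin J → ℕ, (∀ j, a j < A) ∧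
          MvPolynomial.eval (fun i => ∏ j, (y j i : K) ^ a j) P ≠ 0 := by
  obtain ⟨J, A₀, -, h⟩ := ze_aux K d κ
  exact ⟨J, A₀, h⟩

end Crest.Agent.R18
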